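import Vale.Agent.P088.R2.H820.W.Ord

/-!
# Compositions with functions of one variable, uniformly in the family
-/

open MeasureTheory Set
open scoped ContDiff

set_option linter.unusedSectionVars false

noncomputable section

namespace Vale.Agent.P088.R2.H820.W

open Vale.Agent.P088.R2.H464.EP

variable {D E κ : Type} [NormedAddCommGroup E] [NormedSpace ℝ E] {F : Fa D E κ}

/-- Composition. -/
def cm (f : Sm ℝ) (t : Sm E) : Sm E := ⟨fun z => (f : ℝ → ℝ) ((t : E → ℝ) z), (scd f).comp (scd t)⟩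

@[simp] theorem cm_apply (f : Sm ℝ) (t : Sm E) (z : E) :
    (cm f t : E → ℝ) z = (f : ℝ → ℝ) ((t : E → ℝ) z) := rfl

/-- The derivative of a function of one variable. -/
def d1 : Sm ℝ →ₗ[ℝ] Sm ℝ := ds (1 : ℝ)

theorem d1_apply (f : Sm ℝ) (t : ℝ) : (d1 f : ℝ → ℝ) t = deriv (f : ℝ → ℝ) t := by
  change fderiv ℝ (f : ℝ → ℝ) t 1 = _
  rw [fderiv_apply_one_eq_deriv]

theorem d1_fn (f : Sm ℝ) : (d1 f : ℝ → ℝ) = deriv (f : ℝ → ℝ) := funext fun t => d1_apply f t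

theorem d1_mul (f g : Sm ℝ) : d1 (f * g) = d1 f * g + f * d1 g := ds_mul _ _ _

theorem d1_iter (f : Sm ℝ) (j : ℕ) : ((d1^[j] f : Sm ℝ) : ℝ → ℝ) = iteratedDeriv j (f : ℝ → ℝ) := by
  induction j generalizing f with
  | zero => rfl
  | succ j ih =>
    rw [Function.iterate_succ_apply, ih, d1_fn, iteratedDeriv_succ']

/-- The chain rule. -/
theorem ds_cm (v : E) (f : Sm ℝ) (t : Sm E) : ds v (cm f t) = cm (d1 f) t * ds v t := by
  ext z
  change fderiv ℝ (fun z => (f : ℝ → ℝ) ((t : E → ℝ) z)) z v =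
    (d1 f : ℝ → ℝ) ((t : E → ℝ) z) * fderiv ℝ (t : E → ℝ) z v
  rw [d1_apply]
  have h := (((sdf f ((t : E → ℝ) z)).hasDerivAt).comp_hasFDerivAt z (sdf t z).hasFDerivAt).fderiv
  have e : fderiv ℝ (fun z => (f : ℝ → ℝ) ((t : E → ℝ) z)) z =
      deriv (f : ℝ → ℝ) ((t : E → ℝ) z) • fderiv ℝ (t : E → ℝ) z := h
  rw [e]
  rfl

/-- All derivatives of `f d` are `O(h ^ m)` on the values of `t d`. -/
def BF (F : Fa D E κ) (m : ℤ) (f : D → Sm ℝ) (t : D → Sm E) : Prop :=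
  ∀ j : ℕ, ∃ C, 0 ≤ C ∧ ∀ d, ∀ z ∈ F.Ω d,
    |((d1^[j] (f d) : Sm ℝ) : ℝ → ℝ) ((t d : E → ℝ) z)| ≤ C * F.h d ^ m

section BF

variable {m m' : ℤ} {f g : D → Sm ℝ} {t : D → Sm E}

theorem BF.d (h : BF F m f t) : BF F m (fun d => d1 (f d)) t := fun j => by
  obtain ⟨C, hC, hh⟩ := h (j + 1)
  refine ⟨C, hC, fun d z hz => ?_⟩
  have := hh d z hz
  rwa [Function.iterate_succ_apply] at this

theorem BF.mono (h : BF F m f t) (hm : m ≤ m') : BF F m' f t := fun j => by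
  obtain ⟨C, hC, hh⟩ := h j
  exact ⟨C, hC, fun d z hz => (hh d z hz).trans (mul_le_mul_of_nonneg_left (F.zle d hm) hC)⟩

/-- **Composition.** -/
theorem Bk.cm (ht : ∀ i, Bd F 0 (fun d => ds (F.dir i) (t d))) : ∀ {k : ℕ} {f : D → Sm ℝ},
    BF F m f t → Bk F k m (fun d => W.cm (f d) (t d))
  | 0, _, hf => by
    obtain ⟨C, hC, hh⟩ := hf 0
    exact ⟨C, hC, fun d z hz => hh d z hz⟩
  | k + 1, f, hf => by
    refine ⟨?_, fun i => ?_⟩
    · obtain ⟨C, hC, hh⟩ := hf 0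
      exact ⟨C, hC, fun d z hz => hh d z hz⟩
    · have h1 := Bk.cm ht (k := k) hf.d
      have h2 := h1.mul (ht i k)
      rw [add_zero] at h2
      simpa only [ds_cm] using h2

theorem Bd.cm (hf : BF F m f t) (ht : ∀ i, Bd F 0 (fun d => ds (F.dir i) (t d))) :
    Bd F m (fun d => W.cm (f d) (t d)) := fun _ => Bk.cm ht hf

/-- A fixed function on a compact set of values. -/
theorem bf_const {f : Sm ℝ} {K : Set ℝ} (hK : IsCompact K)
    (ht : ∀ d, ∀ z ∈ F.Ω d, (t d : E → ℝ) z ∈ K) : BF F 0 (fun _ => f) t := fun j => by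
  obtain ⟨C, hC⟩ := hK.exists_bound_of_continuousOn (f := ((d1^[j] f : Sm ℝ) : ℝ → ℝ))
    (sct _).continuousOn
  refine ⟨max C 0, le_max_right _ _, fun d z hz => ?_⟩
  rw [zpow_zero, mul_one]
  exact (hC _ (ht d z hz)).trans (le_max_left _ _)

theorem cm_fst_eq {f g : Sm ℝ} (s : Sm E) {U : Set E} (h : ∀ z ∈ U, (f : ℝ → ℝ) ((s : E → ℝ) z) =
    (g : ℝ → ℝ) ((s : E → ℝ) z)) : ∀ z ∈ U, (W.cm f s : E → ℝ) z = (W.cm g s : E → ℝ) z := h

end BF

/-- Linear functions composed with ... : all higher derivatives bounded. -/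
theorem bd_of_dr {m : ℤ} {t : D → Sm E} (h0 : B0 F m t)
    (ht : ∀ i, Bd F m (fun d => ds (F.dir i) (t d))) : Bd F m t := fun k => by
  cases k with
  | zero => exact h0
  | succ k => exact ⟨h0, fun i => ht i k⟩

/-- A constant family. -/
theorem bd_const {m : ℤ} (hm : 0 ≤ m) {c : D → ℝ} {C : ℝ} (hc : ∀ d, |c d| ≤ C) :
    Bd F m (fun d => c d • (1 : Sm E)) := by
  refine bd_of_dr ⟨|C|, abs_nonneg _, fun d z _ => ?_⟩ fun i => ?_
  · have e : ((c d • (1 : Sm E) : Sm E) : E → ℝ) z = c d * 1 := rfl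
    rw [e, mul_one]
    have h1 : (1 : ℝ) ≤ F.h d ^ m := by
      have := F.zle d hm
      rwa [zpow_zero] at this
    calc |c d| ≤ C := hc d
      _ ≤ |C| := le_abs_self _
      _ ≤ |C| * F.h d ^ m := le_mul_of_one_le_right (abs_nonneg _) h1
  · have : (fun d => ds (F.dir i) (c d • (1 : Sm E))) = fun _ => 0 := by
      funext d
      rw [map_smul, ds_one, smul_zero]
    rw [this]
    exact Bd.zero

end Vale.Agent.P088.R2.H820.W
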