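import Vale.Agent.P088.R2.H820.T.Or

/-!
# The family of all flat weights near the critical surface
-/

open MeasureTheory Set Metric
open scoped ContDiff

set_option linter.unusedSectionVars false
set_option linter.dupNamespace false

noncomputable section

namespace Vale.Agent.P088.R2.H820.W

open Vale.Agent.P088.R2.H464.EP

/-- Nested cut-offs of one variable. -/
theorem nest (F : Sm ℝ) (hF : ∀ t, |(F : ℝ → ℝ) t| ≤ 1) {δ : ℝ} (hδ : 0 < δ) :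
    ∃ g : ℕ → Sm ℝ, g 0 = F ∧ (∀ j t, |(g j : ℝ → ℝ) t| ≤ 1) ∧
      (∀ j t, (g j : ℝ → ℝ) t ≠ 0 → (g (j + 1) : ℝ → ℝ) t = 1) ∧
      ∀ j ≤ 3, ∀ t, (g j : ℝ → ℝ) t ≠ 0 →
        ∃ x, (F : ℝ → ℝ) x ≠ 0 ∧ |t - x| < δ := by
  obtain ⟨φ, hφ⟩ := exists_mo (volume : Measure ℝ) (r := δ / 9) (by positivity)
  refine ⟨ch volume φ (δ / 9) F, rfl, fun j t => ?_, fun j t ht => ch_su hφ (by positivity) F j ht,
    fun j hj t ht => ?_⟩
  · cases j with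
    | zero => exact hF t
    | succ j => exact ch_01 hφ F j t
  · cases j with
    | zero => exact ⟨t, ht, by simpa using hδ⟩
    | succ j =>
      have h1 := ch_ne hφ F j ht
      rw [mem_thickening_iff] at h1
      obtain ⟨x, hx, h2⟩ := h1
      refine ⟨x, hx, ?_⟩
      rw [← Real.dist_eq]
      refine h2.trans_le ?_
      have h3 : (j : ℝ) ≤ 2 := by exact_mod_cast (by omega : j ≤ 2)
      nlinarith

section fam

variable {E ι : Type} [NormedAddCommGroup E] [NormedSpace ℝ E] [Fintype ι] [DecidableEq ι]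

/-- The weight. -/
def Ori.Wt (o : Ori E ι) (S Φ : Sm ℝ) (l : Sm (ι → ℝ)) : Sm E :=
  cm Φ (o.u l) + cm expS (o.u l) * cm S o.τ

/-- The scale of the gradient. -/
def Ori.At (o : Ori E ι) (S Φ : Sm ℝ) (l : Sm (ι → ℝ)) : Sm E :=
  cm (d1 Φ) (o.u l) + cm expS (o.u l) * cm S o.τ

theorem Ori.At_pos (o : Ori E ι) {S Φ : Sm ℝ} (hS : ∀ x, 0 ≤ x → 0 ≤ (S : ℝ → ℝ) x)
    (hΦ : ∀ x, 0 < (d1 Φ : ℝ → ℝ) x) (l : Sm (ι → ℝ)) (z : E) :
    0 < (o.At S Φ l : E → ℝ) z := by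
  change 0 < (d1 Φ : ℝ → ℝ) _ + Real.exp _ * (S : ℝ → ℝ) ((o.τ : E → ℝ) z)
  have h1 : 0 ≤ (o.τ : E → ℝ) z := by
    rw [o.τ_val]; exact Finset.sum_nonneg fun i _ => sq_nonneg _
  have h2 := hS _ h1
  have h3 := hΦ ((o.u l : E → ℝ) z)
  positivity

/-- The inverse of a positive function. -/
def ivS (f : Sm E) (hf : ∀ z, 0 < (f : E → ℝ) z) : Sm E :=
  ⟨fun z => ((f : E → ℝ) z)⁻¹, (scd f).inv fun z => (hf z).ne'⟩

/-- The data. -/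
structure TD (o : Ori E ι) (S : Sm ℝ) (a b α β t f ρ : ℝ) (B : ℕ → ℝ) where
  m : ℝ
  m0 : 0 ≤ m
  Φ : Sm ℝ
  l : Sm (ι → ℝ)
  w : ι → ℝ
  s : ℝ
  Φ1 : ∀ x, 0 < (d1 Φ : ℝ → ℝ) x
  ΦB : ∀ (j : ℕ) (x : ℝ), α < x - m → x - m < β →
    |((d1^[j] (d1 Φ) : Sm ℝ) : ℝ → ℝ) x| ≤ B j * Real.exp m
  K : ∀ x : ℝ, α < x - m → x - m < β →
    |(d1 (d1 Φ) : ℝ → ℝ) x - f * (d1 Φ : ℝ → ℝ) x| ≤ ρ * Real.exp x
  s0 : |s| ≤ ρ
  lx : ∀ z : E, a < (o.τ : E → ℝ) z → (o.τ : E → ℝ) z < b →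
    (4 * (∑ i, (ds (o.dir (Sum.inl i)) (o.Wt S Φ l) : E → ℝ) z ^ 2) /
      (t * (o.At S Φ l : E → ℝ) z) ^ 2 - 1) / 3 < 2 →
    α < (o.u l : E → ℝ) z - m → (o.u l : E → ℝ) z - m < β →
    (∀ i, (Ori.pds i l : (ι → ℝ) → ℝ) (o.π z) = w i + s * o.π z i) ∧
    (∀ i, (Ori.pds i l : (ι → ℝ) → ℝ) (o.π' z) = w i + s * o.π' z i) ∧
    |∑ i, (Ori.pds i l : (ι → ℝ) → ℝ) (o.π z) ^ 2 - 1| ≤ ρ

namespace TD

variable {o : Ori E ι} {S : Sm ℝ} {a b α β t f ρ : ℝ} {B : ℕ → ℝ}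
  (hS : ∀ x, 0 ≤ x → 0 ≤ (S : ℝ → ℝ) x)

/-- The variable of the tube. -/
def tx (hS : ∀ x, 0 ≤ x → 0 ≤ (S : ℝ → ℝ) x) (d : TD o S a b α β t f ρ B) : Sm E :=
  (1 / 3 : ℝ) • ((4 / t ^ 2 : ℝ) • ((∑ i, ds (o.dir (Sum.inl i)) (o.Wt S d.Φ d.l) *
    ds (o.dir (Sum.inl i)) (o.Wt S d.Φ d.l)) * (ivS (o.At S d.Φ d.l) (o.At_pos hS d.Φ1 d.l) *
    ivS (o.At S d.Φ d.l) (o.At_pos hS d.Φ1 d.l))) - 1)

theorem tx_val (d : TD o S a b α β t f ρ B) (z : E) : (d.tx hS : E → ℝ) z =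
    (4 * (∑ i, (ds (o.dir (Sum.inl i)) (o.Wt S d.Φ d.l) : E → ℝ) z ^ 2) /
      (t * (o.At S d.Φ d.l : E → ℝ) z) ^ 2 - 1) / 3 := by
  have e1 : (d.tx hS : E → ℝ) z = 1 / 3 * (4 / t ^ 2 *
      (((∑ i, ds (o.dir (Sum.inl i)) (o.Wt S d.Φ d.l) *
        ds (o.dir (Sum.inl i)) (o.Wt S d.Φ d.l) : Sm E) : E → ℝ) z *
      (((o.At S d.Φ d.l : E → ℝ) z)⁻¹ * ((o.At S d.Φ d.l : E → ℝ) z)⁻¹)) - 1) := rfl
  rw [e1, vsum]
  have e2 : ∀ i, ((ds (o.dir (Sum.inl i)) (o.Wt S d.Φ d.l) *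
      ds (o.dir (Sum.inl i)) (o.Wt S d.Φ d.l) : Sm E) : E → ℝ) z =
      (ds (o.dir (Sum.inl i)) (o.Wt S d.Φ d.l) : E → ℝ) z ^ 2 := fun i => by
    change (ds (o.dir (Sum.inl i)) (o.Wt S d.Φ d.l) : E → ℝ) z *
      (ds (o.dir (Sum.inl i)) (o.Wt S d.Φ d.l) : E → ℝ) z = _
    ring
  simp only [e2]
  rw [mul_pow, div_eq_mul_inv (4 * _), mul_inv, ← pow_two, inv_pow]
  ring

/-- The region. -/
def O (hS : ∀ x, 0 ≤ x → 0 ≤ (S : ℝ → ℝ) x) (d : TD o S a b α β t f ρ B) : Set E :=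
  {z | a < (o.τ : E → ℝ) z ∧ (o.τ : E → ℝ) z < b ∧ (d.tx hS : E → ℝ) z < 2 ∧
    α < (o.u d.l : E → ℝ) z - d.m ∧ (o.u d.l : E → ℝ) z - d.m < β}

theorem O_open (d : TD o S a b α β t f ρ B) : IsOpen (d.O hS) := by
  have h1 := sct o.τ
  have h2 := sct (d.tx hS)
  have h3 := sct (o.u d.l)
  exact (isOpen_lt continuous_const h1).inter ((isOpen_lt h1 continuous_const).inter
    ((isOpen_lt h2 continuous_const).inter ((isOpen_lt continuous_const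
      (h3.sub continuous_const)).inter (isOpen_lt (h3.sub continuous_const) continuous_const))))

/-- The family. -/
def fa (hS : ∀ x, 0 ≤ x → 0 ≤ (S : ℝ → ℝ) x) : Fa (TD o S a b α β t f ρ B) E (ι ⊕ ι) where
  h d := Real.exp (d.m / 2)
  h1 d := Real.one_le_exp (by have := d.m0; positivity)
  Ω d := d.O hS
  op d := d.O_open hS
  dir := o.dir

theorem h2 (d : TD o S a b α β t f ρ B) : (fa hS).h d ^ 2 = Real.exp d.m := by
  change Real.exp (d.m / 2) ^ 2 = _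
  rw [← Real.exp_nat_mul]
  congr 1
  push_cast
  ring

variable {hS}

theorem on (d : TD o S a b α β t f ρ B) {z : E} (hz : z ∈ d.O hS) :
    (∀ i, (Ori.pds i d.l : (ι → ℝ) → ℝ) (o.π z) = d.w i + d.s * o.π z i) ∧
    (∀ i, (Ori.pds i d.l : (ι → ℝ) → ℝ) (o.π' z) = d.w i + d.s * o.π' z i) ∧
    |∑ i, (Ori.pds i d.l : (ι → ℝ) → ℝ) (o.π z) ^ 2 - 1| ≤ ρ := by
  obtain ⟨h1, h2, h3, h4, h5⟩ := hz
  rw [tx_val] at h3
  exact d.lx z h1 h2 h3 h4 h5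

theorem bq1 (d : TD o S a b α β t f ρ B) {z : E} (hz : z ∈ d.O hS) (i : ι) :
    |(o.q i : E → ℝ) z| ≤ √b := by
  rw [← Real.sqrt_sq_eq_abs]
  refine Real.sqrt_le_sqrt ?_
  have h := hz.2.1.le
  rw [o.τ_val] at h
  exact (Finset.single_le_sum (f := fun i => (o.q i : E → ℝ) z ^ 2)
    (fun i _ => sq_nonneg _) (Finset.mem_univ i)).trans h

theorem q_val (z : E) (i : ι) : (o.q i : E → ℝ) z = o.π z i - o.π' z i := rfl

/-- The affine functions. -/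
def aff (d : TD o S a b α β t f ρ B) (π : E →L[ℝ] (ι → ℝ)) (i : ι) : Sm E :=
  d.w i • (1 : Sm E) + d.s • lp (co i) π

theorem aff_val (d : TD o S a b α β t f ρ B) (π : E →L[ℝ] (ι → ℝ)) (i : ι) (z : E) :
    (d.aff π i : E → ℝ) z = d.w i + d.s * π z i := by
  change d.w i * 1 + d.s * π z i = _
  rw [mul_one]

theorem ds_aff (d : TD o S a b α β t f ρ B) (π : E →L[ℝ] (ι → ℝ)) (i : ι) (v : E) :
    ds v (d.aff π i) = (d.s * π v i) • (1 : Sm E) := by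
  unfold aff
  rw [map_add, map_smul, map_smul, ds_one, smul_zero, zero_add, ds_lp, ds_co]
  ext z
  change d.s * (π v i * 1) = d.s * π v i * 1
  ring

/-- Bounds of a function which is affine on the region. -/
theorem b_aff {π : E →L[ℝ] (ι → ℝ)} {i : ι}
    {g : TD o S a b α β t f ρ B → Sm E}
    (hg : ∀ d, ∀ z ∈ d.O hS, (g d : E → ℝ) z = d.w i + d.s * π z i) {C : ℝ}
    (hC : ∀ d, ∀ z ∈ d.O hS, |(g d : E → ℝ) z| ≤ C) : Bd (fa hS) 0 g := by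
  refine bd_of_dr ⟨|C|, abs_nonneg _, fun d z hz => ?_⟩ fun k => ?_
  · rw [zpow_zero, mul_one]
    exact (hC d z hz).trans (le_abs_self _)
  · have h1 : Bd (fa hS) 0 (fun d : TD o S a b α β t f ρ B =>
        (d.s * π (o.dir k) i) • (1 : Sm E)) := by
      refine bd_const le_rfl (C := ρ * |π (o.dir k) i|) fun d => ?_
      rw [abs_mul]
      exact mul_le_mul_of_nonneg_right d.s0 (abs_nonneg _)
    refine h1.congr fun d z hz => ?_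
    rw [← ds_aff]
    refine ds_congr_on (d.O_open hS) (fun z hz => ?_) _ z hz
    rw [aff_val]
    exact (hg d z hz).symm

end TD

end fam

end Vale.Agent.P088.R2.H820.W
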