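import Vale.Agent.P088.R2.H820.T.Fam

/-!
# The family of all flat weights near the critical surface: the hypotheses
-/

open MeasureTheory Set Metric
open scoped ContDiff

set_option linter.unusedSectionVars false
set_option linter.dupNamespace false

noncomputable section

namespace Vale.Agent.P088.R2.H820.W

open Vale.Agent.P088.R2.H464.EP

namespace TD

variable {E ι : Type} [NormedAddCommGroup E] [NormedSpace ℝ E] [Fintype ι] [DecidableEq ι]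
  {o : Ori E ι} {S : Sm ℝ} {a b α β t f ρ : ℝ} {B : ℕ → ℝ}
  {hS : ∀ x, 0 ≤ x → 0 ≤ (S : ℝ → ℝ) x}

theorem p_le (hρ1 : ρ ≤ 1) (d : TD o S a b α β t f ρ B) {z : E} (hz : z ∈ d.O hS) (i : ι) :
    |(Ori.pds i d.l : (ι → ℝ) → ℝ) (o.π z)| ≤ 2 := by
  have h1 := (abs_le.1 (d.on hz).2.2).2
  have h2 := Finset.single_le_sum (f := fun i => (Ori.pds i d.l : (ι → ℝ) → ℝ) (o.π z) ^ 2)
    (fun i _ => sq_nonneg _) (Finset.mem_univ i)
  have h3 : (Ori.pds i d.l : (ι → ℝ) → ℝ) (o.π z) ^ 2 ≤ 2 ^ 2 := by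
    refine h2.trans ?_
    linarith
  exact abs_le_of_sq_le_sq h3 (by norm_num)

theorem pp_le (d : TD o S a b α β t f ρ B) {z : E} (hz : z ∈ d.O hS) (i : ι) :
    |(Ori.pds i d.l : (ι → ℝ) → ℝ) (o.π z) - (Ori.pds i d.l : (ι → ℝ) → ℝ) (o.π' z)| ≤
      ρ * √b := by
  rw [(d.on hz).1 i, (d.on hz).2.1 i]
  have e : d.w i + d.s * o.π z i - (d.w i + d.s * o.π' z i) = d.s * (o.q i : E → ℝ) z := by
    rw [q_val]; ring
  rw [e, abs_mul]
  exact mul_le_mul d.s0 (d.bq1 hz i) (abs_nonneg _) ((abs_nonneg _).trans d.s0)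

theorem p'_le (hρ1 : ρ ≤ 1) (d : TD o S a b α β t f ρ B) {z : E} (hz : z ∈ d.O hS) (i : ι) :
    |(Ori.pds i d.l : (ι → ℝ) → ℝ) (o.π' z)| ≤ 2 + √b := by
  have h1 := d.p_le hρ1 hz i
  have h2 := d.pp_le hz i
  have h3 : ρ * √b ≤ √b := mul_le_of_le_one_left (Real.sqrt_nonneg _) hρ1
  have h4 := abs_le.1 h1
  have h5 := abs_le.1 h2
  exact abs_le.2 ⟨by linarith, by linarith⟩

/-- The weights of the family. -/
def wd (o : Ori E ι) (α β t f ρ : ℝ) (B : ℕ → ℝ) (b : ℝ) (hS : ∀ x, 0 ≤ x → 0 ≤ (S : ℝ → ℝ) x)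
    (ha : 0 < a) (hρ1 : ρ ≤ 1) :
    Wd (TD o S a b α β t f ρ B) E ι S a b (Real.exp α) where
  toFa := fa hS
  u d := o.u d.l
  τ _ := o.τ
  q i _ := o.q i
  Φ d := d.Φ
  C₁ := Real.exp β
  a0 := ha
  c10 := Real.exp_pos _
  dτx i _ := o.τx i
  dτy i _ := o.τy i
  qx i l _ := o.qx i l
  qy i l _ := o.qy i l
  uxy i j d := o.uxy i j d.l
  τq _ z := o.τ_val z
  τab _ _ hz := ⟨hz.1.le, hz.2.1.le⟩
  bu k := by
    rcases k with i | i
    · have e : (fun d : TD o S a b α β t f ρ B => ds (o.dir (Sum.inl i)) (o.u d.l)) =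
          fun d => lp (Ori.pds i d.l) o.π := funext fun d => o.ux i d.l
      change Bd _ 0 (fun d : TD o S a b α β t f ρ B => ds (o.dir (Sum.inl i)) (o.u d.l))
      rw [e]
      exact b_aff (fun d z hz => (d.on hz).1 i) fun d z hz => d.p_le hρ1 hz i
    · have e : (fun d : TD o S a b α β t f ρ B => ds (o.dir (Sum.inr i)) (o.u d.l)) =
          fun d => lp (Ori.pds i d.l) o.π' := funext fun d => o.uy i d.l
      change Bd _ 0 (fun d : TD o S a b α β t f ρ B => ds (o.dir (Sum.inr i)) (o.u d.l))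
      rw [e]
      exact b_aff (fun d z hz => (d.on hz).2.1 i) fun d z hz => d.p'_le hρ1 hz i
  bΦ j := by
    refine ⟨|B j|, abs_nonneg _, fun d z hz => ?_⟩
    have h1 := d.ΦB j ((o.u d.l : E → ℝ) z) hz.2.2.2.1 hz.2.2.2.2
    have h2 : (fa hS).h d ^ (2 : ℤ) = Real.exp d.m := by
      rw [← h2 hS d]; norm_cast
    rw [h2]
    exact h1.trans (mul_le_mul_of_nonneg_right (le_abs_self _) (Real.exp_pos _).le)
  E1 d z hz := by
    rw [h2, ← Real.exp_add]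
    exact Real.exp_le_exp.2 (by linarith [hz.2.2.2.1])
  E2 d z hz := by
    rw [h2, ← Real.exp_add]
    exact Real.exp_le_exp.2 (by linarith [hz.2.2.2.2])

variable {ha : 0 < a} {hρ1 : ρ ≤ 1}

theorem wd_W (d : TD o S a b α β t f ρ B) :
    (wd o α β t f ρ B b hS ha hρ1).W d = o.Wt S d.Φ d.l := rfl

theorem wd_A (d : TD o S a b α β t f ρ B) :
    (wd o α β t f ρ B b hS ha hρ1).A d = o.At S d.Φ d.l := rfl

/-- The bound of `|W_x|` on the region. -/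
theorem wx_le {M C₀ : ℝ} (hM : ∀ τ ∈ Icc a b, 2 * (d1 S : ℝ → ℝ) τ ≤ M)
    (hM0 : ∀ τ ∈ Icc a b, 0 ≤ (d1 S : ℝ → ℝ) τ) (hC : 3 * M * √b ≤ C₀) (ht : 0 < t)
    (ht1 : t ≤ 1 / 4) (hρ : ρ ≤ 1 / 2) (ha0 : 0 < a) (d : TD o S a b α β t f ρ B) {z : E}
    (hz : z ∈ d.O hS) (i : ι) :
    |(ds (o.dir (Sum.inl i)) (o.Wt S d.Φ d.l) : E → ℝ) z| ≤
      2 * t * C₀ * Real.exp ((o.u d.l : E → ℝ) z) := by
  set G := wd o α β t f ρ B b hS ha0 (hρ.trans (by norm_num)) with hG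
  have h3 := hz.2.2.1
  rw [tx_val] at h3
  set X : ι → ℝ := fun i => (ds (o.dir (Sum.inl i)) (o.Wt S d.Φ d.l) : E → ℝ) z with hX
  set A0 := (o.At S d.Φ d.l : E → ℝ) z with hA0
  have A0p : 0 < A0 := o.At_pos hS d.Φ1 d.l z
  set e0 := Real.exp ((o.u d.l : E → ℝ) z) with he0
  have e0p : 0 < e0 := Real.exp_pos _
  set τ := (o.τ : E → ℝ) z with hτ
  have hτm : τ ∈ Icc a b := ⟨hz.1.le, hz.2.1.le⟩
  have hb : 0 ≤ b := (ha0.le.trans hτm.1).trans hτm.2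
  set k := 2 * (d1 S : ℝ → ℝ) τ with hk
  have k0 : 0 ≤ k := by have := hM0 τ hτm; positivity
  have kM : k ≤ M := hM τ hτm
  -- the sum of the squares
  have s1 : ∑ i, X i ^ 2 ≤ 7 / 4 * (t * A0) ^ 2 := by
    have h4 : 4 * (∑ i, X i ^ 2) / (t * A0) ^ 2 ≤ 7 := by linarith
    have h5 : 0 < (t * A0) ^ 2 := by positivity
    rw [div_le_iff₀ h5] at h4
    linarith
  -- the formula
  have s2 : ∀ i, X i = A0 * (Ori.pds i d.l : (ι → ℝ) → ℝ) (o.π z) + e0 * k * (o.q i : E → ℝ) z := by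
    intro i
    have h4 := G.W_x i d
    have h5 : (ds (o.dir (Sum.inl i)) (o.Wt S d.Φ d.l)) = G.A d * G.p (Sum.inl i) d +
      G.B d * G.q i d := h4
    have h6 : G.p (Sum.inl i) d = lp (Ori.pds i d.l) o.π := o.ux i d.l
    simp only [hX]
    rw [h5, h6]
    change A0 * (Ori.pds i d.l : (ι → ℝ) → ℝ) (o.π z) + (G.B d : E → ℝ) z *
      (o.q i : E → ℝ) z = _
    have h7 : (G.B d : E → ℝ) z = 2 * (e0 * (d1 S : ℝ → ℝ) τ) := rfl
    rw [h7, hk]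
    ring
  have s3 : A0 ^ 2 * ∑ i, (Ori.pds i d.l : (ι → ℝ) → ℝ) (o.π z) ^ 2 ≤
      2 * (∑ i, X i ^ 2) + 2 * ((e0 * k) ^ 2 * τ) := by
    rw [hτ, o.τ_val, Finset.mul_sum, Finset.mul_sum, Finset.mul_sum, Finset.mul_sum,
      ← Finset.sum_add_distrib]
    refine Finset.sum_le_sum fun i _ => ?_
    rw [s2 i]
    nlinarith [sq_nonneg (A0 * (Ori.pds i d.l : (ι → ℝ) → ℝ) (o.π z) +
      2 * (e0 * k * (o.q i : E → ℝ) z))]
  have s4 : 1 / 2 ≤ ∑ i, (Ori.pds i d.l : (ι → ℝ) → ℝ) (o.π z) ^ 2 := by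
    have := (abs_le.1 (d.on hz).2.2).1
    linarith
  have s5 : A0 ^ 2 * (1 / 2) ≤ A0 ^ 2 * ∑ i, (Ori.pds i d.l : (ι → ℝ) → ℝ) (o.π z) ^ 2 :=
    mul_le_mul_of_nonneg_left s4 (sq_nonneg _)
  have t2 : t ^ 2 ≤ 1 / 16 := by nlinarith
  have s6 : (t * A0) ^ 2 ≤ 1 / 16 * A0 ^ 2 := by
    rw [mul_pow]
    exact mul_le_mul_of_nonneg_right t2 (sq_nonneg _)
  have s7 : (e0 * k) ^ 2 * τ ≤ (e0 * M * √b) ^ 2 := by
    have h4 : (e0 * k) ^ 2 ≤ (e0 * M) ^ 2 :=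
      pow_le_pow_left₀ (by positivity) (mul_le_mul_of_nonneg_left kM e0p.le) 2
    have h5 : (e0 * M * √b) ^ 2 = (e0 * M) ^ 2 * b := by rw [mul_pow, Real.sq_sqrt hb]
    rw [h5]
    exact mul_le_mul h4 hτm.2 (ha0.le.trans hτm.1) (sq_nonneg _)
  have s8 : A0 ^ 2 ≤ (3 * (e0 * M * √b)) ^ 2 := by
    nlinarith [sq_nonneg (e0 * M * √b), sq_nonneg A0]
  have M0 : 0 ≤ M := k0.trans kM
  have s9 : A0 ≤ 3 * (e0 * M * √b) := by
    have h4 : 0 ≤ 3 * (e0 * M * √b) := by positivity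
    exact (sq_le_sq₀ A0p.le h4).1 s8
  have s10 : A0 ≤ e0 * C₀ := by
    refine s9.trans ?_
    have := mul_le_mul_of_nonneg_left hC e0p.le
    linarith
  have s11 : X i ^ 2 ≤ (2 * (t * A0)) ^ 2 := by
    have h4 := Finset.single_le_sum (f := fun i => X i ^ 2) (fun i _ => sq_nonneg _)
      (Finset.mem_univ i)
    have h5 := h4.trans s1
    beta_reduce at h5
    nlinarith [sq_nonneg (t * A0)]
  have s12 : |X i| ≤ 2 * (t * A0) := abs_le_of_sq_le_sq s11 (by positivity)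
  refine s12.trans ?_
  have := mul_le_mul_of_nonneg_left s10 ht.le
  linarith

/-- **Near the critical surface.** -/
theorem nr {M C₀ ρ₀ : ℝ} (hM : ∀ τ ∈ Icc a b, 2 * (d1 S : ℝ → ℝ) τ ≤ M)
    (hM0 : ∀ τ ∈ Icc a b, 0 ≤ (d1 S : ℝ → ℝ) τ) (hC : 3 * M * √b ≤ C₀) (ht : 0 < t)
    (ht1 : t ≤ 1 / 4) (ht2 : 2 * t * C₀ ≤ ρ₀) (hρ : ρ ≤ 1 / 2) (hρ2 : ρ * (1 + √b) ≤ ρ₀)
    (hρ0 : 0 ≤ ρ) : (wd o α β t f ρ B b hS ha hρ1).Nr f ρ₀ := by
  have hb0 := Real.sqrt_nonneg b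
  have hρ3 : ρ ≤ ρ₀ := by nlinarith
  refine ⟨fun d z hz => (d.Φ1 _).le, fun d z hz => ?_, fun d z hz => ?_, fun d z hz i => ?_,
    fun d z hz i l => ?_, fun d z hz i l => ?_, fun d z hz i => ?_⟩
  · exact (d.K _ hz.2.2.2.1 hz.2.2.2.2).trans
      (mul_le_mul_of_nonneg_right hρ3 (Real.exp_pos _).le)
  · have h1 := (d.on hz).2.2
    have e : ∀ i, ((wd o α β t f ρ B b hS ha hρ1).p (Sum.inl i) d : E → ℝ) z =
        (Ori.pds i d.l : (ι → ℝ) → ℝ) (o.π z) := fun i => by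
      have : (wd o α β t f ρ B b hS ha hρ1).p (Sum.inl i) d = lp (Ori.pds i d.l) o.π :=
        o.ux i d.l
      rw [this]; rfl
    simp only [e]
    exact h1.trans hρ3
  · have e1 : (wd o α β t f ρ B b hS ha hρ1).p (Sum.inl i) d = lp (Ori.pds i d.l) o.π :=
        o.ux i d.l
    have e2 : (wd o α β t f ρ B b hS ha hρ1).p (Sum.inr i) d = lp (Ori.pds i d.l) o.π' :=
        o.uy i d.l
    rw [e1, e2]
    refine (d.pp_le hz i).trans ?_
    nlinarith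
  · have e1 : (wd o α β t f ρ B b hS ha hρ1).p (Sum.inl l) d = lp (Ori.pds l d.l) o.π :=
        o.ux l d.l
    rw [e1]
    have h1 := ds_congr_on (d.O_open hS) (f := lp (Ori.pds l d.l) o.π) (g := d.aff o.π l)
      (fun z hz => by rw [aff_val]; exact (d.on hz).1 l) (o.dir (Sum.inl i)) z hz
    change |(ds (o.dir (Sum.inl i)) (lp (Ori.pds l d.l) o.π) : E → ℝ) z| ≤ _
    rw [h1, ds_aff, o.h1]
    change |d.s * (Pi.single i 1 : ι → ℝ) l * 1| ≤ _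
    rw [mul_one, abs_mul]
    have h2 : |(Pi.single i 1 : ι → ℝ) l| ≤ 1 := by
      by_cases h : i = l
      · rw [h, Pi.single_eq_same]; simp
      · rw [Pi.single_eq_of_ne (Ne.symm h)]; simp
    have h3 := mul_le_mul d.s0 h2 (abs_nonneg _) hρ0
    linarith
  · have e1 : (wd o α β t f ρ B b hS ha hρ1).p (Sum.inr l) d = lp (Ori.pds l d.l) o.π' :=
        o.uy l d.l
    rw [e1]
    have h1 := ds_congr_on (d.O_open hS) (f := lp (Ori.pds l d.l) o.π') (g := d.aff o.π' l)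
      (fun z hz => by rw [aff_val]; exact (d.on hz).2.1 l) (o.dir (Sum.inr i)) z hz
    change |(ds (o.dir (Sum.inr i)) (lp (Ori.pds l d.l) o.π') : E → ℝ) z| ≤ _
    rw [h1, ds_aff, o.h4]
    change |d.s * (Pi.single i 1 : ι → ℝ) l * 1| ≤ _
    rw [mul_one, abs_mul]
    have h2 : |(Pi.single i 1 : ι → ℝ) l| ≤ 1 := by
      by_cases h : i = l
      · rw [h, Pi.single_eq_same]; simp
      · rw [Pi.single_eq_of_ne (Ne.symm h)]; simp
    have h3 := mul_le_mul d.s0 h2 (abs_nonneg _) hρ0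
    linarith
  · have h1 := d.wx_le hM hM0 hC ht ht1 hρ ha hz i
    refine h1.trans ?_
    exact mul_le_mul_of_nonneg_right ht2 (Real.exp_pos _).le

end TD

end Vale.Agent.P088.R2.H820.W
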