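import Vale.Agent.P088.R2.H820.T.Fam2

/-!
# The family of all flat weights near the critical surface: the cut-offs
-/

open MeasureTheory Set Metric
open scoped ContDiff

set_option linter.unusedSectionVars false
set_option linter.dupNamespace false

noncomputable section

namespace Vale.Agent.P088.R2.H820.W

open Vale.Agent.P088.R2.H464.EP

namespace TD

variable {E ι : Type} [NormedAddCommGroup E] [NormedSpace ℝ E] [Fintype ι] [DecidableEq ι]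
  {o : Ori E ι} {S : Sm ℝ} {a b α β t f ρ : ℝ} {B : ℕ → ℝ}
  {hS : ∀ x, 0 ≤ x → 0 ≤ (S : ℝ → ℝ) x}

/-- `u - m`. -/
def um (d : TD o S a b α β t f ρ B) : Sm E := o.u d.l - d.m • (1 : Sm E)

theorem um_val (d : TD o S a b α β t f ρ B) (z : E) :
    (d.um : E → ℝ) z = (o.u d.l : E → ℝ) z - d.m := by
  change (o.u d.l : E → ℝ) z - d.m * 1 = _
  rw [mul_one]

theorem ds_um (d : TD o S a b α β t f ρ B) (v : E) : ds v d.um = ds v (o.u d.l) := by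
  unfold um
  rw [map_sub, map_smul, ds_one, smul_zero, sub_zero]

/-- The cut-offs. -/
def chi (hS : ∀ x, 0 ≤ x → 0 ≤ (S : ℝ → ℝ) x) (F₁ F₂ F₃ : Sm ℝ)
    (d : TD o S a b α β t f ρ B) : Sm E :=
  cm F₁ o.τ * (cm F₂ (d.tx hS) * cm F₃ d.um)

theorem chi_val (F₁ F₂ F₃ : Sm ℝ) (d : TD o S a b α β t f ρ B) (z : E) :
    (d.chi hS F₁ F₂ F₃ : E → ℝ) z = (F₁ : ℝ → ℝ) ((o.τ : E → ℝ) z) *
      ((F₂ : ℝ → ℝ) ((d.tx hS : E → ℝ) z) * (F₃ : ℝ → ℝ) ((o.u d.l : E → ℝ) z - d.m)) := by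
  change (F₁ : ℝ → ℝ) ((o.τ : E → ℝ) z) *
      ((F₂ : ℝ → ℝ) ((d.tx hS : E → ℝ) z) * (F₃ : ℝ → ℝ) ((d.um : E → ℝ) z)) = _
  rw [um_val]

variable (ha : 0 < a) (hρ1 : ρ ≤ 1)

include ha hρ1 in
theorem b_iv {Sm0 : ℝ} (hSm : 0 < Sm0) (hSl : ∀ τ ∈ Icc a b, Sm0 ≤ (S : ℝ → ℝ) τ) :
    Bd (fa hS) (-2) (fun d : TD o S a b α β t f ρ B =>
      ivS (o.At S d.Φ d.l) (o.At_pos hS d.Φ1 d.l)) := by
  have hA : Bd (fa hS) 2 (fun d : TD o S a b α β t f ρ B => o.At S d.Φ d.l) :=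
    (wd o α β t f ρ B b hS ha hρ1).b_A
  refine Bd.inv hA ⟨(Real.exp α * Sm0)⁻¹, inv_nonneg.2 (by positivity), fun d z hz => ?_⟩
    fun d z hz => ?_
  · change |((o.At S d.Φ d.l : E → ℝ) z)⁻¹| ≤ _
    have h1 := o.At_pos hS d.Φ1 d.l z
    rw [abs_of_pos (inv_pos.2 h1)]
    have h2 : (fa hS).h d ^ (-2 : ℤ) = (Real.exp d.m)⁻¹ := by
      rw [← h2 hS d, zpow_neg]; norm_cast
    rw [h2, ← mul_inv]
    refine inv_anti₀ (by positivity) ?_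
    change _ ≤ (d1 d.Φ : ℝ → ℝ) ((o.u d.l : E → ℝ) z) + Real.exp ((o.u d.l : E → ℝ) z) *
      (S : ℝ → ℝ) ((o.τ : E → ℝ) z)
    have h3 := d.Φ1 ((o.u d.l : E → ℝ) z)
    have h4 := hSl _ ⟨hz.1.le, hz.2.1.le⟩
    have h5 : Real.exp α * Real.exp d.m ≤ Real.exp ((o.u d.l : E → ℝ) z) := by
      rw [← Real.exp_add]
      exact Real.exp_le_exp.2 (by linarith [hz.2.2.2.1])
    have h6 := mul_le_mul h5 h4 hSm.le (Real.exp_pos _).le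
    linarith
  · change ((o.At S d.Φ d.l : E → ℝ) z)⁻¹ * (o.At S d.Φ d.l : E → ℝ) z = 1
    exact inv_mul_cancel₀ (o.At_pos hS d.Φ1 d.l z).ne'

include ha hρ1 in
theorem b_tx {Sm0 : ℝ} (hSm : 0 < Sm0) (hSl : ∀ τ ∈ Icc a b, Sm0 ≤ (S : ℝ → ℝ) τ) :
    Bd (fa hS) 0 (fun d : TD o S a b α β t f ρ B => d.tx hS) := by
  have hW : ∀ i, Bd (fa hS) 2 (fun d : TD o S a b α β t f ρ B =>
      ds (o.dir (Sum.inl i)) (o.Wt S d.Φ d.l)) := fun i =>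
    (wd o α β t f ρ B b hS ha hρ1).b_W (Sum.inl i)
  have hi := b_iv (o := o) (α := α) (β := β) (t := t) (f := f) (B := B) (hS := hS) ha hρ1 hSm hSl
  have h1 : Bd (fa hS) 4 (fun d : TD o S a b α β t f ρ B => ∑ i,
      ds (o.dir (Sum.inl i)) (o.Wt S d.Φ d.l) * ds (o.dir (Sum.inl i)) (o.Wt S d.Φ d.l)) :=
    Bd.sum _ fun i _ => (hW i).mul' (hW i) (by norm_num)
  have h2 := h1.mul' (hi.mul' hi (by norm_num : (-2 : ℤ) + -2 ≤ -4)) (by norm_num : (4 : ℤ) + -4 ≤ 0)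
  exact ((h2.cmul (4 / t ^ 2)).sub (Bd.one le_rfl)).cmul (1 / 3)

theorem tx_low (d : TD o S a b α β t f ρ B) (z : E) : -1 / 3 ≤ (d.tx hS : E → ℝ) z := by
  rw [tx_val]
  have h1 : 0 ≤ 4 * (∑ i, (ds (o.dir (Sum.inl i)) (o.Wt S d.Φ d.l) : E → ℝ) z ^ 2) /
      (t * (o.At S d.Φ d.l : E → ℝ) z) ^ 2 :=
    div_nonneg (mul_nonneg (by norm_num) (Finset.sum_nonneg fun i _ => sq_nonneg _))
      (sq_nonneg _)
  linarith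

include ha hρ1 in
theorem b_chi {Sm0 : ℝ} (hSm : 0 < Sm0) (hSl : ∀ τ ∈ Icc a b, Sm0 ≤ (S : ℝ → ℝ) τ)
    (F₁ F₂ F₃ : Sm ℝ) :
    Bd (fa hS) 0 (fun d : TD o S a b α β t f ρ B => d.chi hS F₁ F₂ F₃) := by
  have h1 : Bd (fa hS) 0 (fun _ : TD o S a b α β t f ρ B => cm F₁ o.τ) :=
    (wd o α β t f ρ B b hS ha hρ1).b_τ F₁
  have h2 : Bd (fa hS) 0 (fun d : TD o S a b α β t f ρ B => cm F₂ (d.tx hS)) :=
    Bd.cm (bf_const (K := Icc (-1 / 3) 2) isCompact_Icc fun d z hz =>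
      ⟨d.tx_low z, hz.2.2.1.le⟩) fun i => (b_tx ha hρ1 hSm hSl).dr i
  have h3 : Bd (fa hS) 0 (fun d : TD o S a b α β t f ρ B => cm F₃ d.um) := by
    refine Bd.cm (bf_const (K := Icc α β) isCompact_Icc fun d z hz => ?_) fun i => ?_
    · rw [um_val]
      exact ⟨hz.2.2.2.1.le, hz.2.2.2.2.le⟩
    · simp only [ds_um]
      exact (wd o α β t f ρ B b hS ha hρ1).bu i
  exact h1.mul' (h2.mul' h3 (by norm_num : (0 : ℤ) + 0 ≤ 0)) (by norm_num)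

variable [MeasurableSpace E] [BorelSpace E] [FiniteDimensional ℝ E]

/-- **The family satisfies the hypotheses of the tube theorem.** -/
theorem exists_gm {ρ₀ δ θ c m cg ck M C₀ Sm0 : ℝ} (Cn : Wd.Cn ι S a b f ρ₀ δ θ c m cg ck)
    (hM : ∀ τ ∈ Icc a b, 2 * (d1 S : ℝ → ℝ) τ ≤ M)
    (hM0 : ∀ τ ∈ Icc a b, 0 ≤ (d1 S : ℝ → ℝ) τ) (hC : 3 * M * √b ≤ C₀) (ht : 0 < t)
    (ht1 : t ≤ 1 / 4) (ht2 : 2 * t * C₀ ≤ ρ₀) (hρ : ρ ≤ 1 / 2) (hρ2 : ρ * (1 + √b) ≤ ρ₀)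
    (hρ0 : 0 ≤ ρ) (hSm : 0 < Sm0) (hSl : ∀ τ ∈ Icc a b, Sm0 ≤ (S : ℝ → ℝ) τ) (ha : 0 < a)
    (hS : ∀ x, 0 ≤ x → 0 ≤ (S : ℝ → ℝ) x)
    {F₁ F₂ F₃ : Sm ℝ} (h1 : ∀ x, |(F₁ : ℝ → ℝ) x| ≤ 1) (h2 : ∀ x, |(F₂ : ℝ → ℝ) x| ≤ 1)
    (h3 : ∀ x, |(F₃ : ℝ → ℝ) x| ≤ 1) {a' b' α' β' : ℝ} (ha' : a < a') (hb' : b' < b)
    (s1 : ∀ x, (F₁ : ℝ → ℝ) x ≠ 0 → a' ≤ x ∧ x ≤ b') (s2 : ∀ x, 1 ≤ x → (F₂ : ℝ → ℝ) x = 0)
    (hα : α < α') (hβ : β' < β) (s3 : ∀ x, (F₃ : ℝ → ℝ) x ≠ 0 → α' ≤ x ∧ x ≤ β') :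
    ∃ (G : Gm (TD o S a b α β t f ρ B) E ι) (kap sig Ef om : TD o S a b α β t f ρ B → Sm E),
      Gm.Hy G kap sig Ef om c θ (min (Real.exp α) (Real.exp α ^ 2 * m)) ∧ G.dir = o.dir ∧
      (∀ d, G.h d = Real.exp (d.m / 2)) ∧ (∀ d, G.W d = o.Wt S d.Φ d.l) ∧
      (∀ d, G.χ 0 d = d.chi hS F₁ F₂ F₃) ∧
      ∀ d z, |(G.χ 3 d : E → ℝ) z| ≤ 1 ∧ ((G.χ 3 d : E → ℝ) z ≠ 0 → z ∈ d.O hS) := by
  have hρ1 : ρ ≤ 1 := hρ.trans (by norm_num)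
  obtain ⟨g1, e1, b1, n1, o1⟩ := nest F₁ h1 (δ := min (a' - a) (b - b'))
    (lt_min (by linarith) (by linarith))
  obtain ⟨g2, e2, b2, n2, o2⟩ := nest F₂ h2 (δ := 1) one_pos
  obtain ⟨g3, e3, b3, n3, o3⟩ := nest F₃ h3 (δ := min (α' - α) (β - β'))
    (lt_min (by linarith) (by linarith))
  set G₀ := wd o α β t f ρ B b hS ha hρ1 with hG₀
  have N : G₀.Nr f ρ₀ := nr hM hM0 hC ht ht1 ht2 hρ hρ2 hρ0
  set χ : ℕ → TD o S a b α β t f ρ B → Sm E := fun j d => d.chi hS (g1 j) (g2 j) (g3 j) with hχ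
  have v : ∀ j d z, (χ j d : E → ℝ) z = (g1 j : ℝ → ℝ) ((o.τ : E → ℝ) z) *
      ((g2 j : ℝ → ℝ) ((d.tx hS : E → ℝ) z) * (g3 j : ℝ → ℝ) ((o.u d.l : E → ℝ) z - d.m)) :=
    fun j d z => chi_val _ _ _ d z
  have cb : ∀ j d z, |(χ j d : E → ℝ) z| ≤ 1 := fun j d z => by
    rw [v, abs_mul, abs_mul]
    have k1 := b1 j ((o.τ : E → ℝ) z)
    have k2 := b2 j ((d.tx hS : E → ℝ) z)
    have k3 := b3 j ((o.u d.l : E → ℝ) z - d.m)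
    have k4 := mul_le_one₀ k2 (abs_nonneg _) k3
    exact mul_le_one₀ k1 (mul_nonneg (abs_nonneg _) (abs_nonneg _)) k4
  have cs : ∀ j ≤ 2, Su (χ (j + 1)) (χ j) := fun j _ d z hz => by
    rw [v] at hz
    rw [v, n1 j _ (left_ne_zero_of_mul hz),
      n2 j _ (left_ne_zero_of_mul (right_ne_zero_of_mul hz)),
      n3 j _ (right_ne_zero_of_mul (right_ne_zero_of_mul hz))]
    norm_num
  have cO : ∀ d z, (χ 3 d : E → ℝ) z ≠ 0 → z ∈ G₀.Ω d := fun d z hz => by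
    rw [v] at hz
    obtain ⟨x1, y1, w1⟩ := o1 3 le_rfl _ (left_ne_zero_of_mul hz)
    obtain ⟨x2, y2, w2⟩ := o2 3 le_rfl _ (left_ne_zero_of_mul (right_ne_zero_of_mul hz))
    obtain ⟨x3, y3, w3⟩ := o3 3 le_rfl _ (right_ne_zero_of_mul (right_ne_zero_of_mul hz))
    obtain ⟨p1, p2⟩ := s1 x1 y1
    obtain ⟨p3, p4⟩ := s3 x3 y3
    have p5 : x2 < 1 := by
      by_contra hc
      exact y2 (s2 x2 (not_lt.1 hc))
    obtain ⟨w1a, w1b⟩ := lt_min_iff.1 w1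
    obtain ⟨w3a, w3b⟩ := lt_min_iff.1 w3
    rw [abs_lt] at w1a w1b w2 w3a w3b
    change a < (o.τ : E → ℝ) z ∧ (o.τ : E → ℝ) z < b ∧ (d.tx hS : E → ℝ) z < 2 ∧
      α < (o.u d.l : E → ℝ) z - d.m ∧ (o.u d.l : E → ℝ) z - d.m < β
    exact ⟨by linarith, by linarith, by linarith, by linarith, by linarith⟩
  obtain ⟨kap, sig, Ef, om, H⟩ := Wd.hy Cn N χ (fun j _ => b_chi ha hρ1 hSm hSl _ _ _)
    (fun j _ => cb j) cs cO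
  refine ⟨G₀.gm χ (fun j _ => b_chi ha hρ1 hSm hSl _ _ _) (fun j _ => cb j) cs cO, kap, sig, Ef,
    om, H, rfl, fun d => rfl, fun d => rfl, fun d => ?_, fun d z => ⟨cb 3 d z, fun hz => cO d z hz⟩⟩
  change d.chi hS (g1 0) (g2 0) (g3 0) = _
  rw [e1, e2, e3]

end TD

end Vale.Agent.P088.R2.H820.W
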