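import Vale.Agent.P088.R2.H820.T.Zf4

/-!
# The flat zones `W_x = 0` and `W_y = 0` in the common form
-/

open MeasureTheory Set
open scoped ContDiff

set_option linter.unusedSectionVars false

noncomputable section

namespace Vale.Agent.P088.R2.H820.W

open Vale.Agent.P088.R2.H464.EP Vale.Agent.P088.LR Vale.Agent.P088.HY
open Vale.Agent.P088.R2.H961.GW (Sl Te In) 
open Vale.Agent.P088.R2.H644 Vale.Agent.P088.R2.H551.E Vale.Agent.P088.R2.H960.W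

variable {n : ℕ}

theorem In_univ (f : VV n → ℝ) : In univ (fun _ => 1) f = ∫ z, f z := by
  unfold In
  simp

/-- The density of constant coefficients. -/
theorem dens_Qc (g : VV n → ℝ) (κ ζ₁ ζ₂ w₁ w₂ : ℝ) (v₁ v₂ W a b : VV n → ℝ) (z : VV n) :
    (Qc g κ ζ₁ ζ₂ w₁ w₂).dens (Ch.fx n) (Ch.fy n) v₁ v₂ W a b z =
    g z ^ 2 * (κ * sqd (Ch.fx n) (Ch.fy n) v₁ v₂ W a b z +
      ζ₁ * (∑ i, (a z * dx i W z - dx i a z) ^ 2) +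
      ζ₂ * (∑ i, (b z * dy i W z - dy i b z) ^ 2) + w₁ * a z ^ 2 + w₂ * b z ^ 2) := by
  unfold Q8.dens Qc nX
  simp only [Ch.fx_XX, Ch.fy_XX]
  ring

/-- The zone of the critical surface `W_x = 0`. -/
theorem int_dn {χ W a b : VV n → ℝ} (hχ : ContDiff ℝ ∞ χ) (hW : ContDiff ℝ ∞ W)
    (ha : Te univ a) (hb : Te univ b) : Integrable (fun z => χ z ^ 2 *
      dn (Ch.fx n) (Ch.fy n) (fun _ => 0) (fun _ => 0) W a b z) := by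
  have := Ch.haar_VV (n := n)
  have h1 := tdn (v₁ := fun _ : VV n => (0 : ℝ)) (v₂ := fun _ : VV n => (0 : ℝ))
    (Ch.ok_fx (n := n) isOpen_univ) (Ch.ok_fy (n := n) isOpen_univ) contDiffOn_const
    contDiffOn_const hW.contDiffOn ha hb
  have h2 : Te univ fun z => χ z ^ 2 *
      dn (Ch.fx n) (Ch.fy n) (fun _ => 0) (fun _ => 0) W a b z :=
    h1.mul_left isOpen_univ (hχ.contDiffOn.pow 2)
  exact h2.1.continuous.integrable_of_hasCompactSupport h2.2.1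

namespace Gm

variable {D : Type} {G : Gm D (VV n) (Fin n)} {kap sig Ef om : D → Sm (VV n)} {c θ c₀ : ℝ}

/-- **The flat zone `W_x = 0`.** -/
theorem zone_xy (hd : G.dir = dxy n) (h : Hy G kap sig Ef om c θ c₀) : ∃ C, 0 ≤ C ∧ ∀ d,
    Zone (Ch.fx n) (Ch.fy n) univ (fun _ => 1) (fun _ => 0) (fun _ => 0) (G.W d : VV n → ℝ)
      (G.χ 0 d : VV n → ℝ)
      (Qc (G.χ 0 d : VV n → ℝ) 1 (8 * θ * (c * min c₀ (c₀ ^ 2)) * G.h d ^ 2)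
        (4 * (c * min c₀ (c₀ ^ 2)) * G.h d ^ 2) (8 * (c * min c₀ (c₀ ^ 2)) * G.h d ^ 4)
        (8 * (c * min c₀ (c₀ ^ 2)) * c₀ * G.h d ^ 6))
      (Qc (G.χ 3 d : VV n → ℝ) (C * (G.h d)⁻¹) (C * G.h d) (C * G.h d) (C * G.h d ^ 3)
        (C * G.h d ^ 5)) := by
  have := Ch.haar_VV (n := n)
  obtain ⟨C, hC, H⟩ := zone_abs (volume : Measure (VV n)) h
  refine ⟨C, hC, fun d a b ha hb => ?_⟩
  have e : ∀ z, G.sq d ⟨a, ha.1, ha.2.1⟩ ⟨b, hb.1, hb.2.1⟩ z +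
      G.sd (G.Lpx (G.Ly d)) d ⟨a, ha.1, ha.2.1⟩ ⟨b, hb.1, hb.2.1⟩ z =
      dn (Ch.fx n) (Ch.fy n) (fun _ => 0) (fun _ => 0) (G.W d : VV n → ℝ) a b z := fun z => by
    rw [G.sq_xy hd, G.sd_xy hd]
    rfl
  have e2 : ∀ (g : Sm (VV n)) (κ ζ₁ ζ₂ w₁ w₂ : ℝ) (z : VV n),
      G.qf g κ ζ₁ ζ₂ w₁ w₂ d ⟨a, ha.1, ha.2.1⟩ ⟨b, hb.1, hb.2.1⟩ z =
      (Qc (g : VV n → ℝ) κ ζ₁ ζ₂ w₁ w₂).dens (Ch.fx n) (Ch.fy n) (fun _ => 0) (fun _ => 0)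
        (G.W d : VV n → ℝ) a b z := fun g κ ζ₁ ζ₂ w₁ w₂ z => by
    rw [dens_Qc]
    unfold qf
    rw [G.sq_xy hd]
    simp only [G.xs_xy hd, G.ys_xy hd]
  have H1 := H d ⟨a, ha.1, ha.2.1⟩ ⟨b, hb.1, hb.2.1⟩ (G.Lpx (G.Ly d)) (Or.inl rfl) (by
    simp only [e]
    exact int_dn (scd (G.χ 0 d)) (scd (G.W d)) ha hb)
  simp only [e, e2] at H1
  rw [In_univ, In_univ, In_univ]
  exact H1

/-- **The flat zone `W_y = 0`.** -/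
theorem zone_yx (hd : G.dir = dyx n) (h : Hy G kap sig Ef om c θ c₀) : ∃ C, 0 ≤ C ∧ ∀ d,
    Zone (Ch.fx n) (Ch.fy n) univ (fun _ => 1) (fun _ => 0) (fun _ => 0) (G.W d : VV n → ℝ)
      (G.χ 0 d : VV n → ℝ)
      (Qc (G.χ 0 d : VV n → ℝ) 1 (4 * (c * min c₀ (c₀ ^ 2)) * G.h d ^ 2)
        (8 * θ * (c * min c₀ (c₀ ^ 2)) * G.h d ^ 2)
        (8 * (c * min c₀ (c₀ ^ 2)) * c₀ * G.h d ^ 6) (8 * (c * min c₀ (c₀ ^ 2)) * G.h d ^ 4))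
      (Qc (G.χ 3 d : VV n → ℝ) (C * (G.h d)⁻¹) (C * G.h d) (C * G.h d) (C * G.h d ^ 5)
        (C * G.h d ^ 3)) := by
  have := Ch.haar_VV (n := n)
  obtain ⟨C, hC, H⟩ := zone_abs (volume : Measure (VV n)) h
  refine ⟨C, hC, fun d a b ha hb => ?_⟩
  have e : ∀ z, G.sq d ⟨b, hb.1, hb.2.1⟩ ⟨a, ha.1, ha.2.1⟩ z +
      G.sd (G.Lpy (G.Lx d)) d ⟨b, hb.1, hb.2.1⟩ ⟨a, ha.1, ha.2.1⟩ z =
      dn (Ch.fx n) (Ch.fy n) (fun _ => 0) (fun _ => 0) (G.W d : VV n → ℝ) a b z := fun z => by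
    have h1 := G.sq_yx hd d ⟨a, ha.1, ha.2.1⟩ ⟨b, hb.1, hb.2.1⟩ z
    have h2 := G.sd_yx hd d ⟨a, ha.1, ha.2.1⟩ ⟨b, hb.1, hb.2.1⟩ z
    rw [h1, h2]
    rfl
  have e2 : ∀ (g : Sm (VV n)) (κ ζ₁ ζ₂ w₁ w₂ : ℝ) (z : VV n),
      G.qf g κ ζ₁ ζ₂ w₁ w₂ d ⟨b, hb.1, hb.2.1⟩ ⟨a, ha.1, ha.2.1⟩ z =
      (Qc (g : VV n → ℝ) κ ζ₂ ζ₁ w₂ w₁).dens (Ch.fx n) (Ch.fy n) (fun _ => 0) (fun _ => 0)
        (G.W d : VV n → ℝ) a b z := fun g κ ζ₁ ζ₂ w₁ w₂ z => by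
    rw [dens_Qc]
    unfold qf
    have h1 := G.sq_yx hd d ⟨a, ha.1, ha.2.1⟩ ⟨b, hb.1, hb.2.1⟩ z
    rw [h1]
    simp only [G.xs_yx hd, G.ys_yx hd]
    ring
  have H1 := H d ⟨b, hb.1, hb.2.1⟩ ⟨a, ha.1, ha.2.1⟩ (G.Lpy (G.Lx d)) (Or.inr rfl) (by
    simp only [e]
    exact int_dn (scd (G.χ 0 d)) (scd (G.W d)) ha hb)
  simp only [e, e2] at H1
  rw [In_univ, In_univ, In_univ]
  exact H1

end Gm

end Vale.Agent.P088.R2.H820.W
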