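import Vale.Agent.P088.R2.H820.T.Fam3
import Vale.Agent.P088.R2.H820.T.Zf5
import Vale.Agent.P088.R2.H354.E.Pert

/-!
# The flat zones of the critical surfaces

`W₀ = Φ(l(x) + l(y)) + e^(l(x) + l(y)) S(|x - y|²)` near `W₀_x = 0` (`flatT1`) and near `W₀_y = 0`
(`flatT2`).
-/

open MeasureTheory Set
open scoped ContDiff

set_option linter.unusedSectionVars false
set_option linter.dupNamespace false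

noncomputable section

namespace Vale.Agent.P088.R2.H820.W

open Vale.Agent.P088.R2.H464.EP Vale.Agent.P088.LR Vale.Agent.P088.HY
open Vale.Agent.P088.R2.H961.GW (Sl Te In) 
open Vale.Agent.P088.R2.H644 Vale.Agent.P088.R2.H551.E Vale.Agent.P088.R2.H960.W

variable {n : ℕ}

/-- The flat weight. -/
def W0f (S Φ : ℝ → ℝ) (l : V n → ℝ) (z : VV n) : ℝ :=
  Φ (l z.1 + l z.2) + Real.exp (l z.1 + l z.2) * S (HY.sq (z.1 - z.2))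

/-- The scale of its gradient. -/
def NGf (S Φ : ℝ → ℝ) (l : V n → ℝ) (z : VV n) : ℝ :=
  deriv Φ (l z.1 + l z.2) + Real.exp (l z.1 + l z.2) * S (HY.sq (z.1 - z.2))

/-- The variable of the first tube. -/
def txf (S Φ : ℝ → ℝ) (l : V n → ℝ) (t : ℝ) (z : VV n) : ℝ :=
  (4 * (∑ i, dx i (W0f S Φ l) z ^ 2) / (t * NGf S Φ l z) ^ 2 - 1) / 3

/-- The variable of the second tube. -/
def tyf (S Φ : ℝ → ℝ) (l : V n → ℝ) (t : ℝ) (z : VV n) : ℝ :=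
  (4 * (∑ i, dy i (W0f S Φ l) z ^ 2) / (t * NGf S Φ l z) ^ 2 - 1) / 3

/-- The cut-off. -/
def chf (F₁ F₂ F₃ : ℝ → ℝ) (l : V n → ℝ) (m : ℝ) (T : VV n → ℝ) (z : VV n) : ℝ :=
  F₁ (HY.sq (z.1 - z.2)) * (F₂ (T z) * F₃ (l z.1 + l z.2 - m))

/-- The region. -/
def Of (a b α β m : ℝ) (l : V n → ℝ) (T : VV n → ℝ) : Set (VV n) :=
  {z | a < HY.sq (z.1 - z.2) ∧ HY.sq (z.1 - z.2) < b ∧ T z < 2 ∧ α < l z.1 + l z.2 - m ∧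
    l z.1 + l z.2 - m < β}

/-- The conditions of the data. -/
structure FD (T : VV n → ℝ) (a b α β f ρ : ℝ) (B : ℕ → ℝ) (m : ℝ) (Φ : ℝ → ℝ) (l : V n → ℝ)
    (w : Fin n → ℝ) (s : ℝ) : Prop where
  m0 : 0 ≤ m
  Φs : ContDiff ℝ ∞ Φ
  ls : ContDiff ℝ ∞ l
  Φ1 : ∀ x, 0 < deriv Φ x
  ΦB : ∀ (j : ℕ) (x : ℝ), α < x - m → x - m < β →
    |iteratedDeriv (j + 1) Φ x| ≤ B j * Real.exp m
  K : ∀ x : ℝ, α < x - m → x - m < β →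
    |deriv (deriv Φ) x - f * deriv Φ x| ≤ ρ * Real.exp x
  s0 : |s| ≤ ρ
  lx : ∀ z ∈ Of a b α β m l T, ∀ i, pd i l z.1 = w i + s * z.1 i
  ly : ∀ z ∈ Of a b α β m l T, ∀ i, pd i l z.2 = w i + s * z.2 i
  gx : ∀ z ∈ Of a b α β m l T, |∑ i, pd i l z.1 ^ 2 - 1| ≤ ρ
  gy : ∀ z ∈ Of a b α β m l T, |∑ i, pd i l z.2 ^ 2 - 1| ≤ ρ

/-- The conditions of the profile. -/
structure FS (n : ℕ) (S : ℝ → ℝ) (a b f : ℝ) : Prop where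
  Ss : ContDiff ℝ ∞ S
  S0 : ∀ x, 0 ≤ x → 0 ≤ S x
  a0 : 0 < a
  S1 : ∀ τ ∈ Icc a b, 0 < S τ
  sc : ∀ τ ∈ Icc a b, H312.T.Sc n f (2 * deriv S τ) (S τ) (√τ * (2 * deriv S τ))
    (2 * deriv S τ + 4 * deriv (deriv S) τ * τ)

/-- The conditions of the factors of the cut-off. -/
structure FF (a b α β : ℝ) (F₁ F₂ F₃ : ℝ → ℝ) : Prop where
  s₁ : ContDiff ℝ ∞ F₁
  s₂ : ContDiff ℝ ∞ F₂
  s₃ : ContDiff ℝ ∞ F₃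
  b₁ : ∀ x, |F₁ x| ≤ 1
  b₂ : ∀ x, |F₂ x| ≤ 1
  b₃ : ∀ x, |F₃ x| ≤ 1
  h₁ : ∃ a' b', a < a' ∧ b' < b ∧ ∀ x, F₁ x ≠ 0 → a' ≤ x ∧ x ≤ b'
  h₂ : ∀ x, 1 ≤ x → F₂ x = 0
  h₃ : ∃ α' β', α < α' ∧ β' < β ∧ ∀ x, F₃ x ≠ 0 → α' ≤ x ∧ x ≤ β'

/-- The orientation `(x, y)`. -/
def oxy (n : ℕ) : Ori (VV n) (Fin n) where
  dir := dxy n
  π := ContinuousLinearMap.fst ℝ _ _
  π' := ContinuousLinearMap.snd ℝ _ _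
  h1 _ := rfl
  h2 _ := rfl
  h3 _ := rfl
  h4 _ := rfl

/-- The orientation `(y, x)`. -/
def oyx (n : ℕ) : Ori (VV n) (Fin n) where
  dir := dyx n
  π := ContinuousLinearMap.snd ℝ _ _
  π' := ContinuousLinearMap.fst ℝ _ _
  h1 _ := rfl
  h2 _ := rfl
  h3 _ := rfl
  h4 _ := rfl

theorem oxy_τ (z : VV n) : ((oxy n).τ : VV n → ℝ) z = HY.sq (z.1 - z.2) := by
  rw [Ori.τ_val]; rfl

theorem oyx_τ (z : VV n) : ((oyx n).τ : VV n → ℝ) z = HY.sq (z.1 - z.2) := by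
  rw [Ori.τ_val]
  unfold HY.sq
  refine Finset.sum_congr rfl fun i _ => ?_
  change (z.2 i - z.1 i) ^ 2 = (z.1 i - z.2 i) ^ 2
  ring

theorem oxy_u (l : Sm (V n)) (z : VV n) : ((oxy n).u l : VV n → ℝ) z =
    (l : V n → ℝ) z.1 + (l : V n → ℝ) z.2 := rfl

theorem oyx_u (l : Sm (V n)) (z : VV n) : ((oyx n).u l : VV n → ℝ) z =
    (l : V n → ℝ) z.1 + (l : V n → ℝ) z.2 := add_comm _ _

section o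

variable {o : Ori (VV n) (Fin n)}
  (hτ : ∀ z, (o.τ : VV n → ℝ) z = HY.sq (z.1 - z.2))
  (hu : ∀ (l : Sm (V n)) (z : VV n), (o.u l : VV n → ℝ) z = (l : V n → ℝ) z.1 + (l : V n → ℝ) z.2)

include hτ hu

theorem Wt_f (S Φ : Sm ℝ) (l : Sm (V n)) : (o.Wt S Φ l : VV n → ℝ) =
    W0f (S : ℝ → ℝ) (Φ : ℝ → ℝ) (l : V n → ℝ) := by
  funext z
  change (Φ : ℝ → ℝ) ((o.u l : VV n → ℝ) z) + Real.exp ((o.u l : VV n → ℝ) z) *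
    (S : ℝ → ℝ) ((o.τ : VV n → ℝ) z) = _
  rw [hτ, hu]
  rfl

theorem At_f (S Φ : Sm ℝ) (l : Sm (V n)) : (o.At S Φ l : VV n → ℝ) =
    NGf (S : ℝ → ℝ) (Φ : ℝ → ℝ) (l : V n → ℝ) := by
  funext z
  change (d1 Φ : ℝ → ℝ) ((o.u l : VV n → ℝ) z) + Real.exp ((o.u l : VV n → ℝ) z) *
    (S : ℝ → ℝ) ((o.τ : VV n → ℝ) z) = _
  rw [hτ, hu, d1_fn]
  rfl

end o

/-- The constants. -/
theorem fs_consts {S : ℝ → ℝ} {a b f : ℝ} (h : FS n S a b f) : ∃ t₀ ρ ρ₀ δ θ c m cg ck M Sm0,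
    0 < t₀ ∧ 0 < ρ ∧ Wd.Cn (Fin n) ⟨S, h.Ss⟩ a b f ρ₀ δ θ c m cg ck ∧
    (∀ τ ∈ Icc a b, 2 * (d1 (⟨S, h.Ss⟩ : Sm ℝ) : ℝ → ℝ) τ ≤ M) ∧
    (∀ τ ∈ Icc a b, 0 ≤ (d1 (⟨S, h.Ss⟩ : Sm ℝ) : ℝ → ℝ) τ) ∧
    (∀ t, t ≤ t₀ → 0 < t → t ≤ 1 / 4 ∧ 2 * t * (3 * M * √b) ≤ ρ₀) ∧ ρ ≤ 1 / 2 ∧
    ρ * (1 + √b) ≤ ρ₀ ∧ 0 < Sm0 ∧ ∀ τ ∈ Icc a b, Sm0 ≤ S τ := by
  have e1 : (d1 (⟨S, h.Ss⟩ : Sm ℝ) : ℝ → ℝ) = deriv S := d1_fn _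
  have e2 : (d1 (d1 (⟨S, h.Ss⟩ : Sm ℝ)) : ℝ → ℝ) = deriv (deriv S) := by rw [d1_fn, d1_fn]
  obtain ⟨ρ₀, δ, θ, c, m, cg, ck, Cn⟩ := Wd.exists_cn (ι := Fin n) (S := ⟨S, h.Ss⟩) (f := f) h.a0
    (fun τ hτ => h.S0 τ (h.a0.le.trans hτ.1)) (fun τ hτ => by
      rw [e1, e2, Fintype.card_fin]
      exact h.sc τ hτ)
  obtain ⟨M, M0, hM⟩ := Wd.up_cpt (a := a) (b := b)
    (g := fun τ => 2 * (d1 (⟨S, h.Ss⟩ : Sm ℝ) : ℝ → ℝ) τ)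
    (continuousOn_const.mul (sct _).continuousOn)
  obtain ⟨Sm0, hS0, hSl⟩ := Wd.low_cpt (a := a) (b := b) (g := S) h.Ss.continuous.continuousOn h.S1
  have hb := Real.sqrt_nonneg b
  have hρ₀ := Cn.ρ0
  have k0 : 0 < 2 * (3 * M * √b) + 1 := by positivity
  refine ⟨min (1 / 4) (ρ₀ / (2 * (3 * M * √b) + 1)), min (1 / 2) (ρ₀ / (1 + √b)), ρ₀, δ, θ, c, m,
    cg, ck, M, Sm0, by positivity, by positivity, Cn, fun τ hτ => (le_abs_self _).trans (hM τ hτ),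
    fun τ hτ => ?_, fun t ht t0 => ⟨ht.trans (min_le_left _ _), ?_⟩, min_le_left _ _, ?_, hS0, hSl⟩
  · have := Cn.hk τ hτ
    linarith [Cn.ck0]
  · have h1 : t ≤ ρ₀ / (2 * (3 * M * √b) + 1) := ht.trans (min_le_right _ _)
    rw [le_div_iff₀ k0] at h1
    nlinarith
  · have h1 : min (1 / 2) (ρ₀ / (1 + √b)) ≤ ρ₀ / (1 + √b) := min_le_right _ _
    rwa [le_div_iff₀ (by positivity)] at h1

theorem Qc_ct {g : VV n → ℝ} (hg : Continuous g) (κ ζ₁ ζ₂ w₁ w₂ : ℝ) :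
    (Qc g κ ζ₁ ζ₂ w₁ w₂).Ct univ := by
  have h := fun c : ℝ => ((hg.pow 2).mul continuous_const : Continuous fun z => g z ^ 2 * c)
  exact ⟨(h _).continuousOn, (h _).continuousOn, (h _).continuousOn, continuousOn_const,
    (h _).continuousOn, (h _).continuousOn, continuousOn_const, continuousOn_const⟩

theorem Qc_le {g g' : VV n → ℝ} {κ ζ₁ ζ₂ w₁ w₂ κ' ζ₁' ζ₂' w₁' w₂' : ℝ} (h1 : κ ≤ κ') (h2 : ζ₁ ≤ ζ₁')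
    (h3 : ζ₂ ≤ ζ₂') (h4 : w₁ ≤ w₁') (h5 : w₂ ≤ w₂') (k1 : 0 ≤ κ) (k2 : 0 ≤ ζ₁) (k3 : 0 ≤ ζ₂)
    (k4 : 0 ≤ w₁) (k5 : 0 ≤ w₂) {z : VV n} (hg : g z ^ 2 ≤ g' z ^ 2) :
    Q8.Le (Qc g κ ζ₁ ζ₂ w₁ w₂) (Qc g' κ' ζ₁' ζ₂' w₁' w₂') z := by
  have h0 := sq_nonneg (g' z)
  exact ⟨mul_le_mul hg h1 k1 h0, mul_le_mul hg h2 k2 h0, mul_le_mul hg h3 k3 h0, le_rfl,
    mul_le_mul hg h4 k4 h0, mul_le_mul hg h5 k5 h0, le_rfl, le_rfl⟩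

end Vale.Agent.P088.R2.H820.W
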