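import Vale.Agent.P088.R2.H820.T.Ft

/-!
# The flat zones of the critical surfaces: the theorems
-/

open MeasureTheory Set
open scoped ContDiff

set_option linter.unusedSectionVars false
set_option linter.dupNamespace false

noncomputable section

namespace Vale.Agent.P088.R2.H820.W

open Vale.Agent.P088.R2.H464.EP Vale.Agent.P088.LR Vale.Agent.P088.HY
open Vale.Agent.P088.R2.H961.GW (Sl Te In) 
open Vale.Agent.P088.R2.H644 Vale.Agent.P088.R2.H551.E Vale.Agent.P088.R2.H960.W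

variable {n : ℕ}

section core

variable {o : Ori (VV n) (Fin n)}
  (hτ : ∀ z, (o.τ : VV n → ℝ) z = HY.sq (z.1 - z.2))
  (hu : ∀ (l : Sm (V n)) (z : VV n), (o.u l : VV n → ℝ) z = (l : V n → ℝ) z.1 + (l : V n → ℝ) z.2)
  {T : (ℝ → ℝ) → (ℝ → ℝ) → (V n → ℝ) → ℝ → VV n → ℝ}
  (hT : ∀ (S Φ : Sm ℝ) (l : Sm (V n)) (t : ℝ) (z : VV n),
    (4 * (∑ i, (ds (o.dir (Sum.inl i)) (o.Wt S Φ l) : VV n → ℝ) z ^ 2) /
      (t * (o.At S Φ l : VV n → ℝ) z) ^ 2 - 1) / 3 =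
      T (S : ℝ → ℝ) (Φ : ℝ → ℝ) (l : V n → ℝ) t z)
  (hp : ∀ (l : V n → ℝ) (w : Fin n → ℝ) (s ρ : ℝ) (z : VV n),
    (∀ i, pd i l z.1 = w i + s * z.1 i) → (∀ i, pd i l z.2 = w i + s * z.2 i) →
    |∑ i, pd i l z.1 ^ 2 - 1| ≤ ρ → |∑ i, pd i l z.2 ^ 2 - 1| ≤ ρ →
    (∀ i, pd i l (o.π z) = w i + s * o.π z i) ∧ (∀ i, pd i l (o.π' z) = w i + s * o.π' z i) ∧
    |∑ i, pd i l (o.π z) ^ 2 - 1| ≤ ρ)

/-- The data. -/
def mkD {S : ℝ → ℝ} {a b α β t f ρ : ℝ} {B : ℕ → ℝ} (hS : ContDiff ℝ ∞ S) {m : ℝ} {Φ : ℝ → ℝ}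
    {l : V n → ℝ} {w : Fin n → ℝ} {s : ℝ} (D : FD (T S Φ l t) a b α β f ρ B m Φ l w s) :
    TD o ⟨S, hS⟩ a b α β t f ρ B where
  m := m
  m0 := D.m0
  Φ := ⟨Φ, D.Φs⟩
  l := ⟨l, D.ls⟩
  w := w
  s := s
  Φ1 x := by rw [d1_fn]; exact D.Φ1 x
  ΦB j x h1 h2 := by
    rw [d1_iter, d1_fn]
    have := D.ΦB j x h1 h2
    rwa [iteratedDeriv_succ'] at this
  K x h1 h2 := by
    rw [d1_fn, d1_fn]
    exact D.K x h1 h2
  s0 := D.s0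
  lx z h1 h2 h3 h4 h5 := by
    rw [hT] at h3
    rw [hτ] at h1 h2
    rw [hu] at h4 h5
    have hz : z ∈ Of a b α β m l (T S Φ l t) := ⟨h1, h2, h3, h4, h5⟩
    exact hp l w s ρ z (D.lx z hz) (D.ly z hz) (D.gx z hz) (D.gy z hz)

end core

/-- The model. -/
theorem flat_gm (o : Ori (VV n) (Fin n)) {S : ℝ → ℝ} {a b f : ℝ} (h : FS n S a b f) :
    ∃ t₀ ρ θ c m₁ : ℝ, 0 < t₀ ∧ 0 < ρ ∧ 0 < θ ∧ 0 < c ∧ 0 < m₁ ∧ ∀ (α β t : ℝ), 0 < t → t ≤ t₀ →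
    ∀ (F₁ F₂ F₃ : ℝ → ℝ) (hF : FF a b α β F₁ F₂ F₃) (B : ℕ → ℝ),
    ∃ (G : Gm (TD o ⟨S, h.Ss⟩ a b α β t f ρ B) (VV n) (Fin n))
      (kap sig Ef om : TD o ⟨S, h.Ss⟩ a b α β t f ρ B → Sm (VV n)),
      Gm.Hy G kap sig Ef om c θ (min (Real.exp α) (Real.exp α ^ 2 * m₁)) ∧ G.dir = o.dir ∧
      (∀ d, G.h d = Real.exp (d.m / 2)) ∧ (∀ d, G.W d = o.Wt ⟨S, h.Ss⟩ d.Φ d.l) ∧
      (∀ d, G.χ 0 d = d.chi h.S0 ⟨F₁, hF.s₁⟩ ⟨F₂, hF.s₂⟩ ⟨F₃, hF.s₃⟩) ∧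
      ∀ d z, |(G.χ 3 d : VV n → ℝ) z| ≤ 1 ∧ ((G.χ 3 d : VV n → ℝ) z ≠ 0 → z ∈ d.O h.S0) := by
  obtain ⟨t₀, ρ, ρ₀, δ, θ, c, m, cg, ck, M, Sm0, k1, k2, Cn, hM, hM0, kt, kρ, kρ2, hSm, hSl⟩ :=
    fs_consts h
  refine ⟨t₀, ρ, θ, c, m, k1, k2, Cn.θ0, Cn.c0, Cn.m0, fun α β t t0 t1 F₁ F₂ F₃ hF B => ?_⟩
  obtain ⟨a', b', ha', hb', s1⟩ := hF.h₁
  obtain ⟨α', β', hα', hβ', s3⟩ := hF.h₃
  exact TD.exists_gm Cn hM hM0 le_rfl t0 (kt t t1 t0).1 (kt t t1 t0).2 kρ kρ2 k2.le hSm hSl h.a0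
    h.S0 (F₁ := ⟨F₁, hF.s₁⟩) (F₂ := ⟨F₂, hF.s₂⟩) (F₃ := ⟨F₃, hF.s₃⟩) hF.b₁ hF.b₂ hF.b₃ ha' hb' s1
    hF.h₂ hα' hβ' s3

theorem exp_half (m : ℝ) : Real.exp (m / 2) = √(Real.exp m) := by
  rw [Real.exp_half]

/-- The powers of `h = e^(m/2)`. -/
theorem hpow (m : ℝ) : Real.exp (m / 2) ^ 2 = Real.exp m ∧
    Real.exp (m / 2) ^ 4 = Real.exp m ^ 2 ∧ Real.exp (m / 2) ^ 6 = Real.exp m ^ 3 ∧
    Real.exp (m / 2) ^ 3 = Real.exp m * √(Real.exp m) ∧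
    Real.exp (m / 2) ^ 5 = Real.exp m ^ 2 * √(Real.exp m) := by
  have h1 : Real.exp (m / 2) ^ 2 = Real.exp m := by
    rw [← Real.exp_nat_mul]; congr 1; push_cast; ring
  have h2 := exp_half m
  refine ⟨h1, ?_, ?_, ?_, ?_⟩
  · rw [← h1]; ring
  · rw [← h1]; ring
  · rw [← h2, ← h1]; ring
  · rw [← h2, ← h1]; ring

/-- **The flat zone `W_x = 0`.** -/
theorem flatT1 {S : ℝ → ℝ} {a b f : ℝ} (h : FS n S a b f) :
    ∃ t₀ ρ : ℝ, 0 < t₀ ∧ 0 < ρ ∧ ∀ α β : ℝ, ∃ c : ℝ, 0 < c ∧ ∀ t : ℝ, 0 < t → t ≤ t₀ →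
    ∀ F₁ F₂ F₃ : ℝ → ℝ, FF a b α β F₁ F₂ F₃ → ∀ B : ℕ → ℝ, ∃ C : ℝ, 0 ≤ C ∧
    ∀ (m : ℝ) (Φ : ℝ → ℝ) (l : V n → ℝ) (w : Fin n → ℝ) (s : ℝ),
    FD (txf S Φ l t) a b α β f ρ B m Φ l w s → ∀ et : VV n → ℝ, Continuous et →
    (∀ z ∈ Of a b α β m l (txf S Φ l t), 1 ≤ |et z|) →
    Zone (Ch.fx n) (Ch.fy n) univ (fun _ => 1) (fun _ => 0) (fun _ => 0) (W0f S Φ l)
      (chf F₁ F₂ F₃ l m (txf S Φ l t))
      (Qc (chf F₁ F₂ F₃ l m (txf S Φ l t)) 1 (c * Real.exp m) (c * Real.exp m)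
        (c * Real.exp m ^ 2) (c * Real.exp m ^ 3))
      (Qc et (C / √(Real.exp m)) (C * √(Real.exp m)) (C * √(Real.exp m))
        (C * (Real.exp m * √(Real.exp m))) (C * (Real.exp m ^ 2 * √(Real.exp m)))) := by
  have := Ch.haar_VV (n := n)
  obtain ⟨t₀, ρ, θ, c, m₁, k1, k2, hθ, hc, hm, H⟩ := flat_gm (oxy n) h
  refine ⟨t₀, ρ, k1, k2, fun α β => ?_⟩
  set c₀ := min (Real.exp α) (Real.exp α ^ 2 * m₁) with hc₀
  have c₀0 : 0 < c₀ := lt_min (Real.exp_pos _) (by have := Real.exp_pos α; positivity)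
  set c' := c * min c₀ (c₀ ^ 2) with hc'
  have c'0 : 0 < c' := mul_pos hc (lt_min c₀0 (by positivity))
  set cT := min (8 * θ * c') (min (4 * c') (min (8 * c') (8 * c' * c₀))) with hcT
  have cT1 : cT ≤ 8 * θ * c' := min_le_left _ _
  have cT2 : cT ≤ 4 * c' := (min_le_right _ _).trans (min_le_left _ _)
  have cT3 : cT ≤ 8 * c' := (min_le_right _ _).trans ((min_le_right _ _).trans (min_le_left _ _))
  have cT4 : cT ≤ 8 * c' * c₀ :=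
    (min_le_right _ _).trans ((min_le_right _ _).trans (min_le_right _ _))
  have cT0 : 0 < cT := by positivity
  refine ⟨cT, cT0, fun t t0 t1 F₁ F₂ F₃ hF B => ?_⟩
  obtain ⟨G, kap, sig, Ef, om, hy, hd, hh, hW, hχ, h3⟩ := H α β t t0 t1 F₁ F₂ F₃ hF B
  obtain ⟨C, hC, Z⟩ := Gm.zone_xy hd hy
  refine ⟨C, hC, fun m Φ l w s D et het het1 => ?_⟩
  have hT : ∀ (S Φ : Sm ℝ) (l : Sm (V n)) (t : ℝ) (z : VV n),
    (4 * (∑ i, (ds ((oxy n).dir (Sum.inl i)) ((oxy n).Wt S Φ l) : VV n → ℝ) z ^ 2) /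
      (t * ((oxy n).At S Φ l : VV n → ℝ) z) ^ 2 - 1) / 3 =
      txf (S : ℝ → ℝ) (Φ : ℝ → ℝ) (l : V n → ℝ) t z := fun S Φ l t z => by
    unfold txf
    rw [← Wt_f oxy_τ oxy_u, ← At_f oxy_τ oxy_u]
    rfl
  set d : TD (oxy n) ⟨S, h.Ss⟩ a b α β t f ρ B := mkD oxy_τ oxy_u hT
    (fun l w s ρ z h1 h2 h3 h4 => ⟨h1, h2, h3⟩) h.Ss D with hd'
  have Zd := Z d
  have e1 : (G.W d : VV n → ℝ) = W0f S Φ l := by
    rw [hW]
    exact Wt_f oxy_τ oxy_u _ _ _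
  have e2 : ∀ z, (d.tx h.S0 : VV n → ℝ) z = txf S Φ l t z := fun z => by
    rw [TD.tx_val]
    exact hT _ _ _ _ _
  have e3 : (G.χ 0 d : VV n → ℝ) = chf F₁ F₂ F₃ l m (txf S Φ l t) := by
    rw [hχ]
    funext z
    rw [TD.chi_val, e2, oxy_τ]
    rfl
  have e4 : ∀ z, z ∈ d.O h.S0 → z ∈ Of a b α β m l (txf S Φ l t) := fun z hz => by
    obtain ⟨y1, y2, y3, y4, y5⟩ := hz
    rw [oxy_τ] at y1 y2
    rw [e2] at y3
    exact ⟨y1, y2, y3, y4, y5⟩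
  have e5 : ∀ z, (G.χ 3 d : VV n → ℝ) z ^ 2 ≤ et z ^ 2 := fun z => by
    by_cases hz : (G.χ 3 d : VV n → ℝ) z = 0
    · rw [hz, zero_pow two_ne_zero]
      exact sq_nonneg _
    · have h1 := (h3 d z).1
      have h2 := het1 z (e4 z ((h3 d z).2 hz))
      exact sq_le_sq.2 (h1.trans h2)
  rw [e1, e3] at Zd
  have hh' : G.h d = Real.exp (m / 2) := hh d
  obtain ⟨p2, p4, p6, p3, p5⟩ := hpow m
  rw [hh', p2, p4, p6, p3, p5] at Zd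
  have eN := Real.exp_pos m
  have c3 : Continuous (chf F₁ F₂ F₃ l m (txf S Φ l t)) := by
    rw [← e3]; exact sct _
  refine H354.E.zone_mono (Ch.ok_fx isOpen_univ) (Ch.ok_fy isOpen_univ) contDiffOn_const
    contDiffOn_const ?_ (Qc_ct c3 _ _ _ _ _) (Qc_ct (sct _) _ _ _ _ _) (Qc_ct c3 _ _ _ _ _)
    (Qc_ct het _ _ _ _ _) (fun z _ => ?_) (fun z _ => ?_) Zd
  · rw [← e1]; exact (scd _).contDiffOn
  · refine Qc_le le_rfl (mul_le_mul_of_nonneg_right cT1 eN.le)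
      (mul_le_mul_of_nonneg_right cT2 eN.le) (mul_le_mul_of_nonneg_right cT3 (by positivity))
      (mul_le_mul_of_nonneg_right cT4 (by positivity)) zero_le_one (by positivity) (by positivity)
      (by positivity) (by positivity) le_rfl
  · have g1 : Real.exp (m / 2) = √(Real.exp m) := exp_half m
    refine Qc_le ?_ ?_ ?_ le_rfl le_rfl (by positivity) (by positivity) (by positivity)
      (by positivity) (by positivity) (e5 z)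
    · rw [g1, div_eq_mul_inv]
    · rw [g1]
    · rw [g1]

/-- **The flat zone `W_y = 0`.** -/
theorem flatT2 {S : ℝ → ℝ} {a b f : ℝ} (h : FS n S a b f) :
    ∃ t₀ ρ : ℝ, 0 < t₀ ∧ 0 < ρ ∧ ∀ α β : ℝ, ∃ c : ℝ, 0 < c ∧ ∀ t : ℝ, 0 < t → t ≤ t₀ →
    ∀ F₁ F₂ F₃ : ℝ → ℝ, FF a b α β F₁ F₂ F₃ → ∀ B : ℕ → ℝ, ∃ C : ℝ, 0 ≤ C ∧
    ∀ (m : ℝ) (Φ : ℝ → ℝ) (l : V n → ℝ) (w : Fin n → ℝ) (s : ℝ),
    FD (tyf S Φ l t) a b α β f ρ B m Φ l w s → ∀ et : VV n → ℝ, Continuous et →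
    (∀ z ∈ Of a b α β m l (tyf S Φ l t), 1 ≤ |et z|) →
    Zone (Ch.fx n) (Ch.fy n) univ (fun _ => 1) (fun _ => 0) (fun _ => 0) (W0f S Φ l)
      (chf F₁ F₂ F₃ l m (tyf S Φ l t))
      (Qc (chf F₁ F₂ F₃ l m (tyf S Φ l t)) 1 (c * Real.exp m) (c * Real.exp m)
        (c * Real.exp m ^ 3) (c * Real.exp m ^ 2))
      (Qc et (C / √(Real.exp m)) (C * √(Real.exp m)) (C * √(Real.exp m))
        (C * (Real.exp m ^ 2 * √(Real.exp m))) (C * (Real.exp m * √(Real.exp m)))) := by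
  have := Ch.haar_VV (n := n)
  obtain ⟨t₀, ρ, θ, c, m₁, k1, k2, hθ, hc, hm, H⟩ := flat_gm (oyx n) h
  refine ⟨t₀, ρ, k1, k2, fun α β => ?_⟩
  set c₀ := min (Real.exp α) (Real.exp α ^ 2 * m₁) with hc₀
  have c₀0 : 0 < c₀ := lt_min (Real.exp_pos _) (by have := Real.exp_pos α; positivity)
  set c' := c * min c₀ (c₀ ^ 2) with hc'
  have c'0 : 0 < c' := mul_pos hc (lt_min c₀0 (by positivity))
  set cT := min (8 * θ * c') (min (4 * c') (min (8 * c') (8 * c' * c₀))) with hcT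
  have cT1 : cT ≤ 8 * θ * c' := min_le_left _ _
  have cT2 : cT ≤ 4 * c' := (min_le_right _ _).trans (min_le_left _ _)
  have cT3 : cT ≤ 8 * c' := (min_le_right _ _).trans ((min_le_right _ _).trans (min_le_left _ _))
  have cT4 : cT ≤ 8 * c' * c₀ :=
    (min_le_right _ _).trans ((min_le_right _ _).trans (min_le_right _ _))
  have cT0 : 0 < cT := by positivity
  refine ⟨cT, cT0, fun t t0 t1 F₁ F₂ F₃ hF B => ?_⟩
  obtain ⟨G, kap, sig, Ef, om, hy, hd, hh, hW, hχ, h3⟩ := H α β t t0 t1 F₁ F₂ F₃ hF B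
  obtain ⟨C, hC, Z⟩ := Gm.zone_yx hd hy
  refine ⟨C, hC, fun m Φ l w s D et het het1 => ?_⟩
  have hT : ∀ (S Φ : Sm ℝ) (l : Sm (V n)) (t : ℝ) (z : VV n),
    (4 * (∑ i, (ds ((oyx n).dir (Sum.inl i)) ((oyx n).Wt S Φ l) : VV n → ℝ) z ^ 2) /
      (t * ((oyx n).At S Φ l : VV n → ℝ) z) ^ 2 - 1) / 3 =
      tyf (S : ℝ → ℝ) (Φ : ℝ → ℝ) (l : V n → ℝ) t z := fun S Φ l t z => by
    unfold tyf
    rw [← Wt_f oyx_τ oyx_u, ← At_f oyx_τ oyx_u]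
    rfl
  set d : TD (oyx n) ⟨S, h.Ss⟩ a b α β t f ρ B := mkD oyx_τ oyx_u hT
    (fun l w s ρ z h1 h2 h3 h4 => ⟨h2, h1, h4⟩) h.Ss D with hd'
  have Zd := Z d
  have e1 : (G.W d : VV n → ℝ) = W0f S Φ l := by
    rw [hW]
    exact Wt_f oyx_τ oyx_u _ _ _
  have e2 : ∀ z, (d.tx h.S0 : VV n → ℝ) z = tyf S Φ l t z := fun z => by
    rw [TD.tx_val]
    exact hT _ _ _ _ _
  have e3 : (G.χ 0 d : VV n → ℝ) = chf F₁ F₂ F₃ l m (tyf S Φ l t) := by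
    rw [hχ]
    funext z
    rw [TD.chi_val, e2, oyx_τ, oyx_u]
    rfl
  have e4 : ∀ z, z ∈ d.O h.S0 → z ∈ Of a b α β m l (tyf S Φ l t) := fun z hz => by
    obtain ⟨y1, y2, y3, y4, y5⟩ := hz
    rw [oyx_τ] at y1 y2
    rw [e2] at y3
    rw [oyx_u] at y4 y5
    exact ⟨y1, y2, y3, y4, y5⟩
  have e5 : ∀ z, (G.χ 3 d : VV n → ℝ) z ^ 2 ≤ et z ^ 2 := fun z => by
    by_cases hz : (G.χ 3 d : VV n → ℝ) z = 0
    · rw [hz, zero_pow two_ne_zero]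
      exact sq_nonneg _
    · have h1 := (h3 d z).1
      have h2 := het1 z (e4 z ((h3 d z).2 hz))
      exact sq_le_sq.2 (h1.trans h2)
  rw [e1, e3] at Zd
  have hh' : G.h d = Real.exp (m / 2) := hh d
  obtain ⟨p2, p4, p6, p3, p5⟩ := hpow m
  rw [hh', p2, p4, p6, p3, p5] at Zd
  have eN := Real.exp_pos m
  have c3 : Continuous (chf F₁ F₂ F₃ l m (tyf S Φ l t)) := by
    rw [← e3]; exact sct _
  refine H354.E.zone_mono (Ch.ok_fx isOpen_univ) (Ch.ok_fy isOpen_univ) contDiffOn_const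
    contDiffOn_const ?_ (Qc_ct c3 _ _ _ _ _) (Qc_ct (sct _) _ _ _ _ _) (Qc_ct c3 _ _ _ _ _)
    (Qc_ct het _ _ _ _ _) (fun z _ => ?_) (fun z _ => ?_) Zd
  · rw [← e1]; exact (scd _).contDiffOn
  · refine Qc_le le_rfl (mul_le_mul_of_nonneg_right cT2 eN.le)
      (mul_le_mul_of_nonneg_right cT1 eN.le) (mul_le_mul_of_nonneg_right cT4 (by positivity))
      (mul_le_mul_of_nonneg_right cT3 (by positivity)) zero_le_one (by positivity) (by positivity)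
      (by positivity) (by positivity) le_rfl
  · have g1 : Real.exp (m / 2) = √(Real.exp m) := exp_half m
    refine Qc_le ?_ ?_ ?_ le_rfl le_rfl (by positivity) (by positivity) (by positivity)
      (by positivity) (by positivity) (e5 z)
    · rw [g1, div_eq_mul_inv]
    · rw [g1]
    · rw [g1]

end Vale.Agent.P088.R2.H820.W
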