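import Vale.Agent.P088.R2.H820.T.Ft2

/-!
# The flat zones of the critical surfaces in both orientations
-/

open MeasureTheory Set
open scoped ContDiff

set_option linter.unusedSectionVars false
set_option linter.dupNamespace false

noncomputable section

namespace Vale.Agent.P088.R2.H820.W

open Vale.Agent.P088.R2.H464.EP Vale.Agent.P088.LR Vale.Agent.P088.HY
open Vale.Agent.P088.R2.H961.GW (Sl Te In) 
open Vale.Agent.P088.R2.H644 Vale.Agent.P088.R2.H551.E Vale.Agent.P088.R2.H960.W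

variable {n : ℕ}

/-- The flat zone with the letters of the first tube. -/
def ZX (W χ et : VV n → ℝ) (c C N : ℝ) : Prop :=
  Zone (Ch.fx n) (Ch.fy n) univ (fun _ => 1) (fun _ => 0) (fun _ => 0) W χ
    (Qc χ 1 (c * N) (c * N) (c * N ^ 2) (c * N ^ 3))
    (Qc et (C / √N) (C * √N) (C * √N) (C * (N * √N)) (C * (N ^ 2 * √N)))

/-- The flat zone with the letters of the second tube. -/
def ZY (W χ et : VV n → ℝ) (c C N : ℝ) : Prop :=
  Zone (Ch.fx n) (Ch.fy n) univ (fun _ => 1) (fun _ => 0) (fun _ => 0) W χ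
    (Qc χ 1 (c * N) (c * N) (c * N ^ 3) (c * N ^ 2))
    (Qc et (C / √N) (C * √N) (C * √N) (C * (N ^ 2 * √N)) (C * (N * √N)))

section mono

variable {W χ et : VV n → ℝ} {c C c' C' N : ℝ}

theorem ZX.mono (h : ZX W χ et c C N) (hW : ContDiff ℝ ∞ W) (hχ : Continuous χ)
    (he : Continuous et) (c0 : 0 ≤ c') (hc : c' ≤ c) (C0 : 0 ≤ C) (hC : C ≤ C') (hN : 0 ≤ N) :
    ZX W χ et c' C' N := by
  have := Ch.haar_VV (n := n)
  refine H354.E.zone_mono (Ch.ok_fx isOpen_univ) (Ch.ok_fy isOpen_univ) contDiffOn_const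
    contDiffOn_const hW.contDiffOn (Qc_ct hχ _ _ _ _ _) (Qc_ct he _ _ _ _ _) (Qc_ct hχ _ _ _ _ _)
    (Qc_ct he _ _ _ _ _) (fun z _ => ?_) (fun z _ => ?_) h
  · exact Qc_le le_rfl (mul_le_mul_of_nonneg_right hc hN) (mul_le_mul_of_nonneg_right hc hN)
      (mul_le_mul_of_nonneg_right hc (by positivity))
      (mul_le_mul_of_nonneg_right hc (by positivity)) zero_le_one (by positivity) (by positivity)
      (by positivity) (by positivity) le_rfl
  · exact Qc_le (div_le_div_of_nonneg_right hC (Real.sqrt_nonneg _))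
      (mul_le_mul_of_nonneg_right hC (by positivity))
      (mul_le_mul_of_nonneg_right hC (by positivity))
      (mul_le_mul_of_nonneg_right hC (by positivity))
      (mul_le_mul_of_nonneg_right hC (by positivity)) (by positivity) (by positivity)
      (by positivity) (by positivity) (by positivity) le_rfl

theorem ZY.mono (h : ZY W χ et c C N) (hW : ContDiff ℝ ∞ W) (hχ : Continuous χ)
    (he : Continuous et) (c0 : 0 ≤ c') (hc : c' ≤ c) (C0 : 0 ≤ C) (hC : C ≤ C') (hN : 0 ≤ N) :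
    ZY W χ et c' C' N := by
  have := Ch.haar_VV (n := n)
  refine H354.E.zone_mono (Ch.ok_fx isOpen_univ) (Ch.ok_fy isOpen_univ) contDiffOn_const
    contDiffOn_const hW.contDiffOn (Qc_ct hχ _ _ _ _ _) (Qc_ct he _ _ _ _ _) (Qc_ct hχ _ _ _ _ _)
    (Qc_ct he _ _ _ _ _) (fun z _ => ?_) (fun z _ => ?_) h
  · exact Qc_le le_rfl (mul_le_mul_of_nonneg_right hc hN) (mul_le_mul_of_nonneg_right hc hN)
      (mul_le_mul_of_nonneg_right hc (by positivity))
      (mul_le_mul_of_nonneg_right hc (by positivity)) zero_le_one (by positivity) (by positivity)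
      (by positivity) (by positivity) le_rfl
  · exact Qc_le (div_le_div_of_nonneg_right hC (Real.sqrt_nonneg _))
      (mul_le_mul_of_nonneg_right hC (by positivity))
      (mul_le_mul_of_nonneg_right hC (by positivity))
      (mul_le_mul_of_nonneg_right hC (by positivity))
      (mul_le_mul_of_nonneg_right hC (by positivity)) (by positivity) (by positivity)
      (by positivity) (by positivity) (by positivity) le_rfl

end mono

section sm

variable {S Φ : ℝ → ℝ} {l : V n → ℝ} {t : ℝ} (hS : ContDiff ℝ ∞ S)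
  (hS0 : ∀ x, 0 ≤ x → 0 ≤ S x) (hΦ : ContDiff ℝ ∞ Φ) (hΦ1 : ∀ x, 0 < deriv Φ x)
  (hl : ContDiff ℝ ∞ l)

include hS hΦ hl in
theorem W0f_sm : ContDiff ℝ ∞ (W0f S Φ l) := by
  rw [show W0f S Φ l = ((oxy n).Wt ⟨S, hS⟩ ⟨Φ, hΦ⟩ ⟨l, hl⟩ : VV n → ℝ) from
    (Wt_f oxy_τ oxy_u ⟨S, hS⟩ ⟨Φ, hΦ⟩ ⟨l, hl⟩).symm]
  exact scd _

include hS hΦ hl in
theorem NGf_ct : Continuous (NGf S Φ l) := by
  rw [show NGf S Φ l = ((oxy n).At ⟨S, hS⟩ ⟨Φ, hΦ⟩ ⟨l, hl⟩ : VV n → ℝ) from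
    (At_f oxy_τ oxy_u ⟨S, hS⟩ ⟨Φ, hΦ⟩ ⟨l, hl⟩).symm]
  exact sct _

include hS0 hΦ1 in
theorem NGf_pos (z : VV n) : 0 < NGf S Φ l z := by
  unfold NGf
  have h1 := hΦ1 (l z.1 + l z.2)
  have h2 : 0 ≤ HY.sq (z.1 - z.2) := Finset.sum_nonneg fun i _ => sq_nonneg _
  have h3 := hS0 _ h2
  have h4 := Real.exp_pos (l z.1 + l z.2)
  positivity

include hS hS0 hΦ hΦ1 hl in
theorem txf_ct (ht : 0 < t) : Continuous (txf S Φ l t) := by
  have hW := W0f_sm hS hΦ hl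
  have h1 : ∀ i, Continuous fun z => dx i (W0f S Φ l) z := fun i =>
    (hW.continuous_fderiv (by simp)).clm_apply continuous_const
  have h2 := NGf_ct hS hΦ hl
  have h3 : Continuous fun z => 4 * (∑ i, dx i (W0f S Φ l) z ^ 2) / (t * NGf S Φ l z) ^ 2 := by
    refine (continuous_const.mul (continuous_finsetSum _ fun i _ => (h1 i).pow 2)).div
      ((continuous_const.mul h2).pow 2) fun z => ?_
    have := NGf_pos (S := S) (Φ := Φ) (l := l) hS0 hΦ1 z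
    positivity
  exact (h3.sub continuous_const).div_const 3

include hS hS0 hΦ hΦ1 hl in
theorem tyf_ct (ht : 0 < t) : Continuous (tyf S Φ l t) := by
  have hW := W0f_sm hS hΦ hl
  have h1 : ∀ i, Continuous fun z => dy i (W0f S Φ l) z := fun i =>
    (hW.continuous_fderiv (by simp)).clm_apply continuous_const
  have h2 := NGf_ct hS hΦ hl
  have h3 : Continuous fun z => 4 * (∑ i, dy i (W0f S Φ l) z ^ 2) / (t * NGf S Φ l z) ^ 2 := by
    refine (continuous_const.mul (continuous_finsetSum _ fun i _ => (h1 i).pow 2)).div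
      ((continuous_const.mul h2).pow 2) fun z => ?_
    have := NGf_pos (S := S) (Φ := Φ) (l := l) hS0 hΦ1 z
    positivity
  exact (h3.sub continuous_const).div_const 3

theorem chf_ct {F₁ F₂ F₃ : ℝ → ℝ} {T : VV n → ℝ} {m : ℝ} (h1 : Continuous F₁)
    (h2 : Continuous F₂) (h3 : Continuous F₃) (hl : Continuous l) (hT : Continuous T) :
    Continuous (chf F₁ F₂ F₃ l m T) := by
  have hq : Continuous fun z : VV n => HY.sq (z.1 - z.2) := by
    unfold HY.sq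
    fun_prop
  have hu : Continuous fun z : VV n => l z.1 + l z.2 - m :=
    ((hl.comp continuous_fst).add (hl.comp continuous_snd)).sub continuous_const
  exact (h1.comp hq).mul ((h2.comp hT).mul (h3.comp hu))

end sm

theorem FD.mono {T : VV n → ℝ} {a b α β f ρ ρ' : ℝ} {B : ℕ → ℝ} {m : ℝ} {Φ : ℝ → ℝ}
    {l : V n → ℝ} {w : Fin n → ℝ} {s : ℝ} (h : FD T a b α β f ρ B m Φ l w s) (hρ : ρ ≤ ρ') :
    FD T a b α β f ρ' B m Φ l w s :=
  { h with
    K := fun x h1 h2 => (h.K x h1 h2).trans (mul_le_mul_of_nonneg_right hρ (Real.exp_pos _).le)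
    s0 := h.s0.trans hρ
    gx := fun z hz => (h.gx z hz).trans hρ
    gy := fun z hz => (h.gy z hz).trans hρ }

/-- The flat zones in both orientations for one family. -/
structure FZ (n : ℕ) (S : ℝ → ℝ) (a b f α β t ρ c C : ℝ) (F₁ F₂ F₃ : ℝ → ℝ) (B : ℕ → ℝ) :
    Prop where
  x : ∀ (m : ℝ) (Φ : ℝ → ℝ) (l : V n → ℝ) (w : Fin n → ℝ) (s : ℝ),
    FD (txf S Φ l t) a b α β f ρ B m Φ l w s → ∀ et : VV n → ℝ, Continuous et →
    (∀ z ∈ Of a b α β m l (txf S Φ l t), 1 ≤ |et z|) →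
    ZX (W0f S Φ l) (chf F₁ F₂ F₃ l m (txf S Φ l t)) et c C (Real.exp m)
  y : ∀ (m : ℝ) (Φ : ℝ → ℝ) (l : V n → ℝ) (w : Fin n → ℝ) (s : ℝ),
    FD (tyf S Φ l t) a b α β f ρ B m Φ l w s → ∀ et : VV n → ℝ, Continuous et →
    (∀ z ∈ Of a b α β m l (tyf S Φ l t), 1 ≤ |et z|) →
    ZY (W0f S Φ l) (chf F₁ F₂ F₃ l m (tyf S Φ l t)) et c C (Real.exp m)

/-- **The flat zones in both orientations.** -/
theorem exists_FZ {S : ℝ → ℝ} {a b f : ℝ} (h : FS n S a b f) :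
    ∃ t₀ ρ : ℝ, 0 < t₀ ∧ 0 < ρ ∧ ∀ α β : ℝ, ∃ c : ℝ, 0 < c ∧ ∀ t : ℝ, 0 < t → t ≤ t₀ →
    ∀ F₁ F₂ F₃ : ℝ → ℝ, FF a b α β F₁ F₂ F₃ → ∀ B : ℕ → ℝ, ∃ C : ℝ, 0 ≤ C ∧
    ∀ ρ' c' C', ρ' ≤ ρ → 0 ≤ c' → c' ≤ c → C ≤ C' →
      FZ n S a b f α β t ρ' c' C' F₁ F₂ F₃ B := by
  obtain ⟨t1, ρ1, k1, k2, H1⟩ := flatT1 h
  obtain ⟨t2, ρ2, k3, k4, H2⟩ := flatT2 h
  refine ⟨min t1 t2, min ρ1 ρ2, lt_min k1 k3, lt_min k2 k4, fun α β => ?_⟩
  obtain ⟨c1, hc1, H1⟩ := H1 α β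
  obtain ⟨c2, hc2, H2⟩ := H2 α β
  refine ⟨min c1 c2, lt_min hc1 hc2, fun t t0 ht F₁ F₂ F₃ hF B => ?_⟩
  obtain ⟨C1, hC1, H1⟩ := H1 t t0 (ht.trans (min_le_left _ _)) F₁ F₂ F₃ hF B
  obtain ⟨C2, hC2, H2⟩ := H2 t t0 (ht.trans (min_le_right _ _)) F₁ F₂ F₃ hF B
  refine ⟨max C1 C2, hC1.trans (le_max_left _ _), fun ρ' c' C' hρ' c0 hc' hC' => ⟨?_, ?_⟩⟩
  · intro m Φ l w s D et he het
    have hz := H1 m Φ l w s (D.mono (hρ'.trans (min_le_left _ _))) et he het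
    refine ZX.mono hz (W0f_sm h.Ss D.Φs D.ls) (chf_ct hF.s₁.continuous hF.s₂.continuous
      hF.s₃.continuous D.ls.continuous (txf_ct h.Ss h.S0 D.Φs D.Φ1 D.ls t0)) he c0
      (hc'.trans (min_le_left _ _)) hC1 ((le_max_left _ _).trans hC') (Real.exp_pos _).le
  · intro m Φ l w s D et he het
    have hz := H2 m Φ l w s (D.mono (hρ'.trans (min_le_right _ _))) et he het
    refine ZY.mono hz (W0f_sm h.Ss D.Φs D.ls) (chf_ct hF.s₁.continuous hF.s₂.continuous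
      hF.s₃.continuous D.ls.continuous (tyf_ct h.Ss h.S0 D.Φs D.Φ1 D.ls t0)) he c0
      (hc'.trans (min_le_right _ _)) hC2 ((le_max_right _ _).trans hC') (Real.exp_pos _).le

end Vale.Agent.P088.R2.H820.W
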