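import Vale.Agent.P088.R2.H820.W.Tube3

/-!
# The tube theorem for all test functions

`Gm` is the geometric part of the setting; the family of test functions consists of all pairs, and
`r` is the unit energy of the pair on the support of `χ 3`.
-/

open MeasureTheory Set
open scoped ContDiff

set_option linter.unusedSectionVars false

noncomputable section

namespace Vale.Agent.P088.R2.H820.W

open Vale.Agent.P088.R2.H464.EP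

section pull

variable {D D' E κ : Type} [NormedAddCommGroup E] [NormedSpace ℝ E]

/-- The pull back of a family. -/
def Fa.pull (F : Fa D E κ) (φ : D' → D) : Fa D' E κ where
  h d := F.h (φ d)
  h1 d := F.h1 (φ d)
  Ω d := F.Ω (φ d)
  op d := F.op (φ d)
  dir := F.dir

variable {F : Fa D E κ} {φ : D' → D} {m : ℤ} {g : D → Sm E}

theorem B0.pull (φ : D' → D) (hg : B0 F m g) : B0 (F.pull φ) m (fun d => g (φ d)) := by
  obtain ⟨C, hC, h⟩ := hg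
  exact ⟨C, hC, fun d z hz => h (φ d) z hz⟩

theorem Bk.pull (φ : D' → D) : ∀ {k : ℕ} {g : D → Sm E}, Bk F k m g →
    Bk (F.pull φ) k m (fun d => g (φ d))
  | 0, _, hg => B0.pull φ hg
  | _ + 1, _, hg => ⟨B0.pull φ hg.1, fun i => Bk.pull φ (hg.2 i)⟩

theorem Bd.pull (φ : D' → D) (hg : Bd F m g) : Bd (F.pull φ) m (fun d => g (φ d)) :=
  fun k => (hg k).pull φ

end pull

/-- The geometric part of the setting. -/
structure Gm (D E ι : Type) [NormedAddCommGroup E] [NormedSpace ℝ E] extends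
    Fa D E (ι ⊕ ι) where
  W : D → Sm E
  χ : ℕ → D → Sm E
  hW : ∀ k, Bd toFa 2 (fun d => wk dir (W d) k)
  hχ : ∀ j ≤ 3, Bd toFa 0 (χ j)
  χb : ∀ j ≤ 3, ∀ d z, |(χ j d : E → ℝ) z| ≤ 1
  χs : ∀ j ≤ 2, Su (χ (j + 1)) (χ j)
  χΩ : ∀ d z, (χ 3 d : E → ℝ) z ≠ 0 → z ∈ Ω d

namespace Gm

variable {D E ι : Type} [NormedAddCommGroup E] [NormedSpace ℝ E] [Fintype ι] [MeasurableSpace E]
  [BorelSpace E] [FiniteDimensional ℝ E] {μ : Measure E} [μ.IsAddHaarMeasure]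
  (G : Gm D E ι)

/-- `X_{x_i}^*`. -/
def xs (i : ι) (d : D) : Op E := Xs G.dir (G.W d) (Sum.inl i)
/-- `X_{y_j}^*`. -/
def ys (j : ι) (d : D) : Op E := Xs G.dir (G.W d) (Sum.inr j)
/-- `P_1`. -/
def P1 (d : D) (u : TE E) : TE E :=
  ∑ i, X G.dir (G.W d) (Sum.inl i) (X G.dir (G.W d) (Sum.inl i) u)
/-- `P_2`. -/
def P2 (d : D) (u : TE E) : TE E :=
  ∑ j, X G.dir (G.W d) (Sum.inr j) (X G.dir (G.W d) (Sum.inr j) u)
/-- `W_{y_j}`. -/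
def wy (j : ι) (d : D) : Sm E := wk G.dir (G.W d) (Sum.inr j)
/-- `W_{x_i x_l}`. -/
def H (i l : ι) (d : D) : Sm E := ck G.dir (G.W d) (Sum.inl i) (Sum.inl l)
/-- `W_{x_i y_j}`. -/
def M (i j : ι) (d : D) : Sm E := ck G.dir (G.W d) (Sum.inl i) (Sum.inr j)
/-- `W_{y_j y_k}`. -/
def G' (j k : ι) (d : D) : Sm E := ck G.dir (G.W d) (Sum.inr j) (Sum.inr k)

/-- The unit energy. -/
def r (μ : Measure E) [IsFiniteMeasureOnCompacts μ] (d : D) (a b : TE E) : ℝ :=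
  (∑ i, nm μ (ml (G.χ 3 d) (G.xs i d a))) + (∑ j, nm μ (ml (G.χ 3 d) (G.ys j d b))) +
    G.h d ^ 2 * nm μ (ml (G.χ 3 d) a) + G.h d ^ 4 * nm μ (ml (G.χ 3 d) b) +
    (G.h d ^ 2)⁻¹ * (nm μ (ml (G.χ 3 d) (G.P1 d a)) + nm μ (ml (G.χ 3 d) (G.P2 d a)) +
      nm μ (ml (G.χ 3 d) (G.P2 d b)))

theorem t1 (d : D) (a : TE E) : 0 ≤ ∑ i, nm μ (ml (G.χ 3 d) (G.xs i d a)) :=
  Finset.sum_nonneg fun _ _ => nm_nonneg _

theorem t2 (d : D) (b : TE E) : 0 ≤ ∑ j, nm μ (ml (G.χ 3 d) (G.ys j d b)) :=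
  Finset.sum_nonneg fun _ _ => nm_nonneg _

theorem t3 (d : D) (a : TE E) (m : ℕ) : 0 ≤ G.h d ^ m * nm μ (ml (G.χ 3 d) a) :=
  mul_nonneg (pow_nonneg (G.hp d).le m) (nm_nonneg _)

theorem t5 (d : D) (a b c : TE E) : 0 ≤ (G.h d ^ 2)⁻¹ * (nm μ (ml (G.χ 3 d) a) +
    nm μ (ml (G.χ 3 d) b) + nm μ (ml (G.χ 3 d) c)) :=
  mul_nonneg (inv_nonneg.2 (pow_nonneg (G.hp d).le 2))
    (add_nonneg (add_nonneg (nm_nonneg _) (nm_nonneg _)) (nm_nonneg _))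

theorem r_nonneg (d : D) (a b : TE E) : 0 ≤ G.r μ d a b := by
  have h1 := G.t1 (μ := μ) d a
  have h2 := G.t2 (μ := μ) d b
  have h3 := G.t3 (μ := μ) d a 2
  have h4 := G.t3 (μ := μ) d b 4
  have h5 := G.t5 (μ := μ) d (G.P1 d a) (G.P2 d a) (G.P2 d b)
  unfold r
  linarith

/-- All pairs of test functions. -/
abbrev Dp (D E : Type) [NormedAddCommGroup E] [NormedSpace ℝ E] := D × TE E × TE E

theorem le_of_mul {x y h : ℝ} (hh : 0 < h) {m : ℕ} (he : h ^ m * x ≤ y) (s : ℤ)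
    (hs : 2 * s = -(m : ℤ)) : x ≤ 1 * h ^ (2 * s) * y := by
  rw [hs, zpow_neg, zpow_natCast, one_mul, ← div_eq_inv_mul, le_div_iff₀ (pow_pos hh m)]
  linarith

theorem le_of_inv {x y h : ℝ} (hh : 0 < h) (he : (h ^ 2)⁻¹ * x ≤ y) :
    x ≤ 1 * h ^ (2 * 1 : ℤ) * y := by
  have e : h ^ (2 * 1 : ℤ) = h ^ 2 := by norm_cast
  rw [e, one_mul]
  rw [inv_mul_le_iff₀ (pow_pos hh 2)] at he
  exact he

/-- The setting for all test functions. -/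
def sg (μ : Measure E) [μ.IsAddHaarMeasure] : Sg (Dp D E) E ι μ where
  toFa := G.toFa.pull Prod.fst
  r d := G.r μ d.1 d.2.1 d.2.2
  W d := G.W d.1
  χ j d := G.χ j d.1
  a d := d.2.1
  hr d := G.r_nonneg d.1 d.2.1 d.2.2
  hW k := (G.hW k).pull Prod.fst
  hχ j hj := (G.hχ j hj).pull Prod.fst
  χb j hj d z := G.χb j hj d.1 z
  χs j hj d z hz := G.χs j hj d.1 z hz
  χΩ d z hz := G.χΩ d.1 z hz
  qa := by
    refine ⟨1, zero_le_one, fun d => ?_⟩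
    have h1 := G.t1 (μ := μ) d.1 d.2.1
    have h2 := G.t2 (μ := μ) d.1 d.2.2
    have h4 := G.t3 (μ := μ) d.1 d.2.2 4
    have h5 := G.t5 (μ := μ) d.1 (G.P1 d.1 d.2.1) (G.P2 d.1 d.2.1) (G.P2 d.1 d.2.2)
    refine le_of_mul (m := 2) (G.hp d.1) ?_ (-1) (by norm_num)
    unfold r
    linarith
  qu i := by
    refine ⟨1, zero_le_one, fun d => ?_⟩
    have h1 : nm μ (ml (G.χ 3 d.1) (G.xs i d.1 d.2.1)) ≤
        ∑ i, nm μ (ml (G.χ 3 d.1) (G.xs i d.1 d.2.1)) :=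
      Finset.single_le_sum (f := fun i => nm μ (ml (G.χ 3 d.1) (G.xs i d.1 d.2.1)))
        (fun i _ => nm_nonneg _) (Finset.mem_univ i)
    have h2 := G.t2 (μ := μ) d.1 d.2.2
    have h3 := G.t3 (μ := μ) d.1 d.2.1 2
    have h4 := G.t3 (μ := μ) d.1 d.2.2 4
    have h5 := G.t5 (μ := μ) d.1 (G.P1 d.1 d.2.1) (G.P2 d.1 d.2.1) (G.P2 d.1 d.2.2)
    refine le_of_mul (m := 0) (G.hp d.1) ?_ 0 (by norm_num)
    rw [pow_zero, one_mul]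
    unfold r
    exact h1.trans (by linarith)
  p1 := by
    refine ⟨1, zero_le_one, fun d => le_of_inv (G.hp d.1) ?_⟩
    have h1 := G.t1 (μ := μ) d.1 d.2.1
    have h2 := G.t2 (μ := μ) d.1 d.2.2
    have h3 := G.t3 (μ := μ) d.1 d.2.1 2
    have h4 := G.t3 (μ := μ) d.1 d.2.2 4
    have h5 : 0 ≤ (G.h d.1 ^ 2)⁻¹ := inv_nonneg.2 (pow_nonneg (G.hp d.1).le 2)
    have h6 := mul_nonneg h5 (nm_nonneg (μ := μ) (ml (G.χ 3 d.1) (G.P2 d.1 d.2.1)))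
    have h7 := mul_nonneg h5 (nm_nonneg (μ := μ) (ml (G.χ 3 d.1) (G.P2 d.1 d.2.2)))
    change (G.h d.1 ^ 2)⁻¹ * nm μ (ml (G.χ 3 d.1) (G.P1 d.1 d.2.1)) ≤ G.r μ d.1 d.2.1 d.2.2
    unfold r
    linarith
  p2 := by
    refine ⟨1, zero_le_one, fun d => le_of_inv (G.hp d.1) ?_⟩
    have h1 := G.t1 (μ := μ) d.1 d.2.1
    have h2 := G.t2 (μ := μ) d.1 d.2.2
    have h3 := G.t3 (μ := μ) d.1 d.2.1 2
    have h4 := G.t3 (μ := μ) d.1 d.2.2 4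
    have h5 : 0 ≤ (G.h d.1 ^ 2)⁻¹ := inv_nonneg.2 (pow_nonneg (G.hp d.1).le 2)
    have h6 := mul_nonneg h5 (nm_nonneg (μ := μ) (ml (G.χ 3 d.1) (G.P1 d.1 d.2.1)))
    have h7 := mul_nonneg h5 (nm_nonneg (μ := μ) (ml (G.χ 3 d.1) (G.P2 d.1 d.2.2)))
    change (G.h d.1 ^ 2)⁻¹ * nm μ (ml (G.χ 3 d.1) (G.P2 d.1 d.2.1)) ≤ G.r μ d.1 d.2.1 d.2.2
    unfold r
    linarith

theorem qb : (G.sg μ).Q 3 (-2) (fun d => d.2.2) := by
  refine ⟨1, zero_le_one, fun d => ?_⟩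
  have h1 := G.t1 (μ := μ) d.1 d.2.1
  have h2 := G.t2 (μ := μ) d.1 d.2.2
  have h3 := G.t3 (μ := μ) d.1 d.2.1 2
  have h5 := G.t5 (μ := μ) d.1 (G.P1 d.1 d.2.1) (G.P2 d.1 d.2.1) (G.P2 d.1 d.2.2)
  refine le_of_mul (m := 4) (G.hp d.1) ?_ (-2) (by norm_num)
  change G.h d.1 ^ 4 * nm μ (ml (G.χ 3 d.1) d.2.2) ≤ G.r μ d.1 d.2.1 d.2.2
  unfold r
  linarith

theorem qPb : (G.sg μ).Q 3 1 (fun d => G.P2 d.1 d.2.2) := by
  refine ⟨1, zero_le_one, fun d => le_of_inv (G.hp d.1) ?_⟩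
  have h1 := G.t1 (μ := μ) d.1 d.2.1
  have h2 := G.t2 (μ := μ) d.1 d.2.2
  have h3 := G.t3 (μ := μ) d.1 d.2.1 2
  have h4 := G.t3 (μ := μ) d.1 d.2.2 4
  have h5 : 0 ≤ (G.h d.1 ^ 2)⁻¹ := inv_nonneg.2 (pow_nonneg (G.hp d.1).le 2)
  have h6 := mul_nonneg h5 (nm_nonneg (μ := μ) (ml (G.χ 3 d.1) (G.P1 d.1 d.2.1)))
  have h7 := mul_nonneg h5 (nm_nonneg (μ := μ) (ml (G.χ 3 d.1) (G.P2 d.1 d.2.1)))
  change (G.h d.1 ^ 2)⁻¹ * nm μ (ml (G.χ 3 d.1) (G.P2 d.1 d.2.2)) ≤ G.r μ d.1 d.2.1 d.2.2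
  unfold r
  linarith

/-- The energy of `b`. -/
theorem en_b {c : ℝ} {e : D → ℝ} (he0 : ∀ d, 0 ≤ e d) {C₀ : ℝ} (hC₀ : 0 ≤ C₀)
    (he : ∀ d, e d ≤ C₀ * G.h d ^ 2)
    (hL : ∀ d, ∀ z ∈ G.Ω d, c * G.h d ^ 4 ≤ ∑ k, (G.wy k d : E → ℝ) z ^ 2) :
    (G.sg μ).Lq (fun d => e d.1 * (2 * c * G.h d.1 ^ 4 * nm μ (ml (G.χ 0 d.1) d.2.2)))
      (fun d => e d.1 * ∑ k, nm μ (ml (G.χ 0 d.1) (G.ys k d.1 d.2.2))) := by
  set S := G.sg μ with hS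
  -- the remainder of the energy identity
  have b1 : S.B 0 (fun d => S.χ 0 d * S.χ 0 d) := Sg.Bχχ (by norm_num)
  have s1 : Su (S.χ 3) (fun d => S.χ 0 d * S.χ 0 d) := by
    have h1 := Sg.Sχχ (S := S) (j := 0) (by norm_num)
    intro d z hz
    have h2 := h1 d z hz
    have h3 := S.χs 1 (by norm_num) d z (by rw [h2]; exact one_ne_zero)
    exact S.χs 2 (by norm_num) d z (by rw [h3]; exact one_ne_zero)
  have qb : S.Q 3 (-2) (fun d => d.2.2) := G.qb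
  have qPb : S.Q 3 1 (fun d => G.P2 d.1 d.2.2) := G.qPb
  have R1 : S.R (-1) (fun d => ip μ (ml (S.χ 0 d * S.χ 0 d) d.2.2) (G.P2 d.1 d.2.2)) :=
    Sg.R_ip b1 s1 (by norm_num) qb qPb (by norm_num)
  have R2 : ∀ k : ι, S.R (-1) (fun d => 1 / 2 * ip μ (ml (ds (S.dir (Sum.inr k))
      (ds (S.dir (Sum.inr k)) (S.χ 0 d * S.χ 0 d))) d.2.2) d.2.2 +
      ip μ (ml (S.χ 0 d * S.χ 0 d * S.G k k d) d.2.2) d.2.2) := by
    intro k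
    refine Rm.add (Rm.cmul _ ?_) ?_
    · exact Sg.R_ip ((b1.dr _).dr _) ((s1.dr _).dr _) (by norm_num) qb qb (by norm_num)
    · exact Sg.R_ip (b1.mul' (S.BG k k) (by norm_num : (0 : ℤ) + 2 ≤ 2)) (s1.mul_right _)
        (by norm_num) qb qb (by norm_num)
  obtain ⟨C, hC, hT⟩ := (Rm.sum Finset.univ fun k _ => R2 k).sub R1
  refine ⟨fun d => C₀ * C * S.h d ^ (1 : ℤ) * S.r d, ⟨C₀ * C, by positivity, fun d => ?_⟩,
    fun d => ?_⟩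
  · rw [abs_of_nonneg]
    exact mul_nonneg (mul_nonneg (by positivity) (S.toFa.zp d 1).le) (S.hr d)
  have h1 := hT d
  have e1 : ∑ k, nm μ (ml (G.χ 0 d.1) (G.ys k d.1 d.2.2)) =
      2 * ∑ k, ip μ (ml (S.χ 0 d * S.χ 0 d * (S.wy k d * S.wy k d)) d.2.2) d.2.2 +
      ((∑ k, (1 / 2 * ip μ (ml (ds (S.dir (Sum.inr k))
      (ds (S.dir (Sum.inr k)) (S.χ 0 d * S.χ 0 d))) d.2.2) d.2.2 +
      ip μ (ml (S.χ 0 d * S.χ 0 d * S.G k k d) d.2.2) d.2.2)) -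
      ip μ (ml (S.χ 0 d * S.χ 0 d) d.2.2) (G.P2 d.1 d.2.2)) := by
    have e2 : ip μ (ml (S.χ 0 d * S.χ 0 d) d.2.2) (G.P2 d.1 d.2.2) =
        ∑ k, ip μ (ml (S.χ 0 d * S.χ 0 d) d.2.2) (X G.dir (G.W d.1) (Sum.inr k)
          (X G.dir (G.W d.1) (Sum.inr k) d.2.2)) := by
      unfold P2
      rw [map_sum]
    rw [e2, Finset.mul_sum, ← Finset.sum_sub_distrib, ← Finset.sum_add_distrib]
    refine Finset.sum_congr rfl fun k _ => ?_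
    have h := energy (μ := μ) (dir := G.dir) (W := G.W d.1) (Sum.inr k)
      (G.χ 0 d.1 * G.χ 0 d.1) d.2.2
    rw [Sg.nm_chi]
    change ip μ (ml (G.χ 0 d.1 * G.χ 0 d.1) (Xs G.dir (G.W d.1) (Sum.inr k) d.2.2))
      (Xs G.dir (G.W d.1) (Sum.inr k) d.2.2) = _
    rw [h]
    change _ = 2 * ip μ (ml (G.χ 0 d.1 * G.χ 0 d.1 * (wk G.dir (G.W d.1) (Sum.inr k) *
      wk G.dir (G.W d.1) (Sum.inr k))) d.2.2) d.2.2 + (1 / 2 * ip μ (ml (ds (G.dir (Sum.inr k))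
      (ds (G.dir (Sum.inr k)) (G.χ 0 d.1 * G.χ 0 d.1))) d.2.2) d.2.2 +
      ip μ (ml (G.χ 0 d.1 * G.χ 0 d.1 * ck G.dir (G.W d.1) (Sum.inr k) (Sum.inr k)) d.2.2)
      d.2.2 - ip μ (ml (G.χ 0 d.1 * G.χ 0 d.1) d.2.2) (X G.dir (G.W d.1) (Sum.inr k)
        (X G.dir (G.W d.1) (Sum.inr k) d.2.2)))
    ring
  have e3 : c * G.h d.1 ^ 4 * nm μ (ml (G.χ 0 d.1) d.2.2) ≤
      ∑ k, ip μ (ml (S.χ 0 d * S.χ 0 d * (S.wy k d * S.wy k d)) d.2.2) d.2.2 := by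
    have h := Sg.ip_ge (μ := μ) (χ := G.χ 0 d.1) (g := ∑ k, G.wy k d.1 * G.wy k d.1)
      (c := c * G.h d.1 ^ 4) (fun z hz => by
        have h2 := hL d.1 z (S.χ1 0 (by norm_num) d z hz)
        rw [Sg.sum_val]
        refine h2.trans (le_of_eq (Finset.sum_congr rfl fun k _ => ?_))
        change _ = (G.wy k d.1 : E → ℝ) z * (G.wy k d.1 : E → ℝ) z
        ring) d.2.2
    refine h.trans (le_of_eq ?_)
    rw [Finset.mul_sum, map_sum, LinearMap.sum_apply, map_sum, LinearMap.sum_apply]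
    rfl
  beta_reduce
  rw [e1]
  have h4 := (abs_le.1 h1).1
  beta_reduce at h4
  have h6 : S.h d ^ (2 : ℤ) * S.h d ^ (-1 : ℤ) = S.h d ^ (1 : ℤ) := by
    rw [← S.toFa.zadd]; norm_num
  have h7 : e d.1 * (C * S.h d ^ (-1 : ℤ) * S.r d) ≤ C₀ * C * S.h d ^ (1 : ℤ) * S.r d := by
    have h8 : (0 : ℝ) ≤ C * S.h d ^ (-1 : ℤ) * S.r d :=
      mul_nonneg (mul_nonneg hC (S.toFa.zp d _).le) (S.hr d)
    have h9 := mul_le_mul_of_nonneg_right (he d.1) h8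
    have h10 : S.h d ^ (2 : ℤ) = G.h d.1 ^ 2 := by
      change G.h d.1 ^ (2 : ℤ) = G.h d.1 ^ 2
      norm_cast
    refine h9.trans (le_of_eq ?_)
    rw [← h6, h10]
    ring
  have h11 := mul_le_mul_of_nonneg_left h4 (he0 d.1)
  have h12 := mul_le_mul_of_nonneg_left e3 (he0 d.1)
  nlinarith [h11, h12, h7]

end Gm

end Vale.Agent.P088.R2.H820.W
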