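import Vale.Agent.P088.R2.H820.T.Gm
import Vale.Agent.P088.R2.H312.T.Pt2

/-!
# The tube theorem for all test functions, with helper312's pointwise hypotheses
-/

open MeasureTheory Set
open scoped ContDiff

set_option linter.unusedSectionVars false

noncomputable section

namespace Vale.Agent.P088.R2.H820.W

open Vale.Agent.P088.R2.H464.EP

namespace Gm

variable {D E ι : Type} [NormedAddCommGroup E] [NormedSpace ℝ E] [Fintype ι] [MeasurableSpace E]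
  [BorelSpace E] [FiniteDimensional ℝ E] {μ : Measure E} [μ.IsAddHaarMeasure]
  (G : Gm D E ι)

/-- The hypotheses on the auxiliary functions. -/
structure Hy [DecidableEq ι] (G : Gm D E ι) (kap sig Ef om : D → Sm E) (c θ c₀ : ℝ) : Prop where
  hk : Bd G.toFa 2 kap
  hs : Bd G.toFa (-2) sig
  hE : Bd G.toFa 2 Ef
  ho : Bd G.toFa (-6) om
  θ0 : 0 ≤ θ
  θ1 : θ ≤ 1
  c0 : 0 ≤ c
  c₀0 : 0 < c₀
  c₀E : ∀ d, ∀ z ∈ G.Ω d, c₀ * G.h d ^ 2 ≤ (Ef d : E → ℝ) z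
  c₀L : ∀ d, ∀ z ∈ G.Ω d, c₀ * G.h d ^ 4 ≤ ∑ k, (G.wy k d : E → ℝ) z ^ 2
  ho1 : ∀ d, ∀ z ∈ G.Ω d, (om d : E → ℝ) z * (H312.T.gam ((kap d : E → ℝ) z) ((sig d : E → ℝ) z)
    (fun k => (G.wy k d : E → ℝ) z) * H312.T.L2 (fun k => (G.wy k d : E → ℝ) z)) = 1
  pt : ∀ d, ∀ z ∈ G.Ω d, H312.T.HypE (fun i l => (G.H i l d : E → ℝ) z)
    (fun i j => (G.M i j d : E → ℝ) z) (fun j k => (G.G' j k d : E → ℝ) z)
    (fun k => (G.wy k d : E → ℝ) z) ((kap d : E → ℝ) z) ((sig d : E → ℝ) z) θ c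
    ((Ef d : E → ℝ) z)

/-- The commutator form. -/
def form (μ : Measure E) [IsFiniteMeasureOnCompacts μ] (d : D) (a b : TE E) : ℝ :=
  (∑ i, ∑ l, ip μ (ml (G.χ 0 d * G.χ 0 d * G.H i l d) (G.xs i d a)) (G.xs l d a)) +
    2 * (∑ i, ∑ j, ip μ (ml (G.χ 0 d * G.χ 0 d * G.M i j d) (G.xs i d a)) (G.ys j d b)) +
    (∑ j, ∑ k, ip μ (ml (G.χ 0 d * G.χ 0 d * G.G' j k d) (G.ys j d b)) (G.ys k d b)) -
    ip μ (ml (G.χ 0 d * G.χ 0 d * ∑ i, ∑ l, G.H i l d * G.H i l d) a) a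

theorem val_sum {α : Type} (A : Finset α) (f : α → Sm E) (z : E) :
    ((∑ a ∈ A, f a : Sm E) : E → ℝ) z = ∑ a ∈ A, (f a : E → ℝ) z := Sg.sum_val A f z

variable [DecidableEq ι] {G} {kap sig Ef om : D → Sm E} {c θ c₀ : ℝ}

/-- The function `lam`. -/
def lamS (S : Sg D E ι μ) (kap sig Ef om : D → Sm E) (c θ : ℝ) (d : D) : Sm E :=
  S.tN d - (1 / 4 : ℝ) • (S.gam kap sig d * (c • (Ef d * Ef d) + S.HH d -
    (2 * (1 - θ)) • S.tgH om d))

theorem B_lam (S : Sg D E ι μ) {kap sig Ef om : D → Sm E} (hk : S.B 2 kap) (hs : S.B (-2) sig)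
    (hE : S.B 2 Ef) (ho : S.B (-6) om) : S.B 6 (lamS S kap sig Ef om c θ) := by
  have hg : S.B 2 (S.gam kap sig) :=
    (hk.add hk).add (hs.mul' Sg.BL2 (by norm_num : (-2 : ℤ) + 4 ≤ 2))
  have hH : S.B 4 S.HH := Bd.sum _ fun i _ => Bd.sum _ fun l _ =>
    (S.BH i l).mul' (S.BH i l) (by norm_num : (2 : ℤ) + 2 ≤ 4)
  have ht : S.B 4 (S.tgH om) := Bd.sum _ fun i _ => Bd.sum _ fun l _ =>
    (Sg.Bgg ho i l).mul' (S.BH i l) (by norm_num : (2 : ℤ) + 2 ≤ 4)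
  exact Sg.BtN.sub ((hg.mul' (((hE.mul' hE (by norm_num : (2 : ℤ) + 2 ≤ 4)).cmul c).add hH |>.sub
    (ht.cmul _)) (by norm_num : (2 : ℤ) + 4 ≤ 6)).cmul _)

/-- **The tube theorem for all test functions.** -/
theorem main (h : Hy G kap sig Ef om c θ c₀) : ∃ C, 0 ≤ C ∧ ∀ (d : D) (a b : TE E),
    θ * (c * min c₀ (c₀ ^ 2)) * G.h d ^ 2 * (∑ i, nm μ (ml (G.χ 0 d) (G.xs i d a))) +
      c * min c₀ (c₀ ^ 2) * G.h d ^ 4 * nm μ (ml (G.χ 0 d) a) +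
      c * min c₀ (c₀ ^ 2) / 2 * G.h d ^ 2 * (∑ k, nm μ (ml (G.χ 0 d) (G.ys k d b))) +
      c * min c₀ (c₀ ^ 2) * c₀ * G.h d ^ 6 * nm μ (ml (G.χ 0 d) b) ≤
    G.form μ d a b + C * G.h d * G.r μ d a b := by
  set S := G.sg μ with hS
  set c' := c * min c₀ (c₀ ^ 2) with hc'
  have c'0 : 0 ≤ c' := mul_nonneg h.c0 (le_min h.c₀0.le (sq_nonneg c₀))
  have c'1 : c' ≤ c * c₀ := mul_le_mul_of_nonneg_left (min_le_left _ _) h.c0
  have c'2 : c' ≤ c * c₀ ^ 2 := mul_le_mul_of_nonneg_left (min_le_right _ _) h.c0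
  have bk : S.B 2 (fun d => kap d.1) := h.hk.pull Prod.fst
  have bs : S.B (-2) (fun d => sig d.1) := h.hs.pull Prod.fst
  have bE : S.B 2 (fun d => Ef d.1) := h.hE.pull Prod.fst
  have bo : S.B (-6) (fun d => om d.1) := h.ho.pull Prod.fst
  have eL : ∀ d z, (S.L2 d : E → ℝ) z = H312.T.L2 (fun k => (G.wy k d.1 : E → ℝ) z) := by
    intro d z
    unfold Sg.L2 H312.T.L2
    rw [Sg.sum_val]
    rfl
  have eg : ∀ d z, (S.gam (fun d => kap d.1) (fun d => sig d.1) d : E → ℝ) z =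
      H312.T.gam ((kap d.1 : E → ℝ) z) ((sig d.1 : E → ℝ) z)
        (fun k => (G.wy k d.1 : E → ℝ) z) := by
    intro d z
    unfold H312.T.gam
    rw [← eL]
    rfl
  have oi : ∀ d, ∀ z ∈ S.Ω d, (om d.1 : E → ℝ) z * (S.L2 d : E → ℝ) z =
      (H312.T.gam ((kap d.1 : E → ℝ) z) ((sig d.1 : E → ℝ) z)
        (fun k => (G.wy k d.1 : E → ℝ) z))⁻¹ := by
    intro d z hz
    have h1 := h.ho1 d.1 z hz
    rw [eL]
    refine eq_inv_of_mul_eq_one_left ?_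
    linarith
  have egg : ∀ i l d, ∀ z ∈ S.Ω d, (S.gg (fun d => om d.1) i l d : E → ℝ) z =
      H312.T.gg (fun i l => (G.H i l d.1 : E → ℝ) z) (fun i j => (G.M i j d.1 : E → ℝ) z)
        (H312.T.gam ((kap d.1 : E → ℝ) z) ((sig d.1 : E → ℝ) z)
        (fun k => (G.wy k d.1 : E → ℝ) z)) i l := by
    intro i l d z hz
    have e1 : (S.gg (fun d => om d.1) i l d : E → ℝ) z = (S.H i l d : E → ℝ) z -
        2 * ((om d.1 : E → ℝ) z * (S.L2 d : E → ℝ) z *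
          ((∑ j, S.M i j d * S.M l j d : Sm E) : E → ℝ) z) := rfl
    rw [e1, oi d z hz, Sg.sum_val]
    rfl
  have eN : ∀ j k d z, (S.N3 j k d : E → ℝ) z = H312.T.N3 (fun i l => (G.H i l d.1 : E → ℝ) z)
      (fun i j => (G.M i j d.1 : E → ℝ) z) j k := by
    intro j k d z
    unfold Sg.N3 H312.T.N3
    rw [Sg.sum_val]
    refine Finset.sum_congr rfl fun i _ => ?_
    rw [Sg.sum_val]
    rfl
  have etN : ∀ d z, (S.tN d : E → ℝ) z = H312.T.tN (fun i l => (G.H i l d.1 : E → ℝ) z)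
      (fun i j => (G.M i j d.1 : E → ℝ) z) := by
    intro d z
    unfold Sg.tN H312.T.tN
    rw [Sg.sum_val]
    exact Finset.sum_congr rfl fun j _ => eN j j d z
  have etg : ∀ d, ∀ z ∈ S.Ω d, (S.tgH (fun d => om d.1) d : E → ℝ) z =
      H312.T.tgH (fun i l => (G.H i l d.1 : E → ℝ) z) (fun i j => (G.M i j d.1 : E → ℝ) z)
        (H312.T.gam ((kap d.1 : E → ℝ) z) ((sig d.1 : E → ℝ) z)
        (fun k => (G.wy k d.1 : E → ℝ) z)) := by
    intro d z hz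
    unfold Sg.tgH H312.T.tgH
    rw [Sg.sum_val]
    refine Finset.sum_congr rfl fun i _ => ?_
    rw [Sg.sum_val]
    refine Finset.sum_congr rfl fun l _ => ?_
    rw [← egg i l d z hz]
    rfl
  have eHH : ∀ d z, (S.HH d : E → ℝ) z = H312.T.HH (fun i l => (G.H i l d.1 : E → ℝ) z) := by
    intro d z
    unfold Sg.HH H312.T.HH
    rw [Sg.sum_val]
    refine Finset.sum_congr rfl fun i _ => ?_
    rw [Sg.sum_val]
    rfl
  have elam : ∀ d, ∀ z ∈ S.Ω d, (lamS S (fun d => kap d.1) (fun d => sig d.1) (fun d => Ef d.1)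
      (fun d => om d.1) c θ d : E → ℝ) z = H312.T.lam (fun i l => (G.H i l d.1 : E → ℝ) z)
      (fun i j => (G.M i j d.1 : E → ℝ) z) (H312.T.gam ((kap d.1 : E → ℝ) z)
      ((sig d.1 : E → ℝ) z) (fun k => (G.wy k d.1 : E → ℝ) z)) θ (c * (Ef d.1 : E → ℝ) z ^ 2) := by
    intro d z hz
    unfold H312.T.lam
    rw [← etN, ← etg d z hz, ← eHH, ← eg]
    have e1 : (lamS S (fun d => kap d.1) (fun d => sig d.1) (fun d => Ef d.1)
      (fun d => om d.1) c θ d : E → ℝ) z = (S.tN d : E → ℝ) z - 1 / 4 *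
      ((S.gam (fun d => kap d.1) (fun d => sig d.1) d : E → ℝ) z *
        (c * ((Ef d.1 : E → ℝ) z * (Ef d.1 : E → ℝ) z) + (S.HH d : E → ℝ) z -
          (2 * (1 - θ)) * (S.tgH (fun d => om d.1) d : E → ℝ) z)) := rfl
    rw [e1]
    ring
  have E0 : ∀ d, ∀ z ∈ S.Ω d, c' * S.h d ^ 2 ≤ c * (Ef d.1 : E → ℝ) z := by
    intro d z hz
    have h1 := mul_le_mul_of_nonneg_left (h.c₀E d.1 z hz) h.c0
    have h2 := mul_le_mul_of_nonneg_right c'1 (sq_nonneg (S.h d))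
    refine h2.trans (le_trans (le_of_eq ?_) h1)
    change c * c₀ * G.h d.1 ^ 2 = _
    ring
  have E2 : ∀ d, ∀ z ∈ S.Ω d, c' * S.h d ^ 4 ≤ c * (Ef d.1 : E → ℝ) z ^ 2 := by
    intro d z hz
    have h1 := h.c₀E d.1 z hz
    have h3 : (c₀ * G.h d.1 ^ 2) ^ 2 ≤ (Ef d.1 : E → ℝ) z ^ 2 :=
      pow_le_pow_left₀ (mul_nonneg h.c₀0.le (sq_nonneg _)) h1 2
    have h2 := mul_le_mul_of_nonneg_right c'2 (pow_nonneg (S.hp d).le 4)
    refine h2.trans (le_trans (le_of_eq ?_) (mul_le_mul_of_nonneg_left h3 h.c0))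
    change c * c₀ ^ 2 * G.h d.1 ^ 4 = _
    ring
  have vs : ∀ v : ι → ℝ, 0 ≤ ∑ i, v i ^ 2 := fun v => Finset.sum_nonneg fun i _ => sq_nonneg _
  obtain ⟨T, ⟨C, hC, hT⟩, hle⟩ := Sg.tube (S := S) (b := fun d => d.2.2)
    (kap := fun d => kap d.1) (sig := fun d => sig d.1) (om := fun d => om d.1)
    (lam := lamS S (fun d => kap d.1) (fun d => sig d.1) (fun d => Ef d.1) (fun d => om d.1) c θ)
    (e := fun d => c' * S.h d ^ 2) (c := c') (θ := θ) bk bs (B_lam S bk bs bE bo) bo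
    (fun d z hz => (h.pt d.1 z hz).k0.le) (fun d z hz => (h.pt d.1 z hz).s0.le)
    (fun d z hz => by rw [eg, eL]; exact h.ho1 d.1 z hz)
    (fun d z hz v => by
      have h1 := (h.pt d.1 z hz).hG v
      have h2 := mul_le_mul_of_nonneg_right (E0 d z hz) (vs v)
      exact le_trans (add_le_add le_rfl h2) h1)
    (fun d z hz v => by
      have h1 := (h.pt d.1 z hz).hN v
      rw [elam d z hz]
      refine le_trans (le_of_eq ?_) h1
      exact Finset.sum_congr rfl fun j _ => Finset.sum_congr rfl fun k _ => by rw [eN])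
    c'0 h.θ0 h.θ1
    (fun d z hz v => by
      have h1 := (h.pt d.1 z hz).hg v
      have h2 := mul_le_mul_of_nonneg_right (E0 d z hz) (vs v)
      refine (h2.trans h1).trans (le_of_eq ?_)
      exact Finset.sum_congr rfl fun j _ => Finset.sum_congr rfl fun k _ => by
        rw [egg j k d z hz])
    (fun d z hz => by
      have h1 := (h.pt d.1 z hz).ht
      rw [etg d z hz, eHH, etN, elam d z hz, oi d z hz]
      exact (E2 d z hz).trans h1)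
    (G.qb) (Sg.Q_dn (Sg.Q_dn G.qPb (by norm_num)) (by norm_num))
  obtain ⟨T', ⟨C', hC', hT'⟩, hle'⟩ := G.en_b (μ := μ) (c := c₀) (e := fun d => c' * G.h d ^ 2)
    (fun d => mul_nonneg c'0 (sq_nonneg _)) c'0 (fun d => le_rfl) h.c₀L
  refine ⟨C + C', by positivity, fun d a b => ?_⟩
  have g1 := hle (d, a, b)
  have g2 := hle' (d, a, b)
  have g3 := (abs_le.1 (hT (d, a, b))).2
  have g4 := (abs_le.1 (hT' (d, a, b))).2
  rw [zpow_one] at g3 g4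
  have e1 : (∑ i, ∑ l, ip μ (ml (S.χ 0 (d, a, b) * S.χ 0 (d, a, b) * S.H i l (d, a, b))
      (S.xs i (d, a, b) (S.a (d, a, b)))) (S.xs l (d, a, b) (S.a (d, a, b)))) +
        2 * (∑ i, ∑ j, ip μ (ml (S.χ 0 (d, a, b) * S.χ 0 (d, a, b) * S.M i j (d, a, b))
          (S.xs i (d, a, b) (S.a (d, a, b)))) (S.ys j (d, a, b) b)) +
        (∑ j, ∑ k, ip μ (ml (S.χ 0 (d, a, b) * S.χ 0 (d, a, b) * S.G j k (d, a, b))
          (S.ys j (d, a, b) b)) (S.ys k (d, a, b) b)) -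
        ip μ (ml (S.χ 0 (d, a, b) * S.χ 0 (d, a, b) * S.HH (d, a, b)) (S.a (d, a, b)))
          (S.a (d, a, b)) = G.form μ d a b := rfl
  beta_reduce at g1 g2
  rw [e1] at g1
  change T (d, a, b) ≤ C * G.h d * G.r μ d a b at g3
  change T' (d, a, b) ≤ C' * G.h d * G.r μ d a b at g4
  change θ * c' * G.h d ^ 2 * (∑ i, nm μ (ml (G.χ 0 d) (G.xs i d a))) +
    c' * G.h d ^ 4 * nm μ (ml (G.χ 0 d) a) + c' * G.h d ^ 2 *
      (∑ k, nm μ (ml (G.χ 0 d) (G.ys k d b))) ≤ G.form μ d a b + T (d, a, b) at g1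
  change c' * G.h d ^ 2 * (2 * c₀ * G.h d ^ 4 * nm μ (ml (G.χ 0 d) b)) ≤ c' * G.h d ^ 2 *
    (∑ k, nm μ (ml (G.χ 0 d) (G.ys k d b))) + T' (d, a, b) at g2
  have g5 := G.r_nonneg (μ := μ) d a b
  have g6 : 0 ≤ C' * G.h d * G.r μ d a b := mul_nonneg (mul_nonneg hC' (G.hp d).le) g5
  have e2 : c' * c₀ * G.h d ^ 6 * nm μ (ml (G.χ 0 d) b) =
      1 / 2 * (c' * G.h d ^ 2 * (2 * c₀ * G.h d ^ 4 * nm μ (ml (G.χ 0 d) b))) := by ring
  rw [e2]
  linarith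

end Gm

end Vale.Agent.P088.R2.H820.W
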