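import Vale.Agent.P088.R2.H820.W.Ord

/-!
# Smooth cut-offs of neighbourhoods with uniform bounds
-/

open MeasureTheory Set Metric
open scoped ContDiff Convolution

set_option linter.unusedSectionVars false

noncomputable section

namespace Vale.Agent.P088.R2.H820.W

open Vale.Agent.P088.R2.H464.EP

variable {E : Type} [NormedAddCommGroup E] [NormedSpace ℝ E] [MeasurableSpace E] [BorelSpace E]
  [FiniteDimensional ℝ E] (μ : Measure E) [μ.IsAddHaarMeasure]

/-- The indicator function. -/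
def idc (S : Set E) : E → ℝ := S.indicator fun _ => 1

theorem idc_li {S : Set E} (hS : MeasurableSet S) : LocallyIntegrable (idc S) μ :=
  (locallyIntegrable_const (1 : ℝ)).indicator hS

theorem cv_eq (S : Set E) (φ : E → ℝ) (hS : MeasurableSet S) (z : E) :
    (idc S ⋆[ContinuousLinearMap.mul ℝ ℝ, μ] φ) z = ∫ w in S, φ (z - w) ∂μ := by
  unfold convolution idc
  rw [← integral_indicator hS]
  refine integral_congr_ae (Filter.Eventually.of_forall fun w => ?_)
  by_cases hw : w ∈ S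
  · simp [hw]
  · simp [hw]

/-- The convolution of an indicator function and a test function. -/
def cv (S : Set E) (hS : MeasurableSet S) (φ : TE E) : Sm E :=
  ⟨fun z => ∫ w in S, φ.fn (z - w) ∂μ, by
    have h := φ.cs.contDiff_convolution_right (ContinuousLinearMap.mul ℝ ℝ) (idc_li μ hS) φ.cd
    have e : (idc S ⋆[ContinuousLinearMap.mul ℝ ℝ, μ] φ.fn) =
        fun z => ∫ w in S, φ.fn (z - w) ∂μ := funext fun z => cv_eq μ S φ.fn hS z
    rw [e] at h
    exact h⟩

theorem cv_apply (S : Set E) (hS : MeasurableSet S) (φ : TE E) (z : E) :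
    (cv μ S hS φ : E → ℝ) z = ∫ w in S, φ.fn (z - w) ∂μ := rfl

theorem int_shift (φ : TE E) (z : E) : Integrable (fun w => φ.fn (z - w)) μ :=
  (tint μ φ).comp_sub_left z

theorem ds_cv (S : Set E) (hS : MeasurableSet S) (φ : TE E) (v : E) :
    ds v (cv μ S hS φ) = cv μ S hS (dv v φ) := by
  ext z
  change fderiv ℝ (fun z => ∫ w in S, φ.fn (z - w) ∂μ) z v = ∫ w in S, (dv v φ).fn (z - w) ∂μ
  have e : (idc S ⋆[ContinuousLinearMap.mul ℝ ℝ, μ] φ.fn) =
      fun z => ∫ w in S, φ.fn (z - w) ∂μ := funext fun z => cv_eq μ S φ.fn hS z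
  rw [← e, (φ.cs.hasFDerivAt_convolution_right (ContinuousLinearMap.mul ℝ ℝ) (idc_li μ hS)
    (φ.cd.of_le (by simp)) z).fderiv]
  unfold convolution
  have hi : Integrable (fun t => (ContinuousLinearMap.precompR E (ContinuousLinearMap.mul ℝ ℝ))
      (idc S t) (fderiv ℝ φ.fn (z - t))) μ := by
    have h1 : Continuous (fderiv ℝ φ.fn) := φ.cd.continuous_fderiv (by simp)
    have h2 : HasCompactSupport (fderiv ℝ φ.fn) := φ.cs.fderiv ℝ
    have := h2.convolutionExists_right (ContinuousLinearMap.precompR E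
      (ContinuousLinearMap.mul ℝ ℝ)) (idc_li μ hS) h1 z
    exact this
  rw [ContinuousLinearMap.integral_apply hi, ← integral_indicator hS]
  refine integral_congr_ae (Filter.Eventually.of_forall fun w => ?_)
  by_cases hw : w ∈ S
  · simp [hw, idc, ContinuousLinearMap.precompR]
  · simp [hw, idc, ContinuousLinearMap.precompR]

theorem cv_abs (S : Set E) (hS : MeasurableSet S) (φ : TE E) (z : E) :
    |(cv μ S hS φ : E → ℝ) z| ≤ ∫ w, |φ.fn w| ∂μ := by
  rw [cv_apply]
  have h1 : |∫ w in S, φ.fn (z - w) ∂μ| ≤ ∫ w in S, |φ.fn (z - w)| ∂μ :=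
    abs_integral_le_integral_abs
  refine h1.trans ?_
  have h2 := (int_shift μ φ z).abs
  refine (setIntegral_le_integral h2 (Filter.Eventually.of_forall fun w => abs_nonneg _)).trans ?_
  rw [integral_sub_left_eq_self (fun w => |φ.fn w|) μ z]

variable {D κ : Type} {F : Fa D E κ}

/-- The bounds of the convolutions do not depend on the set. -/
theorem bd_cv {S : D → Set E} (hS : ∀ d, MeasurableSet (S d)) (φ : TE E) :
    Bd F 0 (fun d => cv μ (S d) (hS d) φ) := by
  intro k
  induction k generalizing φ with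
  | zero => exact ⟨∫ w, |φ.fn w| ∂μ, integral_nonneg fun _ => abs_nonneg _, fun d z _ => by
      rw [zpow_zero, mul_one]
      exact cv_abs μ _ _ φ z⟩
  | succ k ih => exact ⟨⟨∫ w, |φ.fn w| ∂μ, integral_nonneg fun _ => abs_nonneg _, fun d z _ => by
      rw [zpow_zero, mul_one]
      exact cv_abs μ _ _ φ z⟩, fun i => by
        simp only [ds_cv]
        exact ih (dv (F.dir i) φ)⟩

/-- A mollifier. -/
structure Mo (μ : Measure E) (r : ℝ) (φ : TE E) : Prop where
  nn : ∀ z, 0 ≤ φ.fn z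
  one : ∫ z, φ.fn z ∂μ = 1
  sp : ∀ z, φ.fn z ≠ 0 → ‖z‖ < r

theorem exists_mo {r : ℝ} (hr : 0 < r) : ∃ φ : TE E, Mo μ r φ := by
  let f : ContDiffBump (0 : E) := ⟨r / 2, r, by positivity, by linarith⟩
  refine ⟨⟨f.normed μ, f.contDiff_normed, f.hasCompactSupport_normed⟩, ?_, ?_, ?_⟩
  · exact fun z => f.nonneg_normed z
  · exact f.integral_normed
  · intro z hz
    have h : z ∈ Function.support (f.normed μ) := hz
    rw [f.support_normed_eq] at h
    simpa using h

variable {μ} {r : ℝ} {φ : TE E}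

theorem Mo.le1 (h : Mo μ r φ) (S : Set E) (hS : MeasurableSet S) (z : E) :
    0 ≤ (cv μ S hS φ : E → ℝ) z ∧ (cv μ S hS φ : E → ℝ) z ≤ 1 := by
  refine ⟨?_, ?_⟩
  · rw [cv_apply]
    exact integral_nonneg fun w => h.nn _
  · have h1 := cv_abs μ S hS φ z
    have h2 : ∫ w, |φ.fn w| ∂μ = 1 := by
      rw [← h.one]
      exact integral_congr_ae (Filter.Eventually.of_forall fun w => abs_of_nonneg (h.nn w))
    rw [h2] at h1
    exact (le_abs_self _).trans h1

theorem Mo.eq1 (h : Mo μ r φ) {S : Set E} (hS : MeasurableSet S) {z : E}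
    (hz : ∀ w, dist z w < r → w ∈ S) : (cv μ S hS φ : E → ℝ) z = 1 := by
  rw [cv_apply, ← h.one, ← integral_indicator hS, ← integral_sub_left_eq_self φ.fn μ z]
  refine integral_congr_ae (Filter.Eventually.of_forall fun w => ?_)
  by_cases hw : w ∈ S
  · simp [hw]
  · simp only [indicator_of_notMem hw]
    by_contra hc
    have h1 := h.sp (z - w) (Ne.symm hc)
    rw [← dist_eq_norm] at h1
    exact hw (hz w h1)

theorem Mo.ne0 (h : Mo μ r φ) {S : Set E} (hS : MeasurableSet S) {z : E}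
    (hz : (cv μ S hS φ : E → ℝ) z ≠ 0) : ∃ w ∈ S, dist z w < r := by
  by_contra hc
  push Not at hc
  apply hz
  rw [cv_apply]
  have h0 : ∀ w ∈ S, φ.fn (z - w) = 0 := fun w hw => by
    by_contra h1
    have h2 := h.sp _ h1
    rw [← dist_eq_norm] at h2
    exact absurd h2 (not_lt.2 (hc w hw))
  rw [setIntegral_congr_fun hS h0]
  simp

theorem mth (s : ℝ) (S : Set E) : MeasurableSet (thickening s S) := isOpen_thickening.measurableSet

/-- The next cut-off. -/
def nx (μ : Measure E) [μ.IsAddHaarMeasure] (φ : TE E) (s : ℝ) (S : Set E) : Sm E :=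
  cv μ (thickening s S) (mth s S) φ

theorem nx_one (h : Mo μ r φ) {s t : ℝ} (hs : t + r ≤ s) {S : Set E} {z : E}
    (hz : z ∈ thickening t S) : (nx μ φ s S : E → ℝ) z = 1 := by
  refine h.eq1 _ fun w hw => ?_
  rw [mem_thickening_iff] at hz ⊢
  obtain ⟨x, hx, h1⟩ := hz
  refine ⟨x, hx, ?_⟩
  calc dist w x ≤ dist w z + dist z x := dist_triangle _ _ _
    _ < r + t := by rw [dist_comm w z]; linarith
    _ ≤ s := by linarith

theorem nx_ne (h : Mo μ r φ) {s t : ℝ} (hs : s + r ≤ t) {S : Set E} {z : E}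
    (hz : (nx μ φ s S : E → ℝ) z ≠ 0) : z ∈ thickening t S := by
  obtain ⟨w, hw, h1⟩ := h.ne0 _ hz
  rw [mem_thickening_iff] at hw ⊢
  obtain ⟨x, hx, h2⟩ := hw
  refine ⟨x, hx, ?_⟩
  calc dist z x ≤ dist z w + dist w x := dist_triangle _ _ _
    _ < t := by linarith

/-- The family of nested cut-offs. -/
def ch (μ : Measure E) [μ.IsAddHaarMeasure] (φ : TE E) (r : ℝ) (χ : Sm E) : ℕ → Sm E
  | 0 => χ
  | j + 1 => nx μ φ ((3 * j + 2) * r) (Function.support (χ : E → ℝ))

theorem ch_su (h : Mo μ r φ) (hr : 0 < r) (χ : Sm E) (j : ℕ) {z : E}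
    (hz : (ch μ φ r χ j : E → ℝ) z ≠ 0) : (ch μ φ r χ (j + 1) : E → ℝ) z = 1 := by
  cases j with
  | zero =>
    refine nx_one h (t := r) (by push_cast; linarith) ?_
    exact self_subset_thickening hr _ hz
  | succ j =>
    have h1 := nx_ne h (t := (3 * j + 3) * r) (by linarith) hz
    refine nx_one h (t := (3 * j + 3) * r) (by push_cast; linarith) h1

theorem ch_ne (h : Mo μ r φ) (χ : Sm E) (j : ℕ) {z : E}
    (hz : (ch μ φ r χ (j + 1) : E → ℝ) z ≠ 0) :
    z ∈ thickening ((3 * j + 3) * r) (Function.support (χ : E → ℝ)) :=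
  nx_ne h (by linarith) hz

theorem ch_01 (h : Mo μ r φ) (χ : Sm E) (j : ℕ) (z : E) :
    |(ch μ φ r χ (j + 1) : E → ℝ) z| ≤ 1 := by
  have := h.le1 (thickening ((3 * j + 2) * r) (Function.support (χ : E → ℝ))) (mth _ _) z
  have h1 : 0 ≤ (ch μ φ r χ (j + 1) : E → ℝ) z := this.1
  exact abs_le.2 ⟨by linarith, this.2⟩

end Vale.Agent.P088.R2.H820.W
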