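import Vale.Agent.P088.R2.H820.T.Wd4
import Vale.Agent.P088.R2.H820.T.Nbd

/-!
# The weight `Φ(l(x) + l(y)) + e^(l(x) + l(y)) S(|x - y|²)` in both orientations
-/

open MeasureTheory Set
open scoped ContDiff

set_option linter.unusedSectionVars false
set_option linter.dupNamespace false

noncomputable section

namespace Vale.Agent.P088.R2.H820.W

open Vale.Agent.P088.R2.H464.EP

/-! ## Pull-backs by linear maps -/

section lp

variable {E F : Type} [NormedAddCommGroup E] [NormedSpace ℝ E] [NormedAddCommGroup F]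
  [NormedSpace ℝ F]

/-- `f ∘ π`. -/
def lp (f : Sm F) (π : E →L[ℝ] F) : Sm E :=
  ⟨fun z => (f : F → ℝ) (π z), (scd f).comp π.contDiff⟩

@[simp] theorem lp_apply (f : Sm F) (π : E →L[ℝ] F) (z : E) :
    (lp f π : E → ℝ) z = (f : F → ℝ) (π z) := rfl

theorem ds_lp (v : E) (f : Sm F) (π : E →L[ℝ] F) : ds v (lp f π) = lp (ds (π v) f) π := by
  ext z
  change fderiv ℝ (fun z => (f : F → ℝ) (π z)) z v = fderiv ℝ (f : F → ℝ) (π z) (π v)
  have h := ((sdf f (π z)).hasFDerivAt.comp z π.hasFDerivAt).fderiv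
  have e : fderiv ℝ (fun z => (f : F → ℝ) (π z)) z = (fderiv ℝ (f : F → ℝ) (π z)).comp π := h
  rw [e]
  rfl

theorem ds_zero (f : Sm F) : ds (0 : F) f = 0 := by
  ext z
  change fderiv ℝ (f : F → ℝ) z 0 = 0
  rw [map_zero]

theorem lp_zero (π : E →L[ℝ] F) : lp (0 : Sm F) π = 0 := rfl

end lp

section co

variable {ι : Type} [Fintype ι] [DecidableEq ι]

/-- The coordinates. -/
def co (i : ι) : Sm (ι → ℝ) := ⟨fun x => x i, (contDiff_apply ℝ ℝ i : ContDiff ℝ ∞ _)⟩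

theorem ds_co (v : ι → ℝ) (i : ι) : ds v (co i) = v i • (1 : Sm (ι → ℝ)) := by
  ext x
  change fderiv ℝ (fun x : ι → ℝ => x i) x v = v i * 1
  have h : HasFDerivAt (fun x : ι → ℝ => x i) (ContinuousLinearMap.proj i) x :=
    (ContinuousLinearMap.proj (R := ℝ) (φ := fun _ : ι => ℝ) i).hasFDerivAt
  rw [h.fderiv, mul_one]
  rfl

end co

/-- The orientation: `dir (inl i)` moves `π`, `dir (inr j)` moves `π'`. -/
structure Ori (E ι : Type) [NormedAddCommGroup E] [NormedSpace ℝ E] [Fintype ι]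
    [DecidableEq ι] where
  dir : ι ⊕ ι → E
  π : E →L[ℝ] (ι → ℝ)
  π' : E →L[ℝ] (ι → ℝ)
  h1 : ∀ i, π (dir (Sum.inl i)) = Pi.single i 1
  h2 : ∀ i, π (dir (Sum.inr i)) = 0
  h3 : ∀ i, π' (dir (Sum.inl i)) = 0
  h4 : ∀ i, π' (dir (Sum.inr i)) = Pi.single i 1

namespace Ori

variable {E ι : Type} [NormedAddCommGroup E] [NormedSpace ℝ E] [Fintype ι] [DecidableEq ι]
  (o : Ori E ι)

/-- `l(x) + l(y)`. -/
def u (l : Sm (ι → ℝ)) : Sm E := lp l o.π + lp l o.π'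

/-- `x_i - y_i`. -/
def q (i : ι) : Sm E := lp (co i) o.π - lp (co i) o.π'

/-- `|x - y|²`. -/
def τ : Sm E := ∑ i, o.q i * o.q i

/-- The partial derivatives. -/
def pds (i : ι) (l : Sm (ι → ℝ)) : Sm (ι → ℝ) := ds (Pi.single i 1) l

theorem ux (i : ι) (l : Sm (ι → ℝ)) : ds (o.dir (Sum.inl i)) (o.u l) = lp (pds i l) o.π := by
  unfold u
  rw [map_add, ds_lp, ds_lp, o.h1, o.h3, ds_zero, lp_zero, add_zero]
  rfl

theorem uy (i : ι) (l : Sm (ι → ℝ)) : ds (o.dir (Sum.inr i)) (o.u l) = lp (pds i l) o.π' := by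
  unfold u
  rw [map_add, ds_lp, ds_lp, o.h2, o.h4, ds_zero, lp_zero, zero_add]
  rfl

theorem uxx (i j : ι) (l : Sm (ι → ℝ)) : ds (o.dir (Sum.inl i)) (ds (o.dir (Sum.inl j)) (o.u l)) =
    lp (pds i (pds j l)) o.π := by
  rw [ux, ds_lp, o.h1]
  rfl

theorem uyy (i j : ι) (l : Sm (ι → ℝ)) : ds (o.dir (Sum.inr i)) (ds (o.dir (Sum.inr j)) (o.u l)) =
    lp (pds i (pds j l)) o.π' := by
  rw [uy, ds_lp, o.h4]
  rfl

theorem uxy (i j : ι) (l : Sm (ι → ℝ)) :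
    ds (o.dir (Sum.inl i)) (ds (o.dir (Sum.inr j)) (o.u l)) = 0 := by
  rw [uy, ds_lp, o.h3, ds_zero, lp_zero]

theorem uyx (i j : ι) (l : Sm (ι → ℝ)) :
    ds (o.dir (Sum.inr i)) (ds (o.dir (Sum.inl j)) (o.u l)) = 0 := by
  rw [ux, ds_lp, o.h2, ds_zero, lp_zero]

theorem qx (i l : ι) : ds (o.dir (Sum.inl i)) (o.q l) = if i = l then 1 else 0 := by
  unfold q
  rw [map_sub, ds_lp, ds_lp, o.h1, o.h3, ds_zero, lp_zero, sub_zero, ds_co]
  ext z
  change (Pi.single i 1 : ι → ℝ) l * 1 = ((if i = l then 1 else 0 : Sm E) : E → ℝ) z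
  rw [mul_one]
  split_ifs with h
  · rw [h, Pi.single_eq_same]; rfl
  · rw [Pi.single_eq_of_ne (Ne.symm h)]; rfl

theorem qy (i l : ι) : ds (o.dir (Sum.inr i)) (o.q l) = if i = l then -1 else 0 := by
  unfold q
  rw [map_sub, ds_lp, ds_lp, o.h2, o.h4, ds_zero, lp_zero, zero_sub, ds_co]
  ext z
  change -((Pi.single i 1 : ι → ℝ) l * 1) = ((if i = l then -1 else 0 : Sm E) : E → ℝ) z
  rw [mul_one]
  split_ifs with h
  · rw [h, Pi.single_eq_same]; rfl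
  · rw [Pi.single_eq_of_ne (Ne.symm h), neg_zero]; rfl

theorem τx (i : ι) : ds (o.dir (Sum.inl i)) o.τ = (2 : ℝ) • o.q i := by
  unfold τ
  rw [map_sum]
  have h : ∀ l, ds (o.dir (Sum.inl i)) (o.q l * o.q l) = if i = l then (2 : ℝ) • o.q l else 0 := by
    intro l
    rw [ds_mul, qx]
    split_ifs
    · rw [two_smul]; ring
    · ring
  simp only [h]
  rw [Finset.sum_ite_eq]
  simp

theorem τy (i : ι) : ds (o.dir (Sum.inr i)) o.τ = (-2 : ℝ) • o.q i := by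
  unfold τ
  rw [map_sum]
  have h : ∀ l, ds (o.dir (Sum.inr i)) (o.q l * o.q l) = if i = l then (-2 : ℝ) • o.q l else 0 := by
    intro l
    rw [ds_mul, qy]
    split_ifs
    · rw [neg_smul, two_smul]; ring
    · ring
  simp only [h]
  rw [Finset.sum_ite_eq]
  simp

theorem τ_val (z : E) : (o.τ : E → ℝ) z = ∑ i, (o.q i : E → ℝ) z ^ 2 := by
  unfold τ
  rw [vsum]
  refine Finset.sum_congr rfl fun i _ => ?_
  change (o.q i : E → ℝ) z * (o.q i : E → ℝ) z = _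
  ring

end Ori

end Vale.Agent.P088.R2.H820.W
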