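import Vale.Agent.P088.R2.H820.T.Cmp
import Vale.Agent.P088.R2.H820.T.Gm

/-!
# The weight `Φ(u) + e^u S(τ)`: derivatives and orders of magnitude
-/

open MeasureTheory Set
open scoped ContDiff

set_option linter.unusedSectionVars false
set_option linter.dupNamespace false

noncomputable section

namespace Vale.Agent.P088.R2.H820.W

open Vale.Agent.P088.R2.H464.EP

/-- The exponential function. -/
def expS : Sm ℝ := ⟨Real.exp, (Real.contDiff_exp : ContDiff ℝ ∞ Real.exp)⟩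

/-- `exp (-t)`. -/
def expN : Sm ℝ := ⟨fun t => Real.exp (-t),
  (Real.contDiff_exp.comp contDiff_neg : ContDiff ℝ ∞ fun t : ℝ => Real.exp (-t))⟩

theorem d1_exp : d1 expS = expS := by
  ext t
  rw [d1_apply]
  change deriv Real.exp t = Real.exp t
  rw [Real.deriv_exp]

theorem d1_expN : d1 expN = -expN := by
  ext t
  rw [d1_apply]
  change deriv (fun t => Real.exp (-t)) t = -Real.exp (-t)
  have h : HasDerivAt (fun t : ℝ => Real.exp (-t)) (Real.exp (-t) * (-1)) t :=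
    (hasDerivAt_neg t).exp
  rw [h.deriv]; ring

theorem d1_exp_iter (j : ℕ) : d1^[j] expS = expS := by
  induction j with
  | zero => rfl
  | succ j ih => rw [Function.iterate_succ_apply, d1_exp, ih]

theorem d1_expN_iter (j : ℕ) : d1^[j] expN = expN ∨ d1^[j] expN = -expN := by
  induction j with
  | zero => exact Or.inl rfl
  | succ j ih =>
    rw [Function.iterate_succ_apply']
    rcases ih with h | h
    · right; rw [h, d1_expN]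
    · left; rw [h, map_neg, d1_expN, neg_neg]

/-- The family of the weights `Φ(u) + e^u S(τ)`. -/
structure Wd (D E ι : Type) [NormedAddCommGroup E] [NormedSpace ℝ E] [Fintype ι] [DecidableEq ι]
    (S : Sm ℝ) (a b c₁ : ℝ) extends Fa D E (ι ⊕ ι) where
  u : D → Sm E
  τ : D → Sm E
  q : ι → D → Sm E
  Φ : D → Sm ℝ
  C₁ : ℝ
  a0 : 0 < a
  c10 : 0 < c₁
  dτx : ∀ i d, ds (dir (Sum.inl i)) (τ d) = (2 : ℝ) • q i d
  dτy : ∀ j d, ds (dir (Sum.inr j)) (τ d) = (-2 : ℝ) • q j d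
  qx : ∀ i l d, ds (dir (Sum.inl i)) (q l d) = if i = l then 1 else 0
  qy : ∀ j l d, ds (dir (Sum.inr j)) (q l d) = if j = l then -1 else 0
  uxy : ∀ i j d, ds (dir (Sum.inl i)) (ds (dir (Sum.inr j)) (u d)) = 0
  τq : ∀ d z, (τ d : E → ℝ) z = ∑ i, (q i d : E → ℝ) z ^ 2
  τab : ∀ d, ∀ z ∈ Ω d, (τ d : E → ℝ) z ∈ Icc a b
  bu : ∀ k, Bd toFa 0 (fun d => ds (dir k) (u d))
  bΦ : BF toFa 2 (fun d => d1 (Φ d)) u
  E1 : ∀ d, ∀ z ∈ Ω d, c₁ * h d ^ 2 ≤ Real.exp ((u d : E → ℝ) z)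
  E2 : ∀ d, ∀ z ∈ Ω d, Real.exp ((u d : E → ℝ) z) ≤ C₁ * h d ^ 2

namespace Wd

variable {D E ι : Type} [NormedAddCommGroup E] [NormedSpace ℝ E] [Fintype ι] [DecidableEq ι]
  {S : Sm ℝ} {a b c₁ : ℝ} (G : Wd D E ι S a b c₁)

/-- `e^u`. -/
def e (d : D) : Sm E := cm expS (G.u d)
/-- The weight. -/
def W (d : D) : Sm E := cm (G.Φ d) (G.u d) + G.e d * cm S (G.τ d)
/-- `Φ'(u) + e^u S`. -/
def A (d : D) : Sm E := cm (d1 (G.Φ d)) (G.u d) + G.e d * cm S (G.τ d)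
/-- `Φ''(u) + e^u S`. -/
def AA (d : D) : Sm E := cm (d1 (d1 (G.Φ d))) (G.u d) + G.e d * cm S (G.τ d)
/-- `2 e^u S'`. -/
def B (d : D) : Sm E := (2 : ℝ) • (G.e d * cm (d1 S) (G.τ d))
/-- `4 e^u S''`. -/
def Cc (d : D) : Sm E := (4 : ℝ) • (G.e d * cm (d1 (d1 S)) (G.τ d))
/-- `u_k`. -/
def p (k : ι ⊕ ι) (d : D) : Sm E := ds (G.dir k) (G.u d)

theorem ds_e (v : E) (d : D) : ds v (G.e d) = G.e d * ds v (G.u d) := by
  unfold e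
  rw [ds_cm, d1_exp]

theorem W_x (i : ι) (d : D) : ds (G.dir (Sum.inl i)) (G.W d) =
    G.A d * G.p (Sum.inl i) d + G.B d * G.q i d := by
  unfold W
  rw [map_add, ds_cm, ds_mul, ds_e, ds_cm, G.dτx]
  ext z
  change (d1 (G.Φ d) : ℝ → ℝ) ((G.u d : E → ℝ) z) * (ds (G.dir (Sum.inl i)) (G.u d) : E → ℝ) z +
    ((G.e d : E → ℝ) z * (ds (G.dir (Sum.inl i)) (G.u d) : E → ℝ) z *
      (S : ℝ → ℝ) ((G.τ d : E → ℝ) z) + (G.e d : E → ℝ) z *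
      ((d1 S : ℝ → ℝ) ((G.τ d : E → ℝ) z) * (2 * (G.q i d : E → ℝ) z))) =
    ((d1 (G.Φ d) : ℝ → ℝ) ((G.u d : E → ℝ) z) + (G.e d : E → ℝ) z *
      (S : ℝ → ℝ) ((G.τ d : E → ℝ) z)) * (ds (G.dir (Sum.inl i)) (G.u d) : E → ℝ) z +
    2 * ((G.e d : E → ℝ) z * (d1 S : ℝ → ℝ) ((G.τ d : E → ℝ) z)) * (G.q i d : E → ℝ) z
  ring

theorem W_y (j : ι) (d : D) : ds (G.dir (Sum.inr j)) (G.W d) =
    G.A d * G.p (Sum.inr j) d - G.B d * G.q j d := by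
  unfold W
  rw [map_add, ds_cm, ds_mul, ds_e, ds_cm, G.dτy]
  ext z
  change (d1 (G.Φ d) : ℝ → ℝ) ((G.u d : E → ℝ) z) * (ds (G.dir (Sum.inr j)) (G.u d) : E → ℝ) z +
    ((G.e d : E → ℝ) z * (ds (G.dir (Sum.inr j)) (G.u d) : E → ℝ) z *
      (S : ℝ → ℝ) ((G.τ d : E → ℝ) z) + (G.e d : E → ℝ) z *
      ((d1 S : ℝ → ℝ) ((G.τ d : E → ℝ) z) * (-2 * (G.q j d : E → ℝ) z))) =
    ((d1 (G.Φ d) : ℝ → ℝ) ((G.u d : E → ℝ) z) + (G.e d : E → ℝ) z *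
      (S : ℝ → ℝ) ((G.τ d : E → ℝ) z)) * (ds (G.dir (Sum.inr j)) (G.u d) : E → ℝ) z -
    2 * ((G.e d : E → ℝ) z * (d1 S : ℝ → ℝ) ((G.τ d : E → ℝ) z)) * (G.q j d : E → ℝ) z
  ring

/-- The derivative of `F(u) + e^u S`. -/
theorem dA_x (F : Sm ℝ) (i : ι) (d : D) : ds (G.dir (Sum.inl i))
    (cm F (G.u d) + G.e d * cm S (G.τ d)) =
    (cm (d1 F) (G.u d) + G.e d * cm S (G.τ d)) * G.p (Sum.inl i) d + G.B d * G.q i d := by
  rw [map_add, ds_cm, ds_mul, ds_e, ds_cm, G.dτx]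
  ext z
  change (d1 F : ℝ → ℝ) ((G.u d : E → ℝ) z) * (ds (G.dir (Sum.inl i)) (G.u d) : E → ℝ) z +
    ((G.e d : E → ℝ) z * (ds (G.dir (Sum.inl i)) (G.u d) : E → ℝ) z *
      (S : ℝ → ℝ) ((G.τ d : E → ℝ) z) + (G.e d : E → ℝ) z *
      ((d1 S : ℝ → ℝ) ((G.τ d : E → ℝ) z) * (2 * (G.q i d : E → ℝ) z))) =
    ((d1 F : ℝ → ℝ) ((G.u d : E → ℝ) z) + (G.e d : E → ℝ) z *
      (S : ℝ → ℝ) ((G.τ d : E → ℝ) z)) * (ds (G.dir (Sum.inl i)) (G.u d) : E → ℝ) z +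
    2 * ((G.e d : E → ℝ) z * (d1 S : ℝ → ℝ) ((G.τ d : E → ℝ) z)) * (G.q i d : E → ℝ) z
  ring

theorem dA_y (F : Sm ℝ) (j : ι) (d : D) : ds (G.dir (Sum.inr j))
    (cm F (G.u d) + G.e d * cm S (G.τ d)) =
    (cm (d1 F) (G.u d) + G.e d * cm S (G.τ d)) * G.p (Sum.inr j) d - G.B d * G.q j d := by
  rw [map_add, ds_cm, ds_mul, ds_e, ds_cm, G.dτy]
  ext z
  change (d1 F : ℝ → ℝ) ((G.u d : E → ℝ) z) * (ds (G.dir (Sum.inr j)) (G.u d) : E → ℝ) z +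
    ((G.e d : E → ℝ) z * (ds (G.dir (Sum.inr j)) (G.u d) : E → ℝ) z *
      (S : ℝ → ℝ) ((G.τ d : E → ℝ) z) + (G.e d : E → ℝ) z *
      ((d1 S : ℝ → ℝ) ((G.τ d : E → ℝ) z) * (-2 * (G.q j d : E → ℝ) z))) =
    ((d1 F : ℝ → ℝ) ((G.u d : E → ℝ) z) + (G.e d : E → ℝ) z *
      (S : ℝ → ℝ) ((G.τ d : E → ℝ) z)) * (ds (G.dir (Sum.inr j)) (G.u d) : E → ℝ) z -
    2 * ((G.e d : E → ℝ) z * (d1 S : ℝ → ℝ) ((G.τ d : E → ℝ) z)) * (G.q j d : E → ℝ) z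
  ring

theorem dB_x (i : ι) (d : D) : ds (G.dir (Sum.inl i)) (G.B d) =
    G.B d * G.p (Sum.inl i) d + G.Cc d * G.q i d := by
  unfold B Cc
  rw [map_smul, ds_mul, ds_e, ds_cm, G.dτx]
  ext z
  change 2 * ((G.e d : E → ℝ) z * (ds (G.dir (Sum.inl i)) (G.u d) : E → ℝ) z *
      (d1 S : ℝ → ℝ) ((G.τ d : E → ℝ) z) + (G.e d : E → ℝ) z *
      ((d1 (d1 S) : ℝ → ℝ) ((G.τ d : E → ℝ) z) * (2 * (G.q i d : E → ℝ) z))) =
    2 * ((G.e d : E → ℝ) z * (d1 S : ℝ → ℝ) ((G.τ d : E → ℝ) z)) *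
      (ds (G.dir (Sum.inl i)) (G.u d) : E → ℝ) z +
    4 * ((G.e d : E → ℝ) z * (d1 (d1 S) : ℝ → ℝ) ((G.τ d : E → ℝ) z)) * (G.q i d : E → ℝ) z
  ring

theorem dB_y (j : ι) (d : D) : ds (G.dir (Sum.inr j)) (G.B d) =
    G.B d * G.p (Sum.inr j) d - G.Cc d * G.q j d := by
  unfold B Cc
  rw [map_smul, ds_mul, ds_e, ds_cm, G.dτy]
  ext z
  change 2 * ((G.e d : E → ℝ) z * (ds (G.dir (Sum.inr j)) (G.u d) : E → ℝ) z *
      (d1 S : ℝ → ℝ) ((G.τ d : E → ℝ) z) + (G.e d : E → ℝ) z *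
      ((d1 (d1 S) : ℝ → ℝ) ((G.τ d : E → ℝ) z) * (-2 * (G.q j d : E → ℝ) z))) =
    2 * ((G.e d : E → ℝ) z * (d1 S : ℝ → ℝ) ((G.τ d : E → ℝ) z)) *
      (ds (G.dir (Sum.inr j)) (G.u d) : E → ℝ) z -
    4 * ((G.e d : E → ℝ) z * (d1 (d1 S) : ℝ → ℝ) ((G.τ d : E → ℝ) z)) * (G.q j d : E → ℝ) z
  ring

/-- `W_xx`. -/
theorem W_xx (i l : ι) (d : D) (z : E) : (ck G.dir (G.W d) (Sum.inl i) (Sum.inl l) : E → ℝ) z =
    ((G.AA d : E → ℝ) z * (G.p (Sum.inl i) d : E → ℝ) z + (G.B d : E → ℝ) z *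
      (G.q i d : E → ℝ) z) * (G.p (Sum.inl l) d : E → ℝ) z +
    (G.A d : E → ℝ) z * (ds (G.dir (Sum.inl i)) (G.p (Sum.inl l) d) : E → ℝ) z +
    ((G.B d : E → ℝ) z * (G.p (Sum.inl i) d : E → ℝ) z + (G.Cc d : E → ℝ) z *
      (G.q i d : E → ℝ) z) * (G.q l d : E → ℝ) z +
    (G.B d : E → ℝ) z * (if i = l then 1 else 0) := by
  unfold ck
  rw [G.W_x, map_add, ds_mul, ds_mul, G.dB_x, G.qx]
  have e1 : ds (G.dir (Sum.inl i)) (G.A d) =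
      G.AA d * G.p (Sum.inl i) d + G.B d * G.q i d := G.dA_x (d1 (G.Φ d)) i d
  rw [e1]
  have e2 : ((if i = l then 1 else 0 : Sm E) : E → ℝ) z = if i = l then 1 else 0 := by
    split_ifs <;> rfl
  rw [← e2]
  change (((G.AA d : E → ℝ) z * (G.p (Sum.inl i) d : E → ℝ) z + (G.B d : E → ℝ) z *
      (G.q i d : E → ℝ) z) * (G.p (Sum.inl l) d : E → ℝ) z +
    (G.A d : E → ℝ) z * (ds (G.dir (Sum.inl i)) (G.p (Sum.inl l) d) : E → ℝ) z) +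
    (((G.B d : E → ℝ) z * (G.p (Sum.inl i) d : E → ℝ) z + (G.Cc d : E → ℝ) z *
      (G.q i d : E → ℝ) z) * (G.q l d : E → ℝ) z +
    (G.B d : E → ℝ) z * ((if i = l then 1 else 0 : Sm E) : E → ℝ) z) = _
  ring

/-- `W_xy`. -/
theorem W_xy (i l : ι) (d : D) (z : E) : (ck G.dir (G.W d) (Sum.inl i) (Sum.inr l) : E → ℝ) z =
    ((G.AA d : E → ℝ) z * (G.p (Sum.inl i) d : E → ℝ) z + (G.B d : E → ℝ) z *
      (G.q i d : E → ℝ) z) * (G.p (Sum.inr l) d : E → ℝ) z -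
    ((G.B d : E → ℝ) z * (G.p (Sum.inl i) d : E → ℝ) z + (G.Cc d : E → ℝ) z *
      (G.q i d : E → ℝ) z) * (G.q l d : E → ℝ) z -
    (G.B d : E → ℝ) z * (if i = l then 1 else 0) := by
  unfold ck
  rw [G.W_y, map_sub, ds_mul, ds_mul, G.dB_x, G.qx]
  have e1 : ds (G.dir (Sum.inl i)) (G.A d) =
      G.AA d * G.p (Sum.inl i) d + G.B d * G.q i d := G.dA_x (d1 (G.Φ d)) i d
  have e3 : ds (G.dir (Sum.inl i)) (G.p (Sum.inr l) d) = 0 := G.uxy i l d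
  rw [e1, e3]
  have e2 : ((if i = l then 1 else 0 : Sm E) : E → ℝ) z = if i = l then 1 else 0 := by
    split_ifs <;> rfl
  rw [← e2]
  change (((G.AA d : E → ℝ) z * (G.p (Sum.inl i) d : E → ℝ) z + (G.B d : E → ℝ) z *
      (G.q i d : E → ℝ) z) * (G.p (Sum.inr l) d : E → ℝ) z +
    (G.A d : E → ℝ) z * 0) -
    (((G.B d : E → ℝ) z * (G.p (Sum.inl i) d : E → ℝ) z + (G.Cc d : E → ℝ) z *
      (G.q i d : E → ℝ) z) * (G.q l d : E → ℝ) z +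
    (G.B d : E → ℝ) z * ((if i = l then 1 else 0 : Sm E) : E → ℝ) z) = _
  ring

/-- `W_yy`. -/
theorem W_yy (i l : ι) (d : D) (z : E) : (ck G.dir (G.W d) (Sum.inr i) (Sum.inr l) : E → ℝ) z =
    ((G.AA d : E → ℝ) z * (G.p (Sum.inr i) d : E → ℝ) z - (G.B d : E → ℝ) z *
      (G.q i d : E → ℝ) z) * (G.p (Sum.inr l) d : E → ℝ) z +
    (G.A d : E → ℝ) z * (ds (G.dir (Sum.inr i)) (G.p (Sum.inr l) d) : E → ℝ) z -
    ((G.B d : E → ℝ) z * (G.p (Sum.inr i) d : E → ℝ) z - (G.Cc d : E → ℝ) z *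
      (G.q i d : E → ℝ) z) * (G.q l d : E → ℝ) z +
    (G.B d : E → ℝ) z * (if i = l then 1 else 0) := by
  unfold ck
  rw [G.W_y, map_sub, ds_mul, ds_mul, G.dB_y, G.qy]
  have e1 : ds (G.dir (Sum.inr i)) (G.A d) =
      G.AA d * G.p (Sum.inr i) d - G.B d * G.q i d := G.dA_y (d1 (G.Φ d)) i d
  rw [e1]
  have e2 : ((if i = l then -1 else 0 : Sm E) : E → ℝ) z = -(if i = l then 1 else 0 : ℝ) := by
    split_ifs
    · rfl
    · change (0 : ℝ) = -0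
      rw [neg_zero]
  have e4 : (if i = l then 1 else 0 : ℝ) = -((if i = l then -1 else 0 : Sm E) : E → ℝ) z := by
    rw [e2, neg_neg]
  rw [e4]
  change (((G.AA d : E → ℝ) z * (G.p (Sum.inr i) d : E → ℝ) z - (G.B d : E → ℝ) z *
      (G.q i d : E → ℝ) z) * (G.p (Sum.inr l) d : E → ℝ) z +
    (G.A d : E → ℝ) z * (ds (G.dir (Sum.inr i)) (G.p (Sum.inr l) d) : E → ℝ) z) -
    (((G.B d : E → ℝ) z * (G.p (Sum.inr i) d : E → ℝ) z - (G.Cc d : E → ℝ) z *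
      (G.q i d : E → ℝ) z) * (G.q l d : E → ℝ) z +
    (G.B d : E → ℝ) z * ((if i = l then -1 else 0 : Sm E) : E → ℝ) z) = _
  ring

end Wd

end Vale.Agent.P088.R2.H820.W
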