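import Vale.Agent.P088.R2.H820.T.Wd

/-!
# The weight `Φ(u) + e^u S(τ)`: orders of magnitude
-/

open MeasureTheory Set
open scoped ContDiff

set_option linter.unusedSectionVars false
set_option linter.dupNamespace false

noncomputable section

namespace Vale.Agent.P088.R2.H820.W

open Vale.Agent.P088.R2.H464.EP

/-! ## Functions of one variable -/

theorem ext_smooth {a : ℝ} (ha : 0 < a) {f : ℝ → ℝ} (hf : ∀ t, 0 < t → ContDiffAt ℝ ∞ f t) :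
    ContDiff ℝ ∞ fun t => Real.smoothTransition (2 * t / a - 1) * f t := by
  rw [contDiff_iff_contDiffAt]
  intro t
  by_cases ht : t < a / 2
  · have h1 : (fun t => Real.smoothTransition (2 * t / a - 1) * f t) =ᶠ[nhds t] fun _ => 0 := by
      filter_upwards [(isOpen_Iio (a := a / 2)).mem_nhds ht] with x hx
      have h2 : 2 * x / a - 1 ≤ 0 := by
        have : 2 * x / a ≤ 1 := by
          rw [div_le_one ha]
          have : x < a / 2 := hx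
          linarith
        linarith
      rw [Real.smoothTransition.zero_of_nonpos h2, zero_mul]
    exact contDiffAt_const.congr_of_eventuallyEq h1
  · have h0 : 0 < t := by
      have := not_lt.1 ht
      linarith [half_pos ha]
    refine ContDiffAt.mul ?_ (hf t h0)
    have h1 : ContDiff ℝ ∞ fun t : ℝ => 2 * t / a - 1 := by fun_prop
    exact (Real.smoothTransition.contDiff.comp h1).contDiffAt

/-- Extension of a function from `[a, ∞)`. -/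
def exS (a : ℝ) (ha : 0 < a) (f : ℝ → ℝ) (hf : ∀ t, 0 < t → ContDiffAt ℝ ∞ f t) : Sm ℝ :=
  ⟨fun t => Real.smoothTransition (2 * t / a - 1) * f t, ext_smooth ha hf⟩

theorem exS_eq {a : ℝ} (ha : 0 < a) {f : ℝ → ℝ} (hf : ∀ t, 0 < t → ContDiffAt ℝ ∞ f t) {t : ℝ}
    (ht : a ≤ t) : (exS a ha f hf : ℝ → ℝ) t = f t := by
  change Real.smoothTransition (2 * t / a - 1) * f t = f t
  have h2 : 1 ≤ 2 * t / a - 1 := by
    have : 2 ≤ 2 * t / a := by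
      rw [le_div_iff₀ ha]; linarith
    linarith
  rw [Real.smoothTransition.one_of_one_le h2, one_mul]

/-- `√t` for `t ≥ a`. -/
def sqS (a : ℝ) (ha : 0 < a) : Sm ℝ := exS a ha Real.sqrt fun _ ht => Real.contDiffAt_sqrt ht.ne'

/-- `1 / t` for `t ≥ a`. -/
def invS (a : ℝ) (ha : 0 < a) : Sm ℝ := exS a ha (fun t => t⁻¹) fun _ ht => contDiffAt_inv ℝ ht.ne'

theorem sqS_eq {a : ℝ} (ha : 0 < a) {t : ℝ} (ht : a ≤ t) : (sqS a ha : ℝ → ℝ) t = √t :=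
  exS_eq ha _ ht

theorem invS_eq {a : ℝ} (ha : 0 < a) {t : ℝ} (ht : a ≤ t) : (invS a ha : ℝ → ℝ) t = t⁻¹ :=
  exS_eq ha (fun _ ht => contDiffAt_inv ℝ ht.ne') ht

/-- The identity. -/
def idS : Sm ℝ := ⟨fun t => t, (contDiff_id : ContDiff ℝ ∞ fun t : ℝ => t)⟩

namespace Wd

variable {D E ι : Type} [NormedAddCommGroup E] [NormedSpace ℝ E] [Fintype ι] [DecidableEq ι]
  {S : Sm ℝ} {a b c₁ : ℝ} (G : Wd D E ι S a b c₁)

theorem b_e : Bd G.toFa 2 G.e := by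
  refine Bd.cm (fun j => ⟨|G.C₁|, abs_nonneg _, fun d z hz => ?_⟩) G.bu
  rw [d1_exp_iter]
  change |Real.exp ((G.u d : E → ℝ) z)| ≤ _
  rw [abs_of_pos (Real.exp_pos _)]
  have h2 : G.h d ^ (2 : ℤ) = G.h d ^ 2 := by norm_cast
  rw [h2]
  exact (G.E2 d z hz).trans (mul_le_mul_of_nonneg_right (le_abs_self _) (sq_nonneg _))

theorem expN_le (d : D) {z : E} (hz : z ∈ G.Ω d) :
    Real.exp (-(G.u d : E → ℝ) z) ≤ c₁⁻¹ * G.h d ^ (-2 : ℤ) := by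
  have h1 := G.E1 d z hz
  have h0 : 0 < c₁ * G.h d ^ 2 := mul_pos G.c10 (pow_pos (G.hp d) 2)
  rw [Real.exp_neg, zpow_neg, ← mul_inv]
  have h2 : G.h d ^ (2 : ℤ) = G.h d ^ 2 := by norm_cast
  rw [h2]
  exact inv_anti₀ h0 h1

theorem b_en : Bd G.toFa (-2) (fun d => cm expN (G.u d)) := by
  refine Bd.cm (fun j => ⟨c₁⁻¹, inv_nonneg.2 G.c10.le, fun d z hz => ?_⟩) G.bu
  have h1 : |((d1^[j] expN : Sm ℝ) : ℝ → ℝ) ((G.u d : E → ℝ) z)| =
      Real.exp (-(G.u d : E → ℝ) z) := by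
    rcases d1_expN_iter j with h | h
    · rw [h]; exact abs_of_pos (Real.exp_pos _)
    · rw [h]
      change |-(Real.exp (-(G.u d : E → ℝ) z))| = _
      rw [abs_neg]; exact abs_of_pos (Real.exp_pos _)
  rw [h1]
  exact G.expN_le d hz

theorem b_q (i : ι) : Bd G.toFa 0 (G.q i) := by
  refine bd_of_dr ⟨1 + |b|, by positivity, fun d z hz => ?_⟩ fun k => ?_
  · rw [zpow_zero, mul_one]
    have h1 : (G.q i d : E → ℝ) z ^ 2 ≤ b := by
      have h2 := (G.τab d z hz).2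
      rw [G.τq] at h2
      exact (Finset.single_le_sum (f := fun i => (G.q i d : E → ℝ) z ^ 2)
        (fun i _ => sq_nonneg _) (Finset.mem_univ i)).trans h2
    have h3 := le_abs_self b
    have h4 : |(G.q i d : E → ℝ) z| ^ 2 ≤ |b| := by rw [sq_abs]; linarith
    nlinarith [sq_nonneg (|(G.q i d : E → ℝ) z| - 1), abs_nonneg ((G.q i d : E → ℝ) z),
      abs_nonneg b]
  · rcases k with k | k
    · have : (fun d => ds (G.dir (Sum.inl k)) (G.q i d)) =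
          fun _ => if k = i then 1 else 0 := funext fun d => G.qx k i d
      rw [this]
      split_ifs
      · exact Bd.one le_rfl
      · exact Bd.zero
    · have : (fun d => ds (G.dir (Sum.inr k)) (G.q i d)) =
          fun _ => if k = i then -1 else 0 := funext fun d => G.qy k i d
      rw [this]
      split_ifs
      · exact (Bd.one le_rfl).neg
      · exact Bd.zero

theorem b_dτ (k : ι ⊕ ι) : Bd G.toFa 0 (fun d => ds (G.dir k) (G.τ d)) := by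
  rcases k with k | k
  · simp only [G.dτx]
    exact (G.b_q k).cmul 2
  · simp only [G.dτy]
    exact (G.b_q k).cmul (-2)

theorem b_τ (f : Sm ℝ) : Bd G.toFa 0 (fun d => cm f (G.τ d)) :=
  Bd.cm (bf_const isCompact_Icc G.τab) G.b_dτ

theorem b_Φ1 : Bd G.toFa 2 (fun d => cm (d1 (G.Φ d)) (G.u d)) := Bd.cm G.bΦ G.bu

theorem b_Φ2 : Bd G.toFa 2 (fun d => cm (d1 (d1 (G.Φ d))) (G.u d)) := Bd.cm G.bΦ.d G.bu

theorem b_eS (f : Sm ℝ) : Bd G.toFa 2 (fun d => G.e d * cm f (G.τ d)) :=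
  G.b_e.mul' (G.b_τ f) (by norm_num)

theorem b_A : Bd G.toFa 2 G.A := G.b_Φ1.add (G.b_eS S)

theorem b_AA : Bd G.toFa 2 G.AA := G.b_Φ2.add (G.b_eS S)

theorem b_B : Bd G.toFa 2 G.B := (G.b_eS (d1 S)).cmul 2

theorem b_W (k : ι ⊕ ι) : Bd G.toFa 2 (fun d => wk G.dir (G.W d) k) := by
  unfold wk
  rcases k with k | k
  · simp only [G.W_x]
    exact (G.b_A.mul' (G.bu (Sum.inl k)) (by norm_num)).add (G.b_B.mul' (G.b_q k) (by norm_num))
  · simp only [G.W_y]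
    exact (G.b_A.mul' (G.bu (Sum.inr k)) (by norm_num)).sub (G.b_B.mul' (G.b_q k) (by norm_num))

/-- The geometric setting. -/
def gm (χ : ℕ → D → Sm E) (hχ : ∀ j ≤ 3, Bd G.toFa 0 (χ j))
    (χb : ∀ j ≤ 3, ∀ d z, |(χ j d : E → ℝ) z| ≤ 1) (χs : ∀ j ≤ 2, Su (χ (j + 1)) (χ j))
    (χΩ : ∀ d z, (χ 3 d : E → ℝ) z ≠ 0 → z ∈ G.Ω d) : Gm D E ι where
  toFa := G.toFa
  W := G.W
  χ := χ
  hW := G.b_W
  hχ := hχ
  χb := χb
  χs := χs
  χΩ := χΩ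

/-- The first coefficient of `sig`. -/
def g1 (S : Sm ℝ) (c : ℝ) (hc : 0 < c) : Sm ℝ := cm (invS c hc) ((16 : ℝ) • (idS * (d1 S * d1 S)))

/-- The second coefficient of `sig`. -/
def g2 (S : Sm ℝ) (a c : ℝ) (ha : 0 < a) (hc : 0 < c) : Sm ℝ :=
  (S + (4 : ℝ) • (sqS a ha * d1 S) + (4 : ℝ) • (d1 (d1 S) * idS)) * g1 S c hc

/-- `κ`. -/
def kapS (δ : ℝ) (d : D) : Sm E := (1 - δ) • G.B d

/-- `σ`. -/
def sigS (c : ℝ) (hc : 0 < c) (d : D) : Sm E := cm expN (G.u d) *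
  (cm (d1 (d1 (G.Φ d))) (G.u d) * cm expN (G.u d) * cm (g1 S c hc) (G.τ d) +
    cm (g2 S a c G.a0 hc) (G.τ d))

theorem b_kap (δ : ℝ) : Bd G.toFa 2 (G.kapS δ) := G.b_B.cmul _

theorem b_sig {c : ℝ} (hc : 0 < c) : Bd G.toFa (-2) (G.sigS c hc) :=
  G.b_en.mul' ((((G.b_Φ2.mul' G.b_en (by norm_num : (2 : ℤ) + -2 ≤ 0)).mul' (G.b_τ _)
    (by norm_num : (0 : ℤ) + 0 ≤ 0))).add (G.b_τ _)) (by norm_num)

/-- `|W_y|²`. -/
def l2S (d : D) : Sm E := ∑ k, wk G.dir (G.W d) (Sum.inr k) * wk G.dir (G.W d) (Sum.inr k)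

/-- `γ |W_y|²`. -/
def gLS (δ c : ℝ) (hc : 0 < c) (d : D) : Sm E :=
  ((2 : ℝ) • G.kapS δ d + G.sigS c hc d * G.l2S d) * G.l2S d

theorem b_l2 : Bd G.toFa 4 G.l2S :=
  Bd.sum _ fun k _ => (G.b_W (Sum.inr k)).mul' (G.b_W (Sum.inr k)) (by norm_num)

theorem b_gL {δ c : ℝ} (hc : 0 < c) : Bd G.toFa 6 (G.gLS δ c hc) :=
  (((G.b_kap δ).cmul 2).add ((G.b_sig hc).mul' G.b_l2 (by norm_num))).mul' G.b_l2 (by norm_num)

/-- `1 / (γ |W_y|²)`. -/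
def omS (δ c c' : ℝ) (hc : 0 < c) (hc' : 0 < c') (d : D) : Sm E :=
  cm expN (G.u d) * cm expN (G.u d) * cm expN (G.u d) *
    cm (invS c' hc') (cm expN (G.u d) * cm expN (G.u d) * cm expN (G.u d) * G.gLS δ c hc d)

theorem om_val {δ c c' : ℝ} (hc : 0 < c) (hc' : 0 < c') (d : D) (z : E) :
    (G.omS δ c c' hc hc' d : E → ℝ) z = Real.exp (-(G.u d : E → ℝ) z) ^ 3 *
      (invS c' hc' : ℝ → ℝ) (Real.exp (-(G.u d : E → ℝ) z) ^ 3 * (G.gLS δ c hc d : E → ℝ) z) := by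
  change Real.exp (-(G.u d : E → ℝ) z) * Real.exp (-(G.u d : E → ℝ) z) *
    Real.exp (-(G.u d : E → ℝ) z) * (invS c' hc' : ℝ → ℝ) (Real.exp (-(G.u d : E → ℝ) z) *
    Real.exp (-(G.u d : E → ℝ) z) * Real.exp (-(G.u d : E → ℝ) z) *
    (G.gLS δ c hc d : E → ℝ) z) = _
  have e : Real.exp (-(G.u d : E → ℝ) z) * Real.exp (-(G.u d : E → ℝ) z) *
    Real.exp (-(G.u d : E → ℝ) z) = Real.exp (-(G.u d : E → ℝ) z) ^ 3 := by ring
  rw [e]

variable {δ c c' : ℝ} (hc : 0 < c) (hc' : 0 < c')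

theorem om_one (H : ∀ d, ∀ z ∈ G.Ω d, c' ≤ Real.exp (-(G.u d : E → ℝ) z) ^ 3 *
    (G.gLS δ c hc d : E → ℝ) z) (d : D) {z : E} (hz : z ∈ G.Ω d) :
    (G.omS δ c c' hc hc' d : E → ℝ) z * (G.gLS δ c hc d : E → ℝ) z = 1 := by
  rw [om_val]
  have h1 := H d z hz
  have e1 : (invS c' hc' : ℝ → ℝ) (Real.exp (-(G.u d : E → ℝ) z) ^ 3 *
      (G.gLS δ c hc d : E → ℝ) z) =
      (Real.exp (-(G.u d : E → ℝ) z) ^ 3 * (G.gLS δ c hc d : E → ℝ) z)⁻¹ := exS_eq hc' _ h1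
  rw [e1]
  have h2 : 0 < Real.exp (-(G.u d : E → ℝ) z) ^ 3 * (G.gLS δ c hc d : E → ℝ) z :=
    lt_of_lt_of_le hc' h1
  have h3 : (G.gLS δ c hc d : E → ℝ) z ≠ 0 := (right_ne_zero_of_mul h2.ne')
  have h4 : Real.exp (-(G.u d : E → ℝ) z) ^ 3 ≠ 0 := (left_ne_zero_of_mul h2.ne')
  rw [mul_inv]
  field_simp

theorem b_om (H : ∀ d, ∀ z ∈ G.Ω d, c' ≤ Real.exp (-(G.u d : E → ℝ) z) ^ 3 *
    (G.gLS δ c hc d : E → ℝ) z) : Bd G.toFa (-6) (G.omS δ c c' hc hc') := by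
  refine Bd.inv (G.b_gL (δ := δ) hc) ⟨c₁⁻¹ ^ 3 * c'⁻¹, ?_, fun d z hz => ?_⟩ fun d z hz => ?_
  · have := G.c10
    positivity
  · rw [om_val]
    have h1 := H d z hz
    have e1 : (invS c' hc' : ℝ → ℝ) (Real.exp (-(G.u d : E → ℝ) z) ^ 3 *
        (G.gLS δ c hc d : E → ℝ) z) =
        (Real.exp (-(G.u d : E → ℝ) z) ^ 3 * (G.gLS δ c hc d : E → ℝ) z)⁻¹ := exS_eq hc' _ h1
    rw [e1, abs_mul, abs_of_pos (pow_pos (Real.exp_pos _) 3), abs_of_pos (inv_pos.2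
      (lt_of_lt_of_le hc' h1))]
    have h3 := G.expN_le d hz
    have h4 : Real.exp (-(G.u d : E → ℝ) z) ^ 3 ≤ (c₁⁻¹ * G.h d ^ (-2 : ℤ)) ^ 3 :=
      pow_le_pow_left₀ (Real.exp_pos _).le h3 3
    have h5 : (Real.exp (-(G.u d : E → ℝ) z) ^ 3 * (G.gLS δ c hc d : E → ℝ) z)⁻¹ ≤ c'⁻¹ :=
      inv_anti₀ hc' h1
    have h6 : (c₁⁻¹ * G.h d ^ (-2 : ℤ)) ^ 3 = c₁⁻¹ ^ 3 * G.h d ^ (-6 : ℤ) := by
      rw [mul_pow]
      congr 1
      rw [← zpow_natCast, ← zpow_mul]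
      norm_num
    rw [h6] at h4
    calc _ ≤ (c₁⁻¹ ^ 3 * G.h d ^ (-6 : ℤ)) * c'⁻¹ := mul_le_mul h4 h5
          (inv_nonneg.2 (lt_of_lt_of_le hc' h1).le) (mul_nonneg (by
            have := G.c10
            positivity) (G.toFa.zp d _).le)
      _ = _ := by ring
  · exact G.om_one hc hc' H d hz

end Wd

end Vale.Agent.P088.R2.H820.W
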