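import Vale.Agent.P088.R2.H820.T.Zf

/-!
# The flat zone: pointwise bounds, bridge to the flat slots
-/

open MeasureTheory Set
open scoped ContDiff

set_option linter.unusedSectionVars false

noncomputable section

namespace Vale.Agent.P088.R2.H820.W

open Vale.Agent.P088.R2.H464.EP

/-- Values of sums. -/
theorem vsum {E α : Type} [NormedAddCommGroup E] [NormedSpace ℝ E] (A : Finset α) (f : α → Sm E)
    (z : E) : ((∑ a ∈ A, f a : Sm E) : E → ℝ) z = ∑ a ∈ A, (f a : E → ℝ) z := by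
  classical
  induction A using Finset.induction_on with
  | empty => rfl
  | insert a S ha ih =>
    rw [Finset.sum_insert ha, Finset.sum_insert ha, ← ih]
    rfl

namespace Gm

section bounds

variable {D E ι : Type} [NormedAddCommGroup E] [NormedSpace ℝ E] [Fintype ι] (G : Gm D E ι)

/-- `Λ_x W`. -/
def Lx (d : D) : Sm E := ∑ i, G.H i i d
/-- `Λ_y W`. -/
def Ly (d : D) : Sm E := ∑ j, G.G' j j d
/-- The Laplacian of the first variable. -/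
def Lpx (f : Sm E) : Sm E := ∑ i, ds (G.dir (Sum.inl i)) (ds (G.dir (Sum.inl i)) f)
/-- The Laplacian of the second variable. -/
def Lpy (f : Sm E) : Sm E := ∑ j, ds (G.dir (Sum.inr j)) (ds (G.dir (Sum.inr j)) f)

/-- The bounds of the coefficients. -/
structure Kb (K : ℝ) (d : D) (z : E) : Prop where
  m2 : |∑ i, ∑ j, (G.M i j d : E → ℝ) z ^ 2| ≤ K * G.h d ^ 4
  g2 : |∑ i, ∑ j, (G.G' i j d : E → ℝ) z ^ 2| ≤ K * G.h d ^ 4
  lx : ∀ k, |(ds (G.dir k) (G.Lx d) : E → ℝ) z| ≤ K * G.h d ^ 2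
  ly : ∀ k, |(ds (G.dir k) (G.Ly d) : E → ℝ) z| ≤ K * G.h d ^ 2
  xx : |(G.Lpx (G.Lx d) : E → ℝ) z| ≤ K * G.h d ^ 2
  xy : |(G.Lpx (G.Ly d) : E → ℝ) z| ≤ K * G.h d ^ 2
  yx : |(G.Lpy (G.Lx d) : E → ℝ) z| ≤ K * G.h d ^ 2
  yy : |(G.Lpy (G.Ly d) : E → ℝ) z| ≤ K * G.h d ^ 2

theorem b0_nat {m : ℕ} {F : Fa D E (ι ⊕ ι)} {g : D → Sm E} (hg : B0 F (m : ℤ) g) :
    ∃ C, 0 ≤ C ∧ ∀ d, ∀ z ∈ F.Ω d, |(g d : E → ℝ) z| ≤ C * F.h d ^ m := by
  obtain ⟨C, hC, h⟩ := hg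
  exact ⟨C, hC, fun d z hz => by have := h d z hz; rwa [zpow_natCast] at this⟩

theorem kb : ∃ K, 0 ≤ K ∧ ∀ d, ∀ z ∈ G.Ω d, G.Kb K d z := by
  have bH : ∀ i l, Bd G.toFa 2 (G.H i l) := fun i l => (G.hW (Sum.inl l)).dr _
  have bM : ∀ i l, Bd G.toFa 2 (G.M i l) := fun i l => (G.hW (Sum.inr l)).dr _
  have bG : ∀ i l, Bd G.toFa 2 (G.G' i l) := fun i l => (G.hW (Sum.inr l)).dr _
  have bLx : Bd G.toFa 2 G.Lx := Bd.sum _ fun i _ => bH i i
  have bLy : Bd G.toFa 2 G.Ly := Bd.sum _ fun i _ => bG i i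
  have m2 : Bd G.toFa (4 : ℕ) (fun d => ∑ i, ∑ j, G.M i j d * G.M i j d) :=
    Bd.sum _ fun i _ => Bd.sum _ fun j _ => (bM i j).mul' (bM i j) (by norm_num)
  have g2 : Bd G.toFa (4 : ℕ) (fun d => ∑ i, ∑ j, G.G' i j d * G.G' i j d) :=
    Bd.sum _ fun i _ => Bd.sum _ fun j _ => (bG i j).mul' (bG i j) (by norm_num)
  have px : ∀ {f : D → Sm E}, Bd G.toFa 2 f → Bd G.toFa (2 : ℕ) (fun d => G.Lpx (f d)) :=
    fun hf => Bd.sum _ fun i _ => (hf.dr _).dr _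
  have py : ∀ {f : D → Sm E}, Bd G.toFa 2 f → Bd G.toFa (2 : ℕ) (fun d => G.Lpy (f d)) :=
    fun hf => Bd.sum _ fun i _ => (hf.dr _).dr _
  obtain ⟨k1, p1, h1⟩ := b0_nat m2.b0
  obtain ⟨k2, p2, h2⟩ := b0_nat g2.b0
  have lx : ∀ k, ∃ C, 0 ≤ C ∧ ∀ d, ∀ z ∈ G.Ω d,
      |(ds (G.dir k) (G.Lx d) : E → ℝ) z| ≤ C * G.h d ^ 2 := fun k =>
    b0_nat (m := 2) (bLx.dr k).b0
  have ly : ∀ k, ∃ C, 0 ≤ C ∧ ∀ d, ∀ z ∈ G.Ω d,
      |(ds (G.dir k) (G.Ly d) : E → ℝ) z| ≤ C * G.h d ^ 2 := fun k =>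
    b0_nat (m := 2) (bLy.dr k).b0
  choose cx px1 hx using lx
  choose cy py1 hy using ly
  obtain ⟨k5, p5, h5⟩ := b0_nat (px bLx).b0
  obtain ⟨k6, p6, h6⟩ := b0_nat (px bLy).b0
  obtain ⟨k7, p7, h7⟩ := b0_nat (py bLx).b0
  obtain ⟨k8, p8, h8⟩ := b0_nat (py bLy).b0
  have sx : 0 ≤ ∑ k, cx k := Finset.sum_nonneg fun k _ => px1 k
  have sy : 0 ≤ ∑ k, cy k := Finset.sum_nonneg fun k _ => py1 k
  refine ⟨k1 + k2 + ∑ k, cx k + ∑ k, cy k + k5 + k6 + k7 + k8, by positivity, fun d z hz => ?_⟩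
  have q2 : 0 ≤ G.h d ^ 2 := by positivity
  have q4 : 0 ≤ G.h d ^ 4 := by positivity
  have up : ∀ {x c C q : ℝ}, x ≤ c * q → 0 ≤ q → c ≤ C → x ≤ C * q := fun h hq hc =>
    h.trans (mul_le_mul_of_nonneg_right hc hq)
  have e1 : ((∑ i, ∑ j, G.M i j d * G.M i j d : Sm E) : E → ℝ) z =
      ∑ i, ∑ j, (G.M i j d : E → ℝ) z ^ 2 := by
    rw [vsum]
    refine Finset.sum_congr rfl fun i _ => ?_
    rw [vsum]
    refine Finset.sum_congr rfl fun j _ => ?_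
    change (G.M i j d : E → ℝ) z * (G.M i j d : E → ℝ) z = _
    ring
  have e2 : ((∑ i, ∑ j, G.G' i j d * G.G' i j d : Sm E) : E → ℝ) z =
      ∑ i, ∑ j, (G.G' i j d : E → ℝ) z ^ 2 := by
    rw [vsum]
    refine Finset.sum_congr rfl fun i _ => ?_
    rw [vsum]
    refine Finset.sum_congr rfl fun j _ => ?_
    change (G.G' i j d : E → ℝ) z * (G.G' i j d : E → ℝ) z = _
    ring
  refine ⟨?_, ?_, fun k => ?_, fun k => ?_, ?_, ?_, ?_, ?_⟩
  · rw [← e1]; exact up (h1 d z hz) q4 (by linarith)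
  · rw [← e2]; exact up (h2 d z hz) q4 (by linarith)
  · refine up (hx k d z hz) q2 ?_
    have := Finset.single_le_sum (f := cx) (fun k _ => px1 k) (Finset.mem_univ k)
    linarith
  · refine up (hy k d z hz) q2 ?_
    have := Finset.single_le_sum (f := cy) (fun k _ => py1 k) (Finset.mem_univ k)
    linarith
  · exact up (h5 d z hz) q2 (by linarith)
  · exact up (h6 d z hz) q2 (by linarith)
  · exact up (h7 d z hz) q2 (by linarith)
  · exact up (h8 d z hz) q2 (by linarith)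

end bounds

section forms

variable {D E ι : Type} [NormedAddCommGroup E] [NormedSpace ℝ E] [Fintype ι] [MeasurableSpace E]
  [BorelSpace E] [FiniteDimensional ℝ E] {μ : Measure E} [μ.IsAddHaarMeasure] (G : Gm D E ι)

/-- The integrand of the commutator form. -/
def fi (d : D) (a b : TE E) (z : E) : ℝ :=
  (G.χ 0 d : E → ℝ) z ^ 2 *
    ((∑ i, ∑ l, (G.H i l d : E → ℝ) z * (G.xs i d a).fn z * (G.xs l d a).fn z) +
    2 * (∑ i, ∑ j, (G.M i j d : E → ℝ) z * (G.xs i d a).fn z * (G.ys j d b).fn z) +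
    (∑ j, ∑ k, (G.G' j k d : E → ℝ) z * (G.ys j d b).fn z * (G.ys k d b).fn z) -
    (∑ i, ∑ l, (G.H i l d : E → ℝ) z ^ 2) * a.fn z ^ 2)

theorem rep_form (d : D) (a b : TE E) : Rep μ (G.form μ d a b) (G.fi d a b) := by
  have h1 := (Rep.sum (μ := μ) Finset.univ fun i _ => Rep.sum Finset.univ fun l _ =>
    rep_ip (G.χ 0 d * G.χ 0 d * G.H i l d) (G.xs i d a) (G.xs l d a))
  have h2 := (Rep.sum (μ := μ) Finset.univ fun i _ => Rep.sum Finset.univ fun l _ =>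
    rep_ip (G.χ 0 d * G.χ 0 d * G.M i l d) (G.xs i d a) (G.ys l d b))
  have h3 := (Rep.sum (μ := μ) Finset.univ fun i _ => Rep.sum Finset.univ fun l _ =>
    rep_ip (G.χ 0 d * G.χ 0 d * G.G' i l d) (G.ys i d b) (G.ys l d b))
  have h4 := rep_ip (μ := μ) (G.χ 0 d * G.χ 0 d * ∑ i, ∑ l, G.H i l d * G.H i l d) a a
  refine (((h1.add (h2.cmul 2)).add h3).sub h4).congr fun z => ?_
  have e4 : ((G.χ 0 d * G.χ 0 d * ∑ i, ∑ l, G.H i l d * G.H i l d : Sm E) : E → ℝ) z =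
      (G.χ 0 d : E → ℝ) z * (G.χ 0 d : E → ℝ) z * ∑ i, ∑ l, (G.H i l d : E → ℝ) z ^ 2 := by
    change (G.χ 0 d : E → ℝ) z * (G.χ 0 d : E → ℝ) z *
      ((∑ i, ∑ l, G.H i l d * G.H i l d : Sm E) : E → ℝ) z = _
    rw [vsum]
    congr 1
    refine Finset.sum_congr rfl fun i _ => ?_
    rw [vsum]
    refine Finset.sum_congr rfl fun j _ => ?_
    change (G.H i j d : E → ℝ) z * (G.H i j d : E → ℝ) z = _
    ring
  have e1 : ∀ (f : Sm E), ((G.χ 0 d * G.χ 0 d * f : Sm E) : E → ℝ) z =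
      (G.χ 0 d : E → ℝ) z ^ 2 * (f : E → ℝ) z := fun f => by
    change (G.χ 0 d : E → ℝ) z * (G.χ 0 d : E → ℝ) z * (f : E → ℝ) z = _
    ring
  unfold fi
  simp only [e1]
  rw [mul_sub, mul_add, mul_add]
  have s1 : ∀ (F : ι → ι → ℝ) (c : ℝ), c * ∑ i, ∑ l, F i l = ∑ i, ∑ l, c * F i l := fun F c => by
    simp only [Finset.mul_sum]
  congr 1
  · congr 1
    · congr 1
      · rw [s1]
        exact Finset.sum_congr rfl fun i _ => Finset.sum_congr rfl fun l _ => by ring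
      · rw [s1, s1, s1]
        exact Finset.sum_congr rfl fun i _ => Finset.sum_congr rfl fun l _ => by ring
    · rw [s1]
      exact Finset.sum_congr rfl fun i _ => Finset.sum_congr rfl fun l _ => by ring
  · have e5 : ((∑ i, ∑ l, G.H i l d * G.H i l d : Sm E) : E → ℝ) z =
      ∑ i, ∑ l, (G.H i l d : E → ℝ) z ^ 2 := by
      rw [vsum]
      refine Finset.sum_congr rfl fun i _ => ?_
      rw [vsum]
      refine Finset.sum_congr rfl fun j _ => ?_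
      change (G.H i j d : E → ℝ) z * (G.H i j d : E → ℝ) z = _
      ring
    rw [e5]
    ring

end forms

end Gm

end Vale.Agent.P088.R2.H820.W
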