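import Vale.Agent.P088.R2.H820.T.Wd2
import Vale.Agent.P088.R2.H820.T.Zf2
import Vale.Agent.P088.R2.H312.T.Pt3

/-!
# The weight `Φ(u) + e^u S(τ)`: the hypotheses of the tube theorem
-/

open MeasureTheory Set
open scoped ContDiff

set_option linter.unusedSectionVars false
set_option linter.dupNamespace false

noncomputable section

namespace Vale.Agent.P088.R2.H820.W

open Vale.Agent.P088.R2.H464.EP

namespace Wd

variable {D E ι : Type} [NormedAddCommGroup E] [NormedSpace ℝ E] [Fintype ι] [DecidableEq ι]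
  {S : Sm ℝ} {a b c₁ : ℝ} (G : Wd D E ι S a b c₁)

/-- Near the critical surface `W_x = 0`. -/
structure Nr (f ρ : ℝ) : Prop where
  n0 : ∀ d, ∀ z ∈ G.Ω d, 0 ≤ (d1 (G.Φ d) : ℝ → ℝ) ((G.u d : E → ℝ) z)
  K : ∀ d, ∀ z ∈ G.Ω d, |(d1 (d1 (G.Φ d)) : ℝ → ℝ) ((G.u d : E → ℝ) z) -
    f * (d1 (G.Φ d) : ℝ → ℝ) ((G.u d : E → ℝ) z)| ≤ ρ * Real.exp ((G.u d : E → ℝ) z)
  p1 : ∀ d, ∀ z ∈ G.Ω d, |∑ i, (G.p (Sum.inl i) d : E → ℝ) z ^ 2 - 1| ≤ ρ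
  pp : ∀ d, ∀ z ∈ G.Ω d, ∀ i, |(G.p (Sum.inl i) d : E → ℝ) z - (G.p (Sum.inr i) d : E → ℝ) z| ≤ ρ
  P : ∀ d, ∀ z ∈ G.Ω d, ∀ i l, |(ds (G.dir (Sum.inl i)) (G.p (Sum.inl l) d) : E → ℝ) z| ≤ ρ
  P' : ∀ d, ∀ z ∈ G.Ω d, ∀ i l, |(ds (G.dir (Sum.inr i)) (G.p (Sum.inr l) d) : E → ℝ) z| ≤ ρ
  x : ∀ d, ∀ z ∈ G.Ω d, ∀ i, |(wk G.dir (G.W d) (Sum.inl i) : E → ℝ) z| ≤
    ρ * Real.exp ((G.u d : E → ℝ) z)

/-- `|W_y|` is large where `W_x` is small. -/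
theorem L2_low {k s nu τ ρ N2 m : ℝ} {p p' q : ι → ℝ} (hτ : τ = ∑ i, q i ^ 2)
    (h1 : ∀ i, |(nu + s) * p i + k * q i| ≤ ρ) (h2 : ∀ i, |p i - p' i| ≤ ρ) (h3 : |nu + s| ≤ N2)
    (hm : m ≤ k ^ 2 * τ) (hρ : Fintype.card ι * (ρ * (1 + N2)) ^ 2 ≤ m) :
    m ≤ H312.T.L2 (H312.T.yex nu s k p' q) := by
  have hN : 0 ≤ N2 := (abs_nonneg _).trans h3
  have h4 : ∀ i, |H312.T.yex nu s k p' q i + 2 * (k * q i)| ≤ ρ * (1 + N2) := fun i => by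
    have e : H312.T.yex nu s k p' q i + 2 * (k * q i) =
        ((nu + s) * p i + k * q i) - (nu + s) * (p i - p' i) := by
      unfold H312.T.yex; ring
    rw [e]
    refine (abs_sub _ _).trans ?_
    rw [abs_mul]
    have h5 : |nu + s| * |p i - p' i| ≤ N2 * ρ := mul_le_mul h3 (h2 i) (abs_nonneg _) hN
    linarith [h1 i]
  have h6 : ∀ i, 2 * (k * q i) ^ 2 - (ρ * (1 + N2)) ^ 2 ≤
      H312.T.yex nu s k p' q i * H312.T.yex nu s k p' q i := fun i => by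
    have h7 : (H312.T.yex nu s k p' q i + 2 * (k * q i)) ^ 2 ≤ (ρ * (1 + N2)) ^ 2 :=
      sq_le_sq' (by linarith [(abs_le.1 (h4 i)).1]) (abs_le.1 (h4 i)).2
    nlinarith [sq_nonneg (2 * H312.T.yex nu s k p' q i + 2 * (k * q i))]
  have h8 := Finset.sum_le_sum fun i (_ : i ∈ Finset.univ) => h6 i
  have e1 : ∑ i, (2 * (k * q i) ^ 2 - (ρ * (1 + N2)) ^ 2) =
      2 * (k ^ 2 * τ) - Fintype.card ι * (ρ * (1 + N2)) ^ 2 := by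
    rw [Finset.sum_sub_distrib, hτ, Finset.mul_sum, Finset.mul_sum]
    simp only [Finset.sum_const, Finset.card_univ, nsmul_eq_mul]
    congr 1
    exact Finset.sum_congr rfl fun i _ => by ring
  rw [e1] at h8
  unfold H312.T.L2
  linarith

/-- A lower bound of a positive continuous function. -/
theorem low_cpt {g : ℝ → ℝ} (hg : ContinuousOn g (Icc a b)) (h0 : ∀ t ∈ Icc a b, 0 < g t) :
    ∃ m, 0 < m ∧ ∀ t ∈ Icc a b, m ≤ g t := by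
  rcases (Icc a b).eq_empty_or_nonempty with h | h
  · exact ⟨1, one_pos, fun t ht => by rw [h] at ht; exact absurd ht (notMem_empty t)⟩
  · obtain ⟨t, ht, hm⟩ := isCompact_Icc.exists_isMinOn h hg
    exact ⟨g t, h0 t ht, fun x hx => hm hx⟩

theorem up_cpt {g : ℝ → ℝ} (hg : ContinuousOn g (Icc a b)) :
    ∃ m, 0 ≤ m ∧ ∀ t ∈ Icc a b, |g t| ≤ m := by
  obtain ⟨m, hm⟩ := isCompact_Icc.exists_bound_of_continuousOn hg
  exact ⟨|m|, abs_nonneg _, fun t ht => (hm t ht).trans (le_abs_self _)⟩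

variable [MeasurableSpace E] [BorelSpace E] [FiniteDimensional ℝ E] {G}

theorem val_sig {c : ℝ} (hc : 0 < c) (d : D) {z : E} (hz : z ∈ G.Ω d)
    (h : c ≤ 16 * ((G.τ d : E → ℝ) z * ((d1 S : ℝ → ℝ) ((G.τ d : E → ℝ) z) *
      (d1 S : ℝ → ℝ) ((G.τ d : E → ℝ) z)))) : (G.sigS c hc d : E → ℝ) z =
    H312.T.sig ((d1 (d1 (G.Φ d)) : ℝ → ℝ) ((G.u d : E → ℝ) z) / Real.exp ((G.u d : E → ℝ) z))
      (2 * (d1 S : ℝ → ℝ) ((G.τ d : E → ℝ) z)) ((S : ℝ → ℝ) ((G.τ d : E → ℝ) z))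
      (√((G.τ d : E → ℝ) z) * (2 * (d1 S : ℝ → ℝ) ((G.τ d : E → ℝ) z)))
      (2 * (d1 S : ℝ → ℝ) ((G.τ d : E → ℝ) z) +
        4 * (d1 (d1 S) : ℝ → ℝ) ((G.τ d : E → ℝ) z) * (G.τ d : E → ℝ) z) /
      Real.exp ((G.u d : E → ℝ) z) := by
  set t := (G.τ d : E → ℝ) z with ht
  set u := (G.u d : E → ℝ) z with hu
  have ht0 : 0 < t := lt_of_lt_of_le G.a0 (G.τab d z hz).1
  have e1 : (g1 S c hc : ℝ → ℝ) t = (16 * (t * ((d1 S : ℝ → ℝ) t * (d1 S : ℝ → ℝ) t)))⁻¹ :=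
    invS_eq hc h
  have e2 : (sqS a G.a0 : ℝ → ℝ) t = √t := sqS_eq G.a0 (G.τab d z hz).1
  have e3 : (g2 S a c G.a0 hc : ℝ → ℝ) t = ((S : ℝ → ℝ) t + 4 * (√t * (d1 S : ℝ → ℝ) t) +
      4 * ((d1 (d1 S) : ℝ → ℝ) t * t)) * (16 * (t * ((d1 S : ℝ → ℝ) t * (d1 S : ℝ → ℝ) t)))⁻¹ := by
    rw [← e1, ← e2]
    rfl
  have e4 : (G.sigS c hc d : E → ℝ) z = Real.exp (-u) *
      ((d1 (d1 (G.Φ d)) : ℝ → ℝ) u * Real.exp (-u) * (g1 S c hc : ℝ → ℝ) t +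
        (g2 S a c G.a0 hc : ℝ → ℝ) t) := rfl
  rw [e4, e3, e1, Real.exp_neg]
  have hs : √t ^ 2 = t := Real.sq_sqrt ht0.le
  have h1 : 0 < 16 * (t * ((d1 S : ℝ → ℝ) t * (d1 S : ℝ → ℝ) t)) := lt_of_lt_of_le hc h
  have h2 : (d1 S : ℝ → ℝ) t ≠ 0 := fun h0 => by rw [h0] at h1; simp at h1
  have h3 := (Real.exp_pos u).ne'
  have h4 : √t ≠ 0 := (Real.sqrt_pos.2 ht0).ne'
  unfold H312.T.sig
  generalize (d1 S : ℝ → ℝ) t = S1 at *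
  generalize (S : ℝ → ℝ) t = S0 at *
  generalize (d1 (d1 S) : ℝ → ℝ) t = S2 at *
  generalize (d1 (d1 (G.Φ d)) : ℝ → ℝ) u = F2 at *
  generalize Real.exp u = E0 at *
  generalize √t = r at *
  rw [← hs]
  field_simp
  ring

section values

variable (d : D) (z : E)

/-- `e^u` at a point. -/
def e0 (G : Wd D E ι S a b c₁) (d : D) (z : E) : ℝ := Real.exp ((G.u d : E → ℝ) z)
/-- `Φ' / e^u`. -/
def nu (G : Wd D E ι S a b c₁) (d : D) (z : E) : ℝ :=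
  (d1 (G.Φ d) : ℝ → ℝ) ((G.u d : E → ℝ) z) / G.e0 d z
/-- `Φ'' / e^u`. -/
def K0 (G : Wd D E ι S a b c₁) (d : D) (z : E) : ℝ :=
  (d1 (d1 (G.Φ d)) : ℝ → ℝ) ((G.u d : E → ℝ) z) / G.e0 d z
/-- `S`. -/
def s0 (G : Wd D E ι S a b c₁) (d : D) (z : E) : ℝ := (S : ℝ → ℝ) ((G.τ d : E → ℝ) z)
/-- `2 S'`. -/
def k0 (G : Wd D E ι S a b c₁) (d : D) (z : E) : ℝ := 2 * (d1 S : ℝ → ℝ) ((G.τ d : E → ℝ) z)
/-- `4 S''`. -/
def t0 (G : Wd D E ι S a b c₁) (d : D) (z : E) : ℝ := 4 * (d1 (d1 S) : ℝ → ℝ) ((G.τ d : E → ℝ) z)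

theorem e0_pos : 0 < G.e0 d z := Real.exp_pos _

theorem A_val : (G.A d : E → ℝ) z = G.e0 d z * (G.nu d z + G.s0 d z) := by
  change (d1 (G.Φ d) : ℝ → ℝ) ((G.u d : E → ℝ) z) + G.e0 d z * G.s0 d z = _
  have := (G.e0_pos d z).ne'
  unfold nu
  field_simp

theorem AA_val : (G.AA d : E → ℝ) z = G.e0 d z * (G.K0 d z + G.s0 d z) := by
  change (d1 (d1 (G.Φ d)) : ℝ → ℝ) ((G.u d : E → ℝ) z) + G.e0 d z * G.s0 d z = _
  have := (G.e0_pos d z).ne'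
  unfold K0
  field_simp

theorem B_val : (G.B d : E → ℝ) z = G.e0 d z * G.k0 d z := by
  change 2 * (G.e0 d z * (d1 S : ℝ → ℝ) ((G.τ d : E → ℝ) z)) = _
  unfold k0
  ring

theorem Cc_val : (G.Cc d : E → ℝ) z = G.e0 d z * G.t0 d z := by
  change 4 * (G.e0 d z * (d1 (d1 S) : ℝ → ℝ) ((G.τ d : E → ℝ) z)) = _
  unfold t0
  ring

theorem H_val (i l : ι) : (ck G.dir (G.W d) (Sum.inl i) (Sum.inl l) : E → ℝ) z =
    G.e0 d z * H312.T.Hex (G.nu d z) (G.K0 d z) (G.s0 d z) (G.k0 d z) (G.t0 d z)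
      (fun i => (G.p (Sum.inl i) d : E → ℝ) z) (fun i => (G.q i d : E → ℝ) z)
      (fun i l => (ds (G.dir (Sum.inl i)) (G.p (Sum.inl l) d) : E → ℝ) z) i l := by
  rw [W_xx, A_val, AA_val, B_val, Cc_val]
  unfold H312.T.Hex
  ring

theorem M_val (i l : ι) : (ck G.dir (G.W d) (Sum.inl i) (Sum.inr l) : E → ℝ) z =
    G.e0 d z * H312.T.Mex (G.K0 d z) (G.s0 d z) (G.k0 d z) (G.t0 d z)
      (fun i => (G.p (Sum.inl i) d : E → ℝ) z) (fun i => (G.p (Sum.inr i) d : E → ℝ) z)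
      (fun i => (G.q i d : E → ℝ) z) i l := by
  rw [W_xy, AA_val, B_val, Cc_val]
  unfold H312.T.Mex
  ring

theorem G_val (i l : ι) : (ck G.dir (G.W d) (Sum.inr i) (Sum.inr l) : E → ℝ) z =
    G.e0 d z * H312.T.Gex (G.nu d z) (G.K0 d z) (G.s0 d z) (G.k0 d z) (G.t0 d z)
      (fun i => (G.p (Sum.inr i) d : E → ℝ) z) (fun i => (G.q i d : E → ℝ) z)
      (fun i l => (ds (G.dir (Sum.inr i)) (G.p (Sum.inr l) d) : E → ℝ) z) i l := by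
  rw [W_yy, A_val, AA_val, B_val, Cc_val]
  unfold H312.T.Gex
  ring

theorem x_val (i : ι) : (wk G.dir (G.W d) (Sum.inl i) : E → ℝ) z =
    G.e0 d z * ((G.nu d z + G.s0 d z) * (G.p (Sum.inl i) d : E → ℝ) z +
      G.k0 d z * (G.q i d : E → ℝ) z) := by
  unfold wk
  rw [W_x]
  change (G.A d : E → ℝ) z * (G.p (Sum.inl i) d : E → ℝ) z +
    (G.B d : E → ℝ) z * (G.q i d : E → ℝ) z = _
  rw [A_val, B_val]
  ring

theorem y_val (i : ι) : (wk G.dir (G.W d) (Sum.inr i) : E → ℝ) z =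
    G.e0 d z * H312.T.yex (G.nu d z) (G.s0 d z) (G.k0 d z)
      (fun i => (G.p (Sum.inr i) d : E → ℝ) z) (fun i => (G.q i d : E → ℝ) z) i := by
  unfold wk
  rw [W_y]
  change (G.A d : E → ℝ) z * (G.p (Sum.inr i) d : E → ℝ) z -
    (G.B d : E → ℝ) z * (G.q i d : E → ℝ) z = _
  rw [A_val, B_val]
  unfold H312.T.yex
  ring

theorem kap_val (δ : ℝ) : (G.kapS δ d : E → ℝ) z = G.e0 d z * H312.T.kap δ (G.k0 d z) := by
  change (1 - δ) * (G.B d : E → ℝ) z = _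
  rw [B_val]
  unfold H312.T.kap
  ring

theorem l2_val : (G.l2S d : E → ℝ) z = G.e0 d z ^ 2 * H312.T.L2 (H312.T.yex (G.nu d z) (G.s0 d z)
    (G.k0 d z) (fun i => (G.p (Sum.inr i) d : E → ℝ) z) (fun i => (G.q i d : E → ℝ) z)) := by
  unfold l2S H312.T.L2
  rw [vsum, Finset.mul_sum]
  refine Finset.sum_congr rfl fun i _ => ?_
  change (wk G.dir (G.W d) (Sum.inr i) : E → ℝ) z * (wk G.dir (G.W d) (Sum.inr i) : E → ℝ) z = _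
  rw [y_val]
  ring

end values

end Wd

end Vale.Agent.P088.R2.H820.W
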