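import Vale.Agent.P088.R2.H820.T.Wd3
import Vale.Agent.P088.R2.H820.T.Main

/-!
# The weight `Φ(u) + e^u S(τ)`: the hypotheses of the tube theorem
-/

open MeasureTheory Set
open scoped ContDiff

set_option linter.unusedSectionVars false
set_option linter.dupNamespace false

noncomputable section

namespace Vale.Agent.P088.R2.H820.W

open Vale.Agent.P088.R2.H464.EP

namespace Wd

variable {ι : Type} [Fintype ι] [DecidableEq ι] {S : Sm ℝ} {a b f : ℝ}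

/-- The constants of a profile. -/
structure Cn (ι : Type) [Fintype ι] [DecidableEq ι] (S : Sm ℝ) (a b f ρ δ θ c m cg ck : ℝ) :
    Prop where
  ρ0 : 0 < ρ
  δ0 : 0 < δ
  δ1 : δ < 1
  θ0 : 0 < θ
  θ1 : θ < 1
  c0 : 0 < c
  m0 : 0 < m
  cg0 : 0 < cg
  ck0 : 0 < ck
  hg : ∀ t ∈ Icc a b, cg ≤ 16 * (t * ((d1 S : ℝ → ℝ) t * (d1 S : ℝ → ℝ) t))
  hk : ∀ t ∈ Icc a b, ck ≤ 2 * (d1 S : ℝ → ℝ) t
  hy : ∀ (τ nu K : ℝ) (p p' q : ι → ℝ) (P P' : ι → ι → ℝ), τ = ∑ i, q i ^ 2 → τ ∈ Icc a b →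
      0 ≤ nu → |K - f * nu| ≤ ρ → |∑ i, p i ^ 2 - 1| ≤ ρ → (∀ i, |p i - p' i| ≤ ρ) →
      (∀ i l, |P i l| ≤ ρ) → (∀ i l, |P' i l| ≤ ρ) →
      (∀ i, |(nu + (S : ℝ → ℝ) τ) * p i + 2 * (d1 S : ℝ → ℝ) τ * q i| ≤ ρ) →
      m ≤ H312.T.L2 (H312.T.yex nu ((S : ℝ → ℝ) τ) (2 * (d1 S : ℝ → ℝ) τ) p' q) ∧
      H312.T.Hyp (H312.T.Hex nu K ((S : ℝ → ℝ) τ) (2 * (d1 S : ℝ → ℝ) τ)
          (4 * (d1 (d1 S) : ℝ → ℝ) τ) p q P)
        (H312.T.Mex K ((S : ℝ → ℝ) τ) (2 * (d1 S : ℝ → ℝ) τ) (4 * (d1 (d1 S) : ℝ → ℝ) τ) p p' q)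
        (H312.T.Gex nu K ((S : ℝ → ℝ) τ) (2 * (d1 S : ℝ → ℝ) τ) (4 * (d1 (d1 S) : ℝ → ℝ) τ)
          p' q P')
        (H312.T.yex nu ((S : ℝ → ℝ) τ) (2 * (d1 S : ℝ → ℝ) τ) p' q)
        (H312.T.kap δ (2 * (d1 S : ℝ → ℝ) τ))
        (H312.T.sig K (2 * (d1 S : ℝ → ℝ) τ) ((S : ℝ → ℝ) τ) (√τ * (2 * (d1 S : ℝ → ℝ) τ))
          (2 * (d1 S : ℝ → ℝ) τ + 4 * (d1 (d1 S) : ℝ → ℝ) τ * τ)) θ c

theorem exists_cn (ha : 0 < a) (hs : ∀ τ ∈ Icc a b, 0 ≤ (S : ℝ → ℝ) τ)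
    (hS : ∀ τ ∈ Icc a b, H312.T.Sc (Fintype.card ι) f (2 * (d1 S : ℝ → ℝ) τ) ((S : ℝ → ℝ) τ)
      (√τ * (2 * (d1 S : ℝ → ℝ) τ)) (2 * (d1 S : ℝ → ℝ) τ + 4 * (d1 (d1 S) : ℝ → ℝ) τ * τ)) :
    ∃ ρ δ θ c m cg ck, Cn ι S a b f ρ δ θ c m cg ck := by
  have c0 : ContinuousOn (S : ℝ → ℝ) (Icc a b) := (sct S).continuousOn
  have c1 : ContinuousOn (d1 S : ℝ → ℝ) (Icc a b) := (sct _).continuousOn
  have c2 : ContinuousOn (d1 (d1 S) : ℝ → ℝ) (Icc a b) := (sct _).continuousOn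
  obtain ⟨ρ₁, δ, θ, c, hρ₁, hδ, hδ1, hθ, hθ1, hc, H⟩ := H312.T.tube_pt3 (ι := ι) (f := f) ha
    c0 c1 c2 hs hS
  have kp : ∀ t ∈ Icc a b, 0 < 2 * (d1 S : ℝ → ℝ) t := fun t ht => (hS t ht).k0
  have k1 : ContinuousOn (fun t => 2 * (d1 S : ℝ → ℝ) t) (Icc a b) := continuousOn_const.mul c1
  obtain ⟨ck, hck, hk⟩ := low_cpt k1 kp
  obtain ⟨cg, hcg, hg⟩ := low_cpt (a := a) (b := b)
    (g := fun t => 16 * (t * ((d1 S : ℝ → ℝ) t * (d1 S : ℝ → ℝ) t)))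
    (continuousOn_const.mul (continuousOn_id.mul (c1.mul c1))) (fun t ht => by
      have h1 : 0 < t := lt_of_lt_of_le ha ht.1
      have h2 : 0 < (d1 S : ℝ → ℝ) t := by linarith [kp t ht]
      positivity)
  obtain ⟨m, hm, hmm⟩ := low_cpt (a := a) (b := b)
    (g := fun t => (2 * (d1 S : ℝ → ℝ) t) ^ 2 * t) ((k1.pow 2).mul continuousOn_id)
    (fun t ht => by
      have h1 : 0 < t := lt_of_lt_of_le ha ht.1
      have h2 := kp t ht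
      positivity)
  obtain ⟨M, hM0, hM⟩ := up_cpt k1
  obtain ⟨Ms, hMs0, hMs⟩ := up_cpt c0
  set n : ℝ := (Fintype.card ι : ℝ) with hn
  have n0 : 0 ≤ n := Nat.cast_nonneg _
  set N2 : ℝ := 2 * (M * √b) + 2 * (n + 1) + Ms with hN2
  have N20 : 0 ≤ N2 := by positivity
  set ρ₂ : ℝ := √(m / (n + 1)) / (1 + N2) with hρ₂
  have ρ₂0 : 0 < ρ₂ := by
    have : 0 < √(m / (n + 1)) := Real.sqrt_pos.2 (by positivity)
    positivity
  refine ⟨min ρ₁ (min (1 / 2) ρ₂), δ, θ, c, m, cg, ck, ⟨by positivity, hδ, hδ1, hθ, hθ1, hc, hm,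
    hcg, hck, hg, hk, ?_⟩⟩
  intro τ nu K p p' q P P' hτ hτm hnu hK hp hpp hP hP' hx
  set ρ := min ρ₁ (min (1 / 2) ρ₂) with hρ
  have l1 : ρ ≤ ρ₁ := min_le_left _ _
  have l2 : ρ ≤ 1 / 2 := (min_le_right _ _).trans (min_le_left _ _)
  have l3 : ρ ≤ ρ₂ := (min_le_right _ _).trans (min_le_right _ _)
  have hρ0 : 0 < ρ := by positivity
  refine ⟨?_, H τ nu K p p' q P P' hτ hτm hnu (hK.trans l1) (hp.trans l1)
    (fun i => (hpp i).trans l1) (fun i l => (hP i l).trans l1) (fun i l => (hP' i l).trans l1)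
    (fun i => (hx i).trans l1)⟩
  have hs1 := hs τ hτm
  have hnu1 := H312.T.nu_bd (M := M) hτ (ha.le.trans hτm.1) hτm.2 hnu hs1 (kp τ hτm).le
    ((le_abs_self _).trans (hM τ hτm)) (by have := (abs_le.1 hp).1; linarith)
    fun i => (hx i).trans (by linarith)
  refine L2_low hτ hx hpp (N2 := N2) ?_ (hmm τ hτm) ?_
  · rw [abs_of_nonneg (by linarith)]
    have := (le_abs_self _).trans (hMs τ hτm)
    linarith
  · have h1 : ρ * (1 + N2) ≤ √(m / (n + 1)) := by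
      have h2 : ρ * (1 + N2) ≤ ρ₂ * (1 + N2) := mul_le_mul_of_nonneg_right l3 (by linarith)
      refine h2.trans (le_of_eq ?_)
      rw [hρ₂]
      field_simp
    have h3 : (ρ * (1 + N2)) ^ 2 ≤ m / (n + 1) := by
      have h4 := pow_le_pow_left₀ (by positivity : 0 ≤ ρ * (1 + N2)) h1 2
      rwa [Real.sq_sqrt (by positivity)] at h4
    calc n * (ρ * (1 + N2)) ^ 2 ≤ n * (m / (n + 1)) := mul_le_mul_of_nonneg_left h3 n0
      _ ≤ m := by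
        rw [← mul_div_assoc, div_le_iff₀ (by positivity)]
        nlinarith

section hy

variable {D E : Type} [NormedAddCommGroup E] [NormedSpace ℝ E] {c₁ : ℝ}
  [MeasurableSpace E] [BorelSpace E] [FiniteDimensional ℝ E] {G : Wd D E ι S a b c₁}
  {ρ δ θ c m cg ck : ℝ}

/-- The pointwise hypotheses at a point. -/
theorem pw (C : Cn ι S a b f ρ δ θ c m cg ck) (N : G.Nr f ρ) (d : D) {z : E} (hz : z ∈ G.Ω d) :
    m ≤ H312.T.L2 (H312.T.yex (G.nu d z) (G.s0 d z) (G.k0 d z)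
      (fun i => (G.p (Sum.inr i) d : E → ℝ) z) (fun i => (G.q i d : E → ℝ) z)) ∧
    H312.T.Hyp (H312.T.Hex (G.nu d z) (G.K0 d z) (G.s0 d z) (G.k0 d z) (G.t0 d z)
      (fun i => (G.p (Sum.inl i) d : E → ℝ) z) (fun i => (G.q i d : E → ℝ) z)
      (fun i l => (ds (G.dir (Sum.inl i)) (G.p (Sum.inl l) d) : E → ℝ) z))
    (H312.T.Mex (G.K0 d z) (G.s0 d z) (G.k0 d z) (G.t0 d z)
      (fun i => (G.p (Sum.inl i) d : E → ℝ) z) (fun i => (G.p (Sum.inr i) d : E → ℝ) z)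
      (fun i => (G.q i d : E → ℝ) z))
    (H312.T.Gex (G.nu d z) (G.K0 d z) (G.s0 d z) (G.k0 d z) (G.t0 d z)
      (fun i => (G.p (Sum.inr i) d : E → ℝ) z) (fun i => (G.q i d : E → ℝ) z)
      (fun i l => (ds (G.dir (Sum.inr i)) (G.p (Sum.inr l) d) : E → ℝ) z))
    (H312.T.yex (G.nu d z) (G.s0 d z) (G.k0 d z)
      (fun i => (G.p (Sum.inr i) d : E → ℝ) z) (fun i => (G.q i d : E → ℝ) z))
    (H312.T.kap δ (G.k0 d z))
    (H312.T.sig (G.K0 d z) (G.k0 d z) (G.s0 d z) (√((G.τ d : E → ℝ) z) * G.k0 d z)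
      (G.k0 d z + G.t0 d z * (G.τ d : E → ℝ) z)) θ c := by
  have he := G.e0_pos d z
  have dv : ∀ x : ℝ, |x / G.e0 d z| = |x| / G.e0 d z := fun x => by
    rw [abs_div, abs_of_pos he]
  refine C.hy _ _ _ _ _ _ _ _ (G.τq d z) (G.τab d z hz) (div_nonneg (N.n0 d z hz) he.le) ?_
    (N.p1 d z hz) (N.pp d z hz) (N.P d z hz) (N.P' d z hz) fun i => ?_
  · have e1 : G.K0 d z - f * G.nu d z = ((d1 (d1 (G.Φ d)) : ℝ → ℝ) ((G.u d : E → ℝ) z) -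
        f * (d1 (G.Φ d) : ℝ → ℝ) ((G.u d : E → ℝ) z)) / G.e0 d z := by
      unfold K0 nu
      ring
    rw [e1, dv, div_le_iff₀ he]
    exact N.K d z hz
  · have h1 := N.x d z hz i
    rw [x_val, abs_mul, abs_of_pos he] at h1
    have h2 : G.e0 d z * |(G.nu d z + G.s0 d z) * (G.p (Sum.inl i) d : E → ℝ) z +
        G.k0 d z * (G.q i d : E → ℝ) z| ≤ G.e0 d z * ρ := by
      refine h1.trans (le_of_eq ?_)
      unfold e0
      ring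
    exact le_of_mul_le_mul_left h2 he

/-- **The hypotheses of the tube theorem hold.** -/
theorem hy (C : Cn ι S a b f ρ δ θ c m cg ck) (N : G.Nr f ρ) (χ : ℕ → D → Sm E)
    (hχ : ∀ j ≤ 3, Bd G.toFa 0 (χ j)) (χb : ∀ j ≤ 3, ∀ d z, |(χ j d : E → ℝ) z| ≤ 1)
    (χs : ∀ j ≤ 2, Su (χ (j + 1)) (χ j)) (χΩ : ∀ d z, (χ 3 d : E → ℝ) z ≠ 0 → z ∈ G.Ω d) :
    ∃ kap sig Ef om, Gm.Hy (G.gm χ hχ χb χs χΩ) kap sig Ef om c θ (min c₁ (c₁ ^ 2 * m)) := by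
  have c'0 : 0 < 2 * ((1 - δ) * ck) * m := by
    have h1 := C.δ1
    have h2 := C.ck0
    have h3 := C.m0
    have h4 : 0 < 1 - δ := by linarith
    positivity
  have vs : ∀ d, ∀ z ∈ G.Ω d, (G.sigS cg C.cg0 d : E → ℝ) z =
      H312.T.sig (G.K0 d z) (G.k0 d z) (G.s0 d z) (√((G.τ d : E → ℝ) z) * G.k0 d z)
        (G.k0 d z + G.t0 d z * (G.τ d : E → ℝ) z) / G.e0 d z := fun d z hz =>
    val_sig C.cg0 d hz (C.hg _ (G.τab d z hz))
  have vg : ∀ d z, (G.gLS δ cg C.cg0 d : E → ℝ) z =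
      H312.T.gam ((G.kapS δ d : E → ℝ) z) ((G.sigS cg C.cg0 d : E → ℝ) z)
        (fun k => (wk G.dir (G.W d) (Sum.inr k) : E → ℝ) z) *
      H312.T.L2 (fun k => (wk G.dir (G.W d) (Sum.inr k) : E → ℝ) z) := fun d z => by
    have e1 : (G.l2S d : E → ℝ) z =
        H312.T.L2 (fun k => (wk G.dir (G.W d) (Sum.inr k) : E → ℝ) z) := by
      unfold l2S H312.T.L2
      rw [vsum]
      rfl
    change (2 * (G.kapS δ d : E → ℝ) z + (G.sigS cg C.cg0 d : E → ℝ) z * (G.l2S d : E → ℝ) z) *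
      (G.l2S d : E → ℝ) z = _
    rw [e1]
    unfold H312.T.gam
    ring
  have low : ∀ d, ∀ z ∈ G.Ω d, 2 * ((1 - δ) * ck) * m ≤ Real.exp (-(G.u d : E → ℝ) z) ^ 3 *
      (G.gLS δ cg C.cg0 d : E → ℝ) z := fun d z hz => by
    obtain ⟨h1, h2⟩ := pw C N d hz
    have he := G.e0_pos d z
    change _ ≤ _ * ((2 * (G.kapS δ d : E → ℝ) z + (G.sigS cg C.cg0 d : E → ℝ) z *
      (G.l2S d : E → ℝ) z) * (G.l2S d : E → ℝ) z)
    rw [vs d z hz, G.kap_val, G.l2_val, Real.exp_neg]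
    have e3 : Real.exp ((G.u d : E → ℝ) z) = G.e0 d z := rfl
    rw [e3]
    set L := H312.T.L2 (H312.T.yex (G.nu d z) (G.s0 d z) (G.k0 d z)
      (fun i => (G.p (Sum.inr i) d : E → ℝ) z) (fun i => (G.q i d : E → ℝ) z)) with hL
    set si := H312.T.sig (G.K0 d z) (G.k0 d z) (G.s0 d z) (√((G.τ d : E → ℝ) z) * G.k0 d z)
      (G.k0 d z + G.t0 d z * (G.τ d : E → ℝ) z) with hsi
    have s1 : 0 < si := h2.s0
    have L0 : 0 < L := h2.L0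
    have e4 : (G.e0 d z)⁻¹ ^ 3 * ((2 * (G.e0 d z * H312.T.kap δ (G.k0 d z)) +
        si / G.e0 d z * (G.e0 d z ^ 2 * L)) * (G.e0 d z ^ 2 * L)) =
        (2 * H312.T.kap δ (G.k0 d z) + si * L) * L := by
      have := he.ne'
      field_simp
    rw [e4]
    have h3 : (1 - δ) * ck ≤ H312.T.kap δ (G.k0 d z) := by
      unfold H312.T.kap
      exact mul_le_mul_of_nonneg_left (C.hk _ (G.τab d z hz)) (by linarith [C.δ1])
    have h4 : 0 < (1 - δ) * ck := mul_pos (by linarith [C.δ1]) C.ck0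
    calc 2 * ((1 - δ) * ck) * m ≤ (2 * H312.T.kap δ (G.k0 d z)) * L :=
          mul_le_mul (by linarith) h1 C.m0.le (by linarith)
      _ ≤ _ := mul_le_mul_of_nonneg_right (le_add_of_nonneg_right (mul_pos s1 L0).le) L0.le
  refine ⟨G.kapS δ, G.sigS cg C.cg0, G.e, G.omS δ cg _ C.cg0 c'0, ?_⟩
  refine ⟨G.b_kap δ, G.b_sig C.cg0, G.b_e, G.b_om C.cg0 c'0 low, C.θ0.le, C.θ1.le, C.c0.le,
    ?_, fun d z hz => ?_, fun d z hz => ?_, fun d z hz => ?_, fun d z hz => ?_⟩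
  · exact lt_min G.c10 (mul_pos (pow_pos G.c10 2) C.m0)
  · change min c₁ (c₁ ^ 2 * m) * G.h d ^ 2 ≤ Real.exp ((G.u d : E → ℝ) z)
    exact (mul_le_mul_of_nonneg_right (min_le_left _ _) (sq_nonneg _)).trans (G.E1 d z hz)
  · have h1 := (pw C N d hz).1
    have h2 := G.l2_val d z
    have e1 : ∑ k, ((G.gm χ hχ χb χs χΩ).wy k d : E → ℝ) z ^ 2 = (G.l2S d : E → ℝ) z := by
      unfold l2S
      rw [vsum]
      refine Finset.sum_congr rfl fun k _ => ?_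
      change (wk G.dir (G.W d) (Sum.inr k) : E → ℝ) z ^ 2 =
        (wk G.dir (G.W d) (Sum.inr k) : E → ℝ) z * (wk G.dir (G.W d) (Sum.inr k) : E → ℝ) z
      ring
    rw [e1, h2]
    have h3 := G.E1 d z hz
    have h4 : 0 ≤ c₁ * G.h d ^ 2 := mul_nonneg G.c10.le (sq_nonneg _)
    have h5 : (c₁ * G.h d ^ 2) ^ 2 ≤ G.e0 d z ^ 2 := pow_le_pow_left₀ h4 h3 2
    calc min c₁ (c₁ ^ 2 * m) * G.h d ^ 4 ≤ (c₁ ^ 2 * m) * G.h d ^ 4 :=
          mul_le_mul_of_nonneg_right (min_le_right _ _) (pow_nonneg (G.hp d).le 4)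
      _ = (c₁ * G.h d ^ 2) ^ 2 * m := by ring
      _ ≤ _ := mul_le_mul h5 h1 C.m0.le (sq_nonneg _)
  · have h1 := G.om_one (δ := δ) C.cg0 c'0 low d hz
    rw [vg] at h1
    exact h1
  · obtain ⟨-, h2⟩ := pw C N d hz
    have h3 := h2.scale (G.e0_pos d z)
    have eH : (fun i l => ((G.gm χ hχ χb χs χΩ).H i l d : E → ℝ) z) = fun i l => G.e0 d z *
        H312.T.Hex (G.nu d z) (G.K0 d z) (G.s0 d z) (G.k0 d z) (G.t0 d z)
        (fun i => (G.p (Sum.inl i) d : E → ℝ) z) (fun i => (G.q i d : E → ℝ) z)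
        (fun i l => (ds (G.dir (Sum.inl i)) (G.p (Sum.inl l) d) : E → ℝ) z) i l :=
      funext fun i => funext fun l => G.H_val d z i l
    have eM : (fun i l => ((G.gm χ hχ χb χs χΩ).M i l d : E → ℝ) z) = fun i l => G.e0 d z *
        H312.T.Mex (G.K0 d z) (G.s0 d z) (G.k0 d z) (G.t0 d z)
        (fun i => (G.p (Sum.inl i) d : E → ℝ) z) (fun i => (G.p (Sum.inr i) d : E → ℝ) z)
        (fun i => (G.q i d : E → ℝ) z) i l :=
      funext fun i => funext fun l => G.M_val d z i l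
    have eG : (fun i l => ((G.gm χ hχ χb χs χΩ).G' i l d : E → ℝ) z) = fun i l => G.e0 d z *
        H312.T.Gex (G.nu d z) (G.K0 d z) (G.s0 d z) (G.k0 d z) (G.t0 d z)
        (fun i => (G.p (Sum.inr i) d : E → ℝ) z) (fun i => (G.q i d : E → ℝ) z)
        (fun i l => (ds (G.dir (Sum.inr i)) (G.p (Sum.inr l) d) : E → ℝ) z) i l :=
      funext fun i => funext fun l => G.G_val d z i l
    have ey : (fun k => ((G.gm χ hχ χb χs χΩ).wy k d : E → ℝ) z) = fun k => G.e0 d z *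
        H312.T.yex (G.nu d z) (G.s0 d z) (G.k0 d z)
        (fun i => (G.p (Sum.inr i) d : E → ℝ) z) (fun i => (G.q i d : E → ℝ) z) k :=
      funext fun k => G.y_val d z k
    rw [eH, eM, eG, ey, G.kap_val, vs d z hz]
    exact h3

end hy

end Wd

end Vale.Agent.P088.R2.H820.W
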