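import Vale.Agent.P088.R2.H820.T.Main
import Vale.Agent.P088.R2.H551.E.Cur
import Vale.Agent.P088.R2.H644.W.Flat

/-!
# The flat zone: bridge between operators and functions
-/

open MeasureTheory Set
open scoped ContDiff

set_option linter.unusedSectionVars false

noncomputable section

namespace Vale.Agent.P088.R2.H820.W

open Vale.Agent.P088.R2.H464.EP

/-! ## Integrals of linear combinations -/

section rep

variable {E : Type} [MeasurableSpace E] {μ : Measure E}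

/-- `f` is integrable with integral `x`. -/
def Rep (μ : Measure E) (x : ℝ) (f : E → ℝ) : Prop := Integrable f μ ∧ ∫ z, f z ∂μ = x

variable {x y : ℝ} {f g : E → ℝ}

theorem Rep.add (hf : Rep μ x f) (hg : Rep μ y g) : Rep μ (x + y) (fun z => f z + g z) :=
  ⟨hf.1.add hg.1, by rw [integral_add hf.1 hg.1, hf.2, hg.2]⟩

theorem Rep.sub (hf : Rep μ x f) (hg : Rep μ y g) : Rep μ (x - y) (fun z => f z - g z) :=
  ⟨hf.1.sub hg.1, by rw [integral_sub hf.1 hg.1, hf.2, hg.2]⟩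

theorem Rep.cmul (c : ℝ) (hf : Rep μ x f) : Rep μ (c * x) (fun z => c * f z) :=
  ⟨hf.1.const_mul c, by rw [integral_const_mul, hf.2]⟩

theorem Rep.sum {α : Type} (S : Finset α) {x : α → ℝ} {f : α → E → ℝ}
    (h : ∀ a ∈ S, Rep μ (x a) (f a)) : Rep μ (∑ a ∈ S, x a) (fun z => ∑ a ∈ S, f a z) :=
  ⟨integrable_finsetSum S fun a ha => (h a ha).1, by
    rw [integral_finsetSum S fun a ha => (h a ha).1]
    exact Finset.sum_congr rfl fun a ha => (h a ha).2⟩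

theorem Rep.congr (hf : Rep μ x f) (h : ∀ z, g z = f z) : Rep μ x g := by
  have : g = f := funext h
  rw [this]; exact hf

theorem Rep.le (hf : Rep μ x f) (hg : Rep μ y g) (h : ∀ z, f z ≤ g z) : x ≤ y := by
  rw [← hf.2, ← hg.2]
  exact integral_mono hf.1 hg.1 h

variable [NormedAddCommGroup E] [NormedSpace ℝ E] [BorelSpace E] [IsFiniteMeasureOnCompacts μ]

theorem rep_ip (g : Sm E) (u v : TE E) :
    Rep μ (ip μ (ml g u) v) (fun z => (g : E → ℝ) z * u.fn z * v.fn z) := by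
  refine ⟨?_, ?_⟩
  · have := integrable_mul μ (ml g u) v
    exact this
  · rw [ip_apply]; rfl

theorem rep_nm (g : Sm E) (u : TE E) :
    Rep μ (nm μ (ml g u)) (fun z => (g : E → ℝ) z ^ 2 * u.fn z ^ 2) := by
  refine ⟨?_, ?_⟩
  · have := integrable_mul μ (ml g u) (ml g u)
    refine this.congr (Filter.Eventually.of_forall fun z => ?_)
    change (g : E → ℝ) z * u.fn z * ((g : E → ℝ) z * u.fn z) = _
    ring
  · unfold nm
    rw [ip_apply]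
    refine integral_congr_ae (Filter.Eventually.of_forall fun z => ?_)
    change _ = (g : E → ℝ) z * u.fn z * ((g : E → ℝ) z * u.fn z)
    ring

end rep

section ops

variable {E κ : Type} [NormedAddCommGroup E] [NormedSpace ℝ E] (dir : κ → E) (W : Sm E)

theorem Xs_fn (k : κ) (u : TE E) (z : E) : (Xs dir W k u).fn z =
    u.fn z * fderiv ℝ (W : E → ℝ) z (dir k) - fderiv ℝ u.fn z (dir k) := by
  change fderiv ℝ (W : E → ℝ) z (dir k) * u.fn z - fderiv ℝ u.fn z (dir k) = _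
  ring

theorem XX_fn (k : κ) (u : TE E) (z : E) : (X dir W k (X dir W k u)).fn z =
    fderiv ℝ (fun w => fderiv ℝ u.fn w (dir k)) z (dir k) +
      2 * (fderiv ℝ (W : E → ℝ) z (dir k) * fderiv ℝ u.fn z (dir k)) +
      fderiv ℝ (fun w => fderiv ℝ (W : E → ℝ) w (dir k)) z (dir k) * u.fn z +
      fderiv ℝ (W : E → ℝ) z (dir k) ^ 2 * u.fn z := by
  have e : X dir W k (X dir W k u) = dv (dir k) (dv (dir k) u) +
      (ml (wk dir W k) (dv (dir k) u) + ml (ds (dir k) (wk dir W k)) u) +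
      (ml (wk dir W k) (dv (dir k) u) + ml (wk dir W k) (ml (wk dir W k) u)) := by
    rw [X_eq k (X dir W k u), X_eq k u, map_add, map_add, dv_ml']
  rw [e]
  change fderiv ℝ (fun w => fderiv ℝ u.fn w (dir k)) z (dir k) +
    (fderiv ℝ (W : E → ℝ) z (dir k) * fderiv ℝ u.fn z (dir k) +
      fderiv ℝ (fun w => fderiv ℝ (W : E → ℝ) w (dir k)) z (dir k) * u.fn z) +
    (fderiv ℝ (W : E → ℝ) z (dir k) * fderiv ℝ u.fn z (dir k) +
      fderiv ℝ (W : E → ℝ) z (dir k) * (fderiv ℝ (W : E → ℝ) z (dir k) * u.fn z)) = _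
  ring

end ops

/-! ## The remainder -/

/-- A first order term. -/
theorem x1_bd {ι : Type} [Fintype ι] (g A : ι → ℝ) {a h K : ℝ} (hK : 0 ≤ K) (h1 : 1 ≤ h)
    (hg : ∀ i, |g i| ≤ K * h ^ 2) :
    |a * ∑ i, g i * A i| ≤ K * (h * ∑ i, A i ^ 2 + Fintype.card ι * (h ^ 3 * a ^ 2)) := by
  have h0 : 0 < h := by linarith
  have e : a * ∑ i, g i * A i = ∑ i, a * (g i * A i) := Finset.mul_sum _ _ _
  rw [e]
  refine (Finset.abs_sum_le_sum_abs _ _).trans ?_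
  have e2 : K * (h * ∑ i, A i ^ 2 + Fintype.card ι * (h ^ 3 * a ^ 2)) =
      ∑ i, K * (h * A i ^ 2 + h ^ 3 * a ^ 2) := by
    rw [← Finset.mul_sum, Finset.sum_add_distrib, ← Finset.mul_sum, Finset.sum_const,
      Finset.card_univ, nsmul_eq_mul]
  rw [e2]
  refine Finset.sum_le_sum fun i _ => ?_
  rw [abs_mul, abs_mul]
  have h2 : |a| * (|g i| * |A i|) ≤ |a| * (K * h ^ 2 * |A i|) :=
    mul_le_mul_of_nonneg_left (mul_le_mul_of_nonneg_right (hg i) (abs_nonneg _)) (abs_nonneg _)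
  have h3 : 2 * (h ^ 2 * (|a| * |A i|)) ≤ h * A i ^ 2 + h ^ 3 * a ^ 2 := by
    have h4 : 0 ≤ h * (|A i| - h * |a|) ^ 2 := mul_nonneg h0.le (sq_nonneg _)
    have h5 : h * (|A i| - h * |a|) ^ 2 = h * A i ^ 2 + h ^ 3 * a ^ 2 -
        2 * (h ^ 2 * (|a| * |A i|)) := by
      rw [← sq_abs (A i), ← sq_abs a]; ring
    linarith
  have h5 : 0 ≤ h ^ 2 * (|a| * |A i|) := by positivity
  nlinarith [mul_le_mul_of_nonneg_left h3 hK, mul_nonneg hK h5]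

/-- All remaining terms. -/
theorem rem_bd {K h a b SA SB m2 gb l1 l2 l3 x1 x2 y1 y2 nn : ℝ} (hK : 0 ≤ K) (h1 : 1 ≤ h)
    (hn : 0 ≤ nn) (hm2 : |m2| ≤ K * h ^ 4) (hg : |gb| ≤ K * h ^ 4) (hl1 : |l1| ≤ K * h ^ 2)
    (hl2 : |l2| ≤ K * h ^ 2) (hl3 : |l3| ≤ K * h ^ 2)
    (hx1 : |a * x1| ≤ K * (h * SA + nn * (h ^ 3 * a ^ 2)))
    (hx2 : |b * x2| ≤ K * (h * SA + nn * (h ^ 3 * b ^ 2)))
    (hy1 : |a * y1| ≤ K * (h * SB + nn * (h ^ 3 * a ^ 2)))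
    (hy2 : |b * y2| ≤ K * (h * SB + nn * (h ^ 3 * b ^ 2)))
    (hSA : 0 ≤ SA) (hSB : 0 ≤ SB) :
    |-(8 * (2 * (m2 * (a * b)) + gb * b ^ 2)) - 8 * (a * x1 + b * x2 + a * y1 + b * y2) +
      2 * (l1 * a ^ 2 + 2 * (l2 * (a * b)) + l3 * b ^ 2)| ≤
      K * (36 + 16 * nn) * (h * (SA + SB) + h ^ 3 * a ^ 2 + h ^ 5 * b ^ 2) := by
  have h0 : 0 < h := by linarith
  have p35 : h ^ 3 ≤ h ^ 5 := pow_le_pow_right₀ h1 (by norm_num)
  have p45 : h ^ 4 ≤ h ^ 5 := pow_le_pow_right₀ h1 (by norm_num)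
  have p23 : h ^ 2 ≤ h ^ 3 := pow_le_pow_right₀ h1 (by norm_num)
  have p25 : h ^ 2 ≤ h ^ 5 := pow_le_pow_right₀ h1 (by norm_num)
  have qa := sq_nonneg a
  have qb := sq_nonneg b
  -- the products `a b`
  have ab4 : h ^ 4 * (|a| * |b|) ≤ h ^ 3 * a ^ 2 + h ^ 5 * b ^ 2 := by
    have h4 : 0 ≤ h ^ 3 * (|a| - h * |b|) ^ 2 := by positivity
    have h5 : 0 ≤ h ^ 4 * (|a| * |b|) := by positivity
    nlinarith [sq_abs a, sq_abs b]
  have ab2 : h ^ 2 * (|a| * |b|) ≤ h ^ 3 * a ^ 2 + h ^ 5 * b ^ 2 := by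
    refine le_trans ?_ ab4
    exact mul_le_mul_of_nonneg_right (pow_le_pow_right₀ h1 (by norm_num)) (by positivity)
  have t1 : |m2 * (a * b)| ≤ K * (h ^ 3 * a ^ 2 + h ^ 5 * b ^ 2) := by
    rw [abs_mul, abs_mul]
    calc _ ≤ (K * h ^ 4) * (|a| * |b|) := mul_le_mul_of_nonneg_right hm2 (by positivity)
      _ = K * (h ^ 4 * (|a| * |b|)) := by ring
      _ ≤ _ := mul_le_mul_of_nonneg_left ab4 hK
  have t2 : |gb * b ^ 2| ≤ K * (h ^ 5 * b ^ 2) := by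
    rw [abs_mul, abs_of_nonneg qb]
    calc _ ≤ (K * h ^ 4) * b ^ 2 := mul_le_mul_of_nonneg_right hg qb
      _ = K * (h ^ 4 * b ^ 2) := by ring
      _ ≤ _ := mul_le_mul_of_nonneg_left (mul_le_mul_of_nonneg_right p45 qb) hK
  have t3 : |l1 * a ^ 2| ≤ K * (h ^ 3 * a ^ 2) := by
    rw [abs_mul, abs_of_nonneg qa]
    calc _ ≤ (K * h ^ 2) * a ^ 2 := mul_le_mul_of_nonneg_right hl1 qa
      _ = K * (h ^ 2 * a ^ 2) := by ring
      _ ≤ _ := mul_le_mul_of_nonneg_left (mul_le_mul_of_nonneg_right p23 qa) hK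
  have t4 : |l2 * (a * b)| ≤ K * (h ^ 3 * a ^ 2 + h ^ 5 * b ^ 2) := by
    rw [abs_mul, abs_mul]
    calc _ ≤ (K * h ^ 2) * (|a| * |b|) := mul_le_mul_of_nonneg_right hl2 (by positivity)
      _ = K * (h ^ 2 * (|a| * |b|)) := by ring
      _ ≤ _ := mul_le_mul_of_nonneg_left ab2 hK
  have t5 : |l3 * b ^ 2| ≤ K * (h ^ 5 * b ^ 2) := by
    rw [abs_mul, abs_of_nonneg qb]
    calc _ ≤ (K * h ^ 2) * b ^ 2 := mul_le_mul_of_nonneg_right hl3 qb
      _ = K * (h ^ 2 * b ^ 2) := by ring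
      _ ≤ _ := mul_le_mul_of_nonneg_left (mul_le_mul_of_nonneg_right p25 qb) hK
  have u2 : K * (h * SA + nn * (h ^ 3 * b ^ 2)) ≤ K * (h * SA + nn * (h ^ 5 * b ^ 2)) :=
    mul_le_mul_of_nonneg_left (add_le_add le_rfl (mul_le_mul_of_nonneg_left
      (mul_le_mul_of_nonneg_right p35 qb) hn)) hK
  have u4 : K * (h * SB + nn * (h ^ 3 * b ^ 2)) ≤ K * (h * SB + nn * (h ^ 5 * b ^ 2)) :=
    mul_le_mul_of_nonneg_left (add_le_add le_rfl (mul_le_mul_of_nonneg_left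
      (mul_le_mul_of_nonneg_right p35 qb) hn)) hK
  have z1 : 0 ≤ K * (h * SA) := mul_nonneg hK (mul_nonneg h0.le hSA)
  have z2 : 0 ≤ K * (h * SB) := mul_nonneg hK (mul_nonneg h0.le hSB)
  have z3 : 0 ≤ K * (h ^ 3 * a ^ 2) := by positivity
  have z4 : 0 ≤ K * (h ^ 5 * b ^ 2) := by positivity
  have z5 : 0 ≤ nn * (K * (h ^ 3 * a ^ 2)) := mul_nonneg hn z3
  have z6 : 0 ≤ nn * (K * (h ^ 5 * b ^ 2)) := mul_nonneg hn z4
  have z7 : 0 ≤ nn * (K * (h * SA)) := mul_nonneg hn z1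
  have z8 : 0 ≤ nn * (K * (h * SB)) := mul_nonneg hn z2
  rw [abs_le] at *
  obtain ⟨m1, m1'⟩ := t1
  obtain ⟨m2', m2''⟩ := t2
  obtain ⟨m3, m3'⟩ := t3
  obtain ⟨m4, m4'⟩ := t4
  obtain ⟨m5, m5'⟩ := t5
  obtain ⟨m6, m6'⟩ := hx1
  obtain ⟨m7, m7'⟩ := hx2
  obtain ⟨m8, m8'⟩ := hy1
  obtain ⟨m9, m9'⟩ := hy2
  constructor
  · linarith
  · linarith

end Vale.Agent.P088.R2.H820.W
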