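import Vale.Agent.P088.R2.H820.T.Zf2

/-!
# The flat zone: the abstract zone inequality
-/

open MeasureTheory Set
open scoped ContDiff

set_option linter.unusedSectionVars false

noncomputable section

namespace Vale.Agent.P088.R2.H820.W

open Vale.Agent.P088.R2.H464.EP

namespace Gm

variable {D E ι : Type} [NormedAddCommGroup E] [NormedSpace ℝ E] [Fintype ι] [MeasurableSpace E]
  [BorelSpace E] [FiniteDimensional ℝ E] {μ : Measure E} [μ.IsAddHaarMeasure] (G : Gm D E ι)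

/-- The squares. -/
def sq (d : D) (a b : TE E) (z : E) : ℝ :=
  (G.P1 d a).fn z ^ 2 + (G.P2 d b).fn z ^ 2 + (G.P2 d a).fn z ^ 2 + (G.P1 d b).fn z ^ 2

/-- The quadratic densities. -/
def qf (g : Sm E) (κ ζ₁ ζ₂ w₁ w₂ : ℝ) (d : D) (a b : TE E) (z : E) : ℝ :=
  (g : E → ℝ) z ^ 2 * (κ * G.sq d a b z + ζ₁ * (∑ i, (G.xs i d a).fn z ^ 2) +
    ζ₂ * (∑ j, (G.ys j d b).fn z ^ 2) + w₁ * a.fn z ^ 2 + w₂ * b.fn z ^ 2)

theorem rep_qf (g : Sm E) (κ ζ₁ ζ₂ w₁ w₂ : ℝ) (d : D) (a b : TE E) :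
    Rep μ (κ * (nm μ (ml g (G.P1 d a)) + nm μ (ml g (G.P2 d b)) + nm μ (ml g (G.P2 d a)) +
      nm μ (ml g (G.P1 d b))) + ζ₁ * (∑ i, nm μ (ml g (G.xs i d a))) +
      ζ₂ * (∑ j, nm μ (ml g (G.ys j d b))) + w₁ * nm μ (ml g a) + w₂ * nm μ (ml g b))
      (G.qf g κ ζ₁ ζ₂ w₁ w₂ d a b) := by
  refine (((((((((rep_nm (μ := μ) g (G.P1 d a)).add (rep_nm g (G.P2 d b))).add
    (rep_nm g (G.P2 d a))).add (rep_nm g (G.P1 d b))).cmul κ).add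
    ((Rep.sum (μ := μ) Finset.univ fun i _ => rep_nm g (G.xs i d a)).cmul ζ₁)).add
    ((Rep.sum (μ := μ) Finset.univ fun i _ => rep_nm g (G.ys i d b)).cmul ζ₂)).add
    ((rep_nm g a).cmul w₁)).add ((rep_nm g b).cmul w₂)).congr fun z => ?_
  unfold qf sq
  have s1 : ∀ (c : ℝ) (F : ι → ℝ), ∑ i, c * F i = c * ∑ i, F i := fun c F =>
    (Finset.mul_sum _ _ _).symm
  rw [s1, s1]
  ring

/-- The star density. -/
def sd (l2 : Sm E) (d : D) (a b : TE E) (z : E) : ℝ :=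
  8 * ((∑ i, ∑ l, (G.H i l d : E → ℝ) z * (G.xs i d a).fn z * (G.xs l d a).fn z) +
    2 * (∑ i, ∑ j, (G.M i j d : E → ℝ) z * (G.xs i d a).fn z * (G.ys j d b).fn z) +
    (∑ j, ∑ k, (G.G' j k d : E → ℝ) z * (G.ys j d b).fn z * (G.ys k d b).fn z)) -
  8 * ((∑ i, ∑ l, (G.H i l d : E → ℝ) z ^ 2) * a.fn z ^ 2) +
  (-(8 * (2 * ((∑ i, ∑ j, (G.M i j d : E → ℝ) z ^ 2) * (a.fn z * b.fn z)) +
    (∑ i, ∑ j, (G.G' i j d : E → ℝ) z ^ 2) * b.fn z ^ 2)) -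
  8 * (a.fn z * (∑ i, (ds (G.dir (Sum.inl i)) (G.Lx d) : E → ℝ) z * (G.xs i d a).fn z) +
    b.fn z * (∑ i, (ds (G.dir (Sum.inl i)) (G.Ly d) : E → ℝ) z * (G.xs i d a).fn z) +
    a.fn z * (∑ j, (ds (G.dir (Sum.inr j)) (G.Lx d) : E → ℝ) z * (G.ys j d b).fn z) +
    b.fn z * (∑ j, (ds (G.dir (Sum.inr j)) (G.Ly d) : E → ℝ) z * (G.ys j d b).fn z)) +
  2 * ((G.Lpx (G.Lx d) : E → ℝ) z * a.fn z ^ 2 + 2 * ((l2 : E → ℝ) z * (a.fn z * b.fn z)) +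
    (G.Lpy (G.Ly d) : E → ℝ) z * b.fn z ^ 2))

variable [DecidableEq ι] {G} {kap sig Ef om : D → Sm E} {c θ c₀ : ℝ}

/-- **The abstract zone inequality.** -/
theorem zone_abs (μ : Measure E) [μ.IsAddHaarMeasure] (h : Hy G kap sig Ef om c θ c₀) :
    ∃ C, 0 ≤ C ∧ ∀ (d : D) (a b : TE E)
    (l2 : Sm E), (l2 = G.Lpx (G.Ly d) ∨ l2 = G.Lpy (G.Lx d)) →
    Integrable (fun z => (G.χ 0 d : E → ℝ) z ^ 2 * (G.sq d a b z + G.sd l2 d a b z)) μ →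
    (∫ z, G.qf (G.χ 0 d) 1 (8 * θ * (c * min c₀ (c₀ ^ 2)) * G.h d ^ 2)
      (4 * (c * min c₀ (c₀ ^ 2)) * G.h d ^ 2) (8 * (c * min c₀ (c₀ ^ 2)) * G.h d ^ 4)
      (8 * (c * min c₀ (c₀ ^ 2)) * c₀ * G.h d ^ 6) d a b z ∂μ) -
    (∫ z, G.qf (G.χ 3 d) (C * (G.h d)⁻¹) (C * G.h d) (C * G.h d) (C * G.h d ^ 3)
      (C * G.h d ^ 5) d a b z ∂μ) ≤
      ∫ z, (G.χ 0 d : E → ℝ) z ^ 2 * (G.sq d a b z + G.sd l2 d a b z) ∂μ := by
  obtain ⟨C₁, hC₁, H⟩ := main (μ := μ) h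
  obtain ⟨K, hK, hk⟩ := G.kb
  set C' := K * (36 + 16 * (Fintype.card ι : ℝ)) with hC'
  have C'0 : 0 ≤ C' := by positivity
  refine ⟨8 * C₁ + C', by positivity, fun d a b l2 hl hi => ?_⟩
  have H1 := H d a b
  have hh := G.hp d
  have hh1 := G.h1 d
  set c' := c * min c₀ (c₀ ^ 2) with hc'
  have R1 := G.rep_form (μ := μ) d a b
  -- the lower bound of the integrand
  have R2 := G.rep_qf (μ := μ) (G.χ 0 d) 1 (-(C' * G.h d)) (-(C' * G.h d)) (-(C' * G.h d ^ 3))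
    (-(C' * G.h d ^ 5)) d a b
  have R3 := (R1.cmul 8).add R2
  have R4 : Rep μ (∫ z, (G.χ 0 d : E → ℝ) z ^ 2 * (G.sq d a b z + G.sd l2 d a b z) ∂μ)
    (fun z => (G.χ 0 d : E → ℝ) z ^ 2 * (G.sq d a b z + G.sd l2 d a b z)) := ⟨hi, rfl⟩
  have L := R3.le R4 fun z => by
    by_cases hz0 : (G.χ 0 d : E → ℝ) z = 0
    · unfold fi qf
      rw [hz0]
      simp
    have hz : z ∈ G.Ω d := by
      refine G.χΩ d z ?_
      have h1 := G.χs 0 (by norm_num) d z hz0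
      have h2 := G.χs 1 (by norm_num) d z (by rw [h1]; exact one_ne_zero)
      have h3 := G.χs 2 (by norm_num) d z (by rw [h2]; exact one_ne_zero)
      rw [h3]; exact one_ne_zero
    have k := hk d z hz
    have hl2 : |(l2 : E → ℝ) z| ≤ K * G.h d ^ 2 := by
      rcases hl with rfl | rfl
      · exact k.xy
      · exact k.yx
    have bd := rem_bd (K := K) (h := G.h d) (a := a.fn z) (b := b.fn z)
      (SA := ∑ i, (G.xs i d a).fn z ^ 2) (SB := ∑ j, (G.ys j d b).fn z ^ 2)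
      (nn := (Fintype.card ι : ℝ)) hK hh1 (Nat.cast_nonneg _) k.m2 k.g2 k.xx hl2 k.yy
      (x1_bd _ _ hK hh1 fun i => k.lx (Sum.inl i))
      (x1_bd _ _ hK hh1 fun i => k.ly (Sum.inl i))
      (x1_bd _ _ hK hh1 fun i => k.lx (Sum.inr i))
      (x1_bd _ _ hK hh1 fun i => k.ly (Sum.inr i))
      (Finset.sum_nonneg fun i _ => sq_nonneg _) (Finset.sum_nonneg fun i _ => sq_nonneg _)
    have bd1 := (abs_le.1 bd).1
    have q0 : 0 ≤ (G.χ 0 d : E → ℝ) z ^ 2 := sq_nonneg _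
    unfold fi qf sd
    have e : ∀ x : ℝ, 8 * ((G.χ 0 d : E → ℝ) z ^ 2 * x) = (G.χ 0 d : E → ℝ) z ^ 2 * (8 * x) :=
      fun x => by ring
    rw [e, ← mul_add]
    refine mul_le_mul_of_nonneg_left ?_ q0
    linarith [bd1]
  -- the values
  rw [(G.rep_qf (μ := μ) (G.χ 0 d) 1 (8 * θ * c' * G.h d ^ 2) (4 * c' * G.h d ^ 2)
    (8 * c' * G.h d ^ 4) (8 * c' * c₀ * G.h d ^ 6) d a b).2,
    (G.rep_qf (μ := μ) (G.χ 3 d) ((8 * C₁ + C') * (G.h d)⁻¹) ((8 * C₁ + C') * G.h d)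
    ((8 * C₁ + C') * G.h d) ((8 * C₁ + C') * G.h d ^ 3) ((8 * C₁ + C') * G.h d ^ 5) d a b).2]
  refine le_trans ?_ L
  -- comparison of the norms
  have mono : ∀ f : TE E, nm μ (ml (G.χ 0 d) f) ≤ nm μ (ml (G.χ 3 d) f) := fun f => by
    have := nm_mono (μ := μ) (f := ml (G.χ 0 d) f) (g := ml (G.χ 3 d) f) (c := 1) fun z => by
      change ((G.χ 0 d : E → ℝ) z * f.fn z) ^ 2 ≤ 1 * ((G.χ 3 d : E → ℝ) z * f.fn z) ^ 2
      by_cases hz0 : (G.χ 0 d : E → ℝ) z = 0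
      · rw [hz0, zero_mul, zero_pow two_ne_zero, one_mul]
        exact sq_nonneg _
      have h1 := G.χs 0 (by norm_num) d z hz0
      have h2 := G.χs 1 (by norm_num) d z (by rw [h1]; exact one_ne_zero)
      have h3 := G.χs 2 (by norm_num) d z (by rw [h2]; exact one_ne_zero)
      rw [h3, mul_pow, one_mul, one_mul]
      have h4 := (sq_le_one_iff_abs_le_one _).2 (G.χb 0 (by norm_num) d z)
      exact mul_le_of_le_one_left (sq_nonneg _) h4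
    simpa using this
  have mA : ∑ i, nm μ (ml (G.χ 0 d) (G.xs i d a)) ≤ ∑ i, nm μ (ml (G.χ 3 d) (G.xs i d a)) :=
    Finset.sum_le_sum fun i _ => mono _
  have mB : ∑ j, nm μ (ml (G.χ 0 d) (G.ys j d b)) ≤ ∑ j, nm μ (ml (G.χ 3 d) (G.ys j d b)) :=
    Finset.sum_le_sum fun i _ => mono _
  have ma := mono a
  have mb := mono b
  have e1 : G.h d * G.r μ d a b = G.h d * (∑ i, nm μ (ml (G.χ 3 d) (G.xs i d a))) +
      G.h d * (∑ j, nm μ (ml (G.χ 3 d) (G.ys j d b))) + G.h d ^ 3 * nm μ (ml (G.χ 3 d) a) +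
      G.h d ^ 5 * nm μ (ml (G.χ 3 d) b) + (G.h d)⁻¹ * (nm μ (ml (G.χ 3 d) (G.P1 d a)) +
      nm μ (ml (G.χ 3 d) (G.P2 d a)) + nm μ (ml (G.χ 3 d) (G.P2 d b))) := by
    unfold r
    field_simp
  have e2 : C₁ * G.h d * G.r μ d a b = C₁ * (G.h d * G.r μ d a b) := by ring
  rw [e2, e1] at H1
  have i0 : 0 ≤ (G.h d)⁻¹ := inv_nonneg.2 hh.le
  have n4 := nm_nonneg (μ := μ) (ml (G.χ 3 d) (G.P1 d b))
  have n1 := nm_nonneg (μ := μ) (ml (G.χ 3 d) (G.P1 d a))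
  have n2 := nm_nonneg (μ := μ) (ml (G.χ 3 d) (G.P2 d a))
  have n3 := nm_nonneg (μ := μ) (ml (G.χ 3 d) (G.P2 d b))
  have u1 := mul_le_mul_of_nonneg_left mA (mul_nonneg C'0 hh.le)
  have u2 := mul_le_mul_of_nonneg_left mB (mul_nonneg C'0 hh.le)
  have u3 := mul_le_mul_of_nonneg_left ma (mul_nonneg C'0 (pow_nonneg hh.le 3))
  have u4 := mul_le_mul_of_nonneg_left mb (mul_nonneg C'0 (pow_nonneg hh.le 5))
  have u5 : 0 ≤ C₁ * ((G.h d)⁻¹ * nm μ (ml (G.χ 3 d) (G.P1 d b))) := by positivity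
  have u6 : 0 ≤ C' * ((G.h d)⁻¹ * (nm μ (ml (G.χ 3 d) (G.P1 d a)) +
    nm μ (ml (G.χ 3 d) (G.P2 d a)) + nm μ (ml (G.χ 3 d) (G.P2 d b)) +
    nm μ (ml (G.χ 3 d) (G.P1 d b)))) := by positivity
  linarith

end Gm

end Vale.Agent.P088.R2.H820.W
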