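import Vale.Agent.P088.R2.H820.T.Zf3

/-!
# The flat zones `W_x = 0` and `W_y = 0` in the common form
-/

open MeasureTheory Set
open scoped ContDiff

set_option linter.unusedSectionVars false

noncomputable section

namespace Vale.Agent.P088.R2.H820.W

open Vale.Agent.P088.R2.H464.EP Vale.Agent.P088.LR Vale.Agent.P088.HY
open Vale.Agent.P088.R2.H961.GW (Sl Te In) 
open Vale.Agent.P088.R2.H644 Vale.Agent.P088.R2.H551.E Vale.Agent.P088.R2.H960.W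

variable {n : ℕ}

/-- The directions of `x`. -/
def ex (i : Fin n) : VV n := (Pi.single i 1, 0)
/-- The directions of `y`. -/
def ey (i : Fin n) : VV n := (0, Pi.single i 1)
/-- The directions `(x, y)`. -/
def dxy (n : ℕ) : Fin n ⊕ Fin n → VV n := Sum.elim ex ey
/-- The directions `(y, x)`. -/
def dyx (n : ℕ) : Fin n ⊕ Fin n → VV n := Sum.elim ey ex

theorem smo (f : Sm (VV n)) : ContDiffOn ℝ ∞ (f : VV n → ℝ) univ := (scd f).contDiffOn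

theorem te_un (a : TE (VV n)) : Te univ a.fn := ⟨a.cd, a.cs, subset_univ _⟩

theorem dv_x (i : Fin n) (f : Sm (VV n)) : (ds (ex i) f : VV n → ℝ) = dx i (f : VV n → ℝ) := rfl

theorem dv_y (i : Fin n) (f : Sm (VV n)) : (ds (ey i) f : VV n → ℝ) = dy i (f : VV n → ℝ) := rfl

theorem fxP (W a : VV n → ℝ) (z : VV n) : (Ch.fx n).P (fun _ => 0) W a z =
    ∑ i, (dx i (dx i a) z + 2 * (dx i W z * dx i a z) + dx i (dx i W) z * a z +
      dx i W z ^ 2 * a z) := by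
  unfold Sl.P Sl.K Sl.F
  rw [Ch.fx_Λ, Ch.fx_Γ, Ch.fx_Λ, Ch.fx_Γ]
  simp only [Finset.sum_add_distrib, Finset.mul_sum, Finset.sum_mul, zero_mul, add_zero, pow_two]
  ring

theorem fyP (W a : VV n → ℝ) (z : VV n) : (Ch.fy n).P (fun _ => 0) W a z =
    ∑ i, (dy i (dy i a) z + 2 * (dy i W z * dy i a z) + dy i (dy i W) z * a z +
      dy i W z ^ 2 * a z) := by
  unfold Sl.P Sl.K Sl.F
  rw [Ch.fy_Λ, Ch.fy_Γ, Ch.fy_Λ, Ch.fy_Γ]
  simp only [Finset.sum_add_distrib, Finset.mul_sum, Finset.sum_mul, zero_mul, add_zero, pow_two]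
  ring

/-- Sums of test functions. -/
theorem tsum_fn {α : Type} (A : Finset α) (f : α → TE (VV n)) (z : VV n) :
    (∑ a ∈ A, f a).fn z = ∑ a ∈ A, (f a).fn z := by
  classical
  induction A using Finset.induction_on with
  | empty => rfl
  | insert a S ha ih =>
    rw [Finset.sum_insert ha, Finset.sum_insert ha, ← ih]
    rfl

section star

variable {W a b : VV n → ℝ} (hW : ContDiff ℝ ∞ W)

include hW in
/-- The star density in the flat frame. -/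
theorem sta_flat (z : VV n) : sta (Ch.fx n) (Ch.fy n) (fun _ => 0) (fun _ => 0) W a b z =
    8 * ((∑ i, ∑ l, dx i (dx l W) z * (a z * dx i W z - dx i a z) *
        (a z * dx l W z - dx l a z)) +
      2 * (∑ i, ∑ k, dx i (dy k W) z * (a z * dx i W z - dx i a z) *
        (b z * dy k W z - dy k b z)) +
      ∑ k, ∑ m, dy k (dy m W) z * (b z * dy k W z - dy k b z) * (b z * dy m W z - dy m b z)) -
    8 * ((∑ i, ∑ l, dx i (dx l W) z ^ 2) * a z ^ 2 +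
      2 * ((∑ i, ∑ k, dx i (dy k W) z ^ 2) * (a z * b z)) +
      (∑ i, ∑ l, dy i (dy l W) z ^ 2) * b z ^ 2) -
    8 * (a z * (∑ i, dx i ((Ch.fx n).Λ W) z * (a z * dx i W z - dx i a z)) +
      b z * (∑ i, dx i ((Ch.fy n).Λ W) z * (a z * dx i W z - dx i a z)) +
      a z * (∑ i, dy i ((Ch.fx n).Λ W) z * (b z * dy i W z - dy i b z)) +
      b z * (∑ i, dy i ((Ch.fy n).Λ W) z * (b z * dy i W z - dy i b z))) +
    2 * ((Ch.fx n).Λ ((Ch.fx n).Λ W) z * a z ^ 2 +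
      2 * ((Ch.fx n).Λ ((Ch.fy n).Λ W) z * (a z * b z)) +
      (Ch.fy n).Λ ((Ch.fy n).Λ W) z * b z ^ 2) := by
  have hWo : ContDiffOn ℝ ∞ W univ := hW.contDiffOn
  unfold sta qs
  rw [Ch.f_TH isOpen_univ hWo (mem_univ z), Ch.fx_G2 isOpen_univ hWo (mem_univ z),
    Ch.fy_G2 isOpen_univ hWo (mem_univ z), Ch.f_M2, Ch.fx_X1, Ch.fx_X1, Ch.fy_X1, Ch.fy_X1]
  have g1 : (Ch.fx n).Γ W (fun _ => 0) z = 0 := by
    rw [Ch.fx_Γ]
    simp [dx]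
  have g2 : (Ch.fy n).Γ W (fun _ => 0) z = 0 := by
    rw [Ch.fy_Γ]
    simp [dy]
  rw [g1, g2]
  simp only [Ch.fx_XX, Ch.fy_XX]
  ring

end star

/-- A density with constant coefficients, multiplied by `g²`. -/
def Qc (g : VV n → ℝ) (κ ζ₁ ζ₂ w₁ w₂ : ℝ) : Q8 (VV n) where
  κ z := g z ^ 2 * κ
  ζ₁ z := g z ^ 2 * ζ₁
  ζ₂ z := g z ^ 2 * ζ₂
  ζy _ := 0
  w₁ z := g z ^ 2 * w₁
  w₂ z := g z ^ 2 * w₂
  wb _ := 0
  wc _ := 0

namespace Gm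

variable {D : Type} (G : Gm D (VV n) (Fin n))

section xy

variable (hd : G.dir = dxy n)

include hd

theorem Lpx_xy (f : Sm (VV n)) : (G.Lpx f : VV n → ℝ) = (Ch.fx n).Λ (f : VV n → ℝ) := by
  funext z
  unfold Lpx
  rw [vsum, Ch.fx_Λ, hd]
  rfl

theorem Lpy_xy (f : Sm (VV n)) : (G.Lpy f : VV n → ℝ) = (Ch.fy n).Λ (f : VV n → ℝ) := by
  funext z
  unfold Lpy
  rw [vsum, Ch.fy_Λ, hd]
  rfl

theorem Lx_xy (d : D) : (G.Lx d : VV n → ℝ) = (Ch.fx n).Λ (G.W d : VV n → ℝ) :=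
  G.Lpx_xy hd (G.W d)

theorem Ly_xy (d : D) : (G.Ly d : VV n → ℝ) = (Ch.fy n).Λ (G.W d : VV n → ℝ) :=
  G.Lpy_xy hd (G.W d)

theorem xs_xy (i : Fin n) (d : D) (a : TE (VV n)) (z : VV n) : (G.xs i d a).fn z =
    a.fn z * dx i (G.W d : VV n → ℝ) z - dx i a.fn z := by
  unfold xs
  rw [Xs_fn, hd]
  rfl

theorem ys_xy (i : Fin n) (d : D) (a : TE (VV n)) (z : VV n) : (G.ys i d a).fn z =
    a.fn z * dy i (G.W d : VV n → ℝ) z - dy i a.fn z := by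
  unfold ys
  rw [Xs_fn, hd]
  rfl

theorem P1_xy (d : D) (a : TE (VV n)) (z : VV n) : (G.P1 d a).fn z =
    (Ch.fx n).P (fun _ => 0) (G.W d : VV n → ℝ) a.fn z := by
  unfold P1
  rw [tsum_fn, fxP]
  refine Finset.sum_congr rfl fun i _ => ?_
  rw [XX_fn, hd]
  rfl

theorem P2_xy (d : D) (a : TE (VV n)) (z : VV n) : (G.P2 d a).fn z =
    (Ch.fy n).P (fun _ => 0) (G.W d : VV n → ℝ) a.fn z := by
  unfold P2
  rw [tsum_fn, fyP]
  refine Finset.sum_congr rfl fun i _ => ?_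
  rw [XX_fn, hd]
  rfl

theorem sq_xy (d : D) (a b : TE (VV n)) (z : VV n) : G.sq d a b z =
    sqd (Ch.fx n) (Ch.fy n) (fun _ => 0) (fun _ => 0) (G.W d : VV n → ℝ) a.fn b.fn z := by
  unfold sq sqd
  rw [G.P1_xy hd, G.P2_xy hd, G.P1_xy hd, G.P2_xy hd]

theorem sd_xy (d : D) (a b : TE (VV n)) (z : VV n) : G.sd (G.Lpx (G.Ly d)) d a b z =
    sta (Ch.fx n) (Ch.fy n) (fun _ => 0) (fun _ => 0) (G.W d : VV n → ℝ) a.fn b.fn z := by
  have eH : ∀ i l, (G.H i l d : VV n → ℝ) z = dx i (dx l (G.W d : VV n → ℝ)) z := fun i l => by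
    unfold H ck
    rw [hd]; rfl
  have eM : ∀ i l, (G.M i l d : VV n → ℝ) z = dx i (dy l (G.W d : VV n → ℝ)) z := fun i l => by
    unfold M ck
    rw [hd]; rfl
  have eG : ∀ i l, (G.G' i l d : VV n → ℝ) z = dy i (dy l (G.W d : VV n → ℝ)) z := fun i l => by
    unfold G' ck
    rw [hd]; rfl
  have e1 : ∀ i, (ds (G.dir (Sum.inl i)) (G.Lx d) : VV n → ℝ) z =
      dx i ((Ch.fx n).Λ (G.W d : VV n → ℝ)) z := fun i => by
    rw [hd, ← G.Lx_xy hd]; rfl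
  have e2 : ∀ i, (ds (G.dir (Sum.inl i)) (G.Ly d) : VV n → ℝ) z =
      dx i ((Ch.fy n).Λ (G.W d : VV n → ℝ)) z := fun i => by
    rw [hd, ← G.Ly_xy hd]; rfl
  have e3 : ∀ i, (ds (G.dir (Sum.inr i)) (G.Lx d) : VV n → ℝ) z =
      dy i ((Ch.fx n).Λ (G.W d : VV n → ℝ)) z := fun i => by
    rw [hd, ← G.Lx_xy hd]; rfl
  have e4 : ∀ i, (ds (G.dir (Sum.inr i)) (G.Ly d) : VV n → ℝ) z =
      dy i ((Ch.fy n).Λ (G.W d : VV n → ℝ)) z := fun i => by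
    rw [hd, ← G.Ly_xy hd]; rfl
  have e5 : (G.Lpx (G.Lx d) : VV n → ℝ) z =
      (Ch.fx n).Λ ((Ch.fx n).Λ (G.W d : VV n → ℝ)) z := by
    rw [G.Lpx_xy hd, G.Lx_xy hd]
  have e6 : (G.Lpx (G.Ly d) : VV n → ℝ) z =
      (Ch.fx n).Λ ((Ch.fy n).Λ (G.W d : VV n → ℝ)) z := by
    rw [G.Lpx_xy hd, G.Ly_xy hd]
  have e7 : (G.Lpy (G.Ly d) : VV n → ℝ) z =
      (Ch.fy n).Λ ((Ch.fy n).Λ (G.W d : VV n → ℝ)) z := by
    rw [G.Lpy_xy hd, G.Ly_xy hd]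
  rw [sta_flat (scd (G.W d))]
  unfold sd
  simp only [eH, eM, eG, e1, e2, e3, e4, e5, e6, e7, G.xs_xy hd, G.ys_xy hd]
  ring

end xy

section yx

variable (hd : G.dir = dyx n)

include hd

theorem Lpx_yx (f : Sm (VV n)) : (G.Lpx f : VV n → ℝ) = (Ch.fy n).Λ (f : VV n → ℝ) := by
  funext z
  unfold Lpx
  rw [vsum, Ch.fy_Λ, hd]
  rfl

theorem Lpy_yx (f : Sm (VV n)) : (G.Lpy f : VV n → ℝ) = (Ch.fx n).Λ (f : VV n → ℝ) := by
  funext z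
  unfold Lpy
  rw [vsum, Ch.fx_Λ, hd]
  rfl

theorem Lx_yx (d : D) : (G.Lx d : VV n → ℝ) = (Ch.fy n).Λ (G.W d : VV n → ℝ) :=
  G.Lpx_yx hd (G.W d)

theorem Ly_yx (d : D) : (G.Ly d : VV n → ℝ) = (Ch.fx n).Λ (G.W d : VV n → ℝ) :=
  G.Lpy_yx hd (G.W d)

theorem xs_yx (i : Fin n) (d : D) (a : TE (VV n)) (z : VV n) : (G.xs i d a).fn z =
    a.fn z * dy i (G.W d : VV n → ℝ) z - dy i a.fn z := by
  unfold xs
  rw [Xs_fn, hd]
  rfl

theorem ys_yx (i : Fin n) (d : D) (a : TE (VV n)) (z : VV n) : (G.ys i d a).fn z =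
    a.fn z * dx i (G.W d : VV n → ℝ) z - dx i a.fn z := by
  unfold ys
  rw [Xs_fn, hd]
  rfl

theorem P1_yx (d : D) (a : TE (VV n)) (z : VV n) : (G.P1 d a).fn z =
    (Ch.fy n).P (fun _ => 0) (G.W d : VV n → ℝ) a.fn z := by
  unfold P1
  rw [tsum_fn, fyP]
  refine Finset.sum_congr rfl fun i _ => ?_
  rw [XX_fn, hd]
  rfl

theorem P2_yx (d : D) (a : TE (VV n)) (z : VV n) : (G.P2 d a).fn z =
    (Ch.fx n).P (fun _ => 0) (G.W d : VV n → ℝ) a.fn z := by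
  unfold P2
  rw [tsum_fn, fxP]
  refine Finset.sum_congr rfl fun i _ => ?_
  rw [XX_fn, hd]
  rfl

theorem sq_yx (d : D) (a b : TE (VV n)) (z : VV n) : G.sq d b a z =
    sqd (Ch.fx n) (Ch.fy n) (fun _ => 0) (fun _ => 0) (G.W d : VV n → ℝ) a.fn b.fn z := by
  unfold sq sqd
  rw [G.P1_yx hd, G.P2_yx hd, G.P1_yx hd, G.P2_yx hd]
  ring

theorem sd_yx (d : D) (a b : TE (VV n)) (z : VV n) : G.sd (G.Lpy (G.Lx d)) d b a z =
    sta (Ch.fx n) (Ch.fy n) (fun _ => 0) (fun _ => 0) (G.W d : VV n → ℝ) a.fn b.fn z := by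
  have eH : ∀ i l, (G.H i l d : VV n → ℝ) z = dy i (dy l (G.W d : VV n → ℝ)) z := fun i l => by
    unfold H ck
    rw [hd]; rfl
  have eM : ∀ i l, (G.M i l d : VV n → ℝ) z = dx l (dy i (G.W d : VV n → ℝ)) z := fun i l => by
    unfold M
    rw [ck_symm]
    unfold ck
    rw [hd]; rfl
  have eG : ∀ i l, (G.G' i l d : VV n → ℝ) z = dx i (dx l (G.W d : VV n → ℝ)) z := fun i l => by
    unfold G' ck
    rw [hd]; rfl
  have e1 : ∀ i, (ds (G.dir (Sum.inl i)) (G.Lx d) : VV n → ℝ) z =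
      dy i ((Ch.fy n).Λ (G.W d : VV n → ℝ)) z := fun i => by
    rw [hd, ← G.Lx_yx hd]; rfl
  have e2 : ∀ i, (ds (G.dir (Sum.inl i)) (G.Ly d) : VV n → ℝ) z =
      dy i ((Ch.fx n).Λ (G.W d : VV n → ℝ)) z := fun i => by
    rw [hd, ← G.Ly_yx hd]; rfl
  have e3 : ∀ i, (ds (G.dir (Sum.inr i)) (G.Lx d) : VV n → ℝ) z =
      dx i ((Ch.fy n).Λ (G.W d : VV n → ℝ)) z := fun i => by
    rw [hd, ← G.Lx_yx hd]; rfl
  have e4 : ∀ i, (ds (G.dir (Sum.inr i)) (G.Ly d) : VV n → ℝ) z =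
      dx i ((Ch.fx n).Λ (G.W d : VV n → ℝ)) z := fun i => by
    rw [hd, ← G.Ly_yx hd]; rfl
  have e5 : (G.Lpx (G.Lx d) : VV n → ℝ) z =
      (Ch.fy n).Λ ((Ch.fy n).Λ (G.W d : VV n → ℝ)) z := by
    rw [G.Lpx_yx hd, G.Lx_yx hd]
  have e6 : (G.Lpy (G.Lx d) : VV n → ℝ) z =
      (Ch.fx n).Λ ((Ch.fy n).Λ (G.W d : VV n → ℝ)) z := by
    rw [G.Lpy_yx hd, G.Lx_yx hd]
  have e7 : (G.Lpy (G.Ly d) : VV n → ℝ) z =
      (Ch.fx n).Λ ((Ch.fx n).Λ (G.W d : VV n → ℝ)) z := by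
    rw [G.Lpy_yx hd, G.Ly_yx hd]
  have s1 : ∀ F : Fin n → Fin n → ℝ, ∑ i, ∑ j, F i j = ∑ j, ∑ i, F i j := fun F =>
    Finset.sum_comm
  rw [sta_flat (scd (G.W d))]
  unfold sd
  simp only [eH, eM, eG, e1, e2, e3, e4, e5, e6, e7, G.xs_yx hd, G.ys_yx hd]
  rw [s1 (fun i j => dx j (dy i (G.W d : VV n → ℝ)) z *
    (b.fn z * dy i (G.W d : VV n → ℝ) z - dy i b.fn z) *
    (a.fn z * dx j (G.W d : VV n → ℝ) z - dx j a.fn z)),
    s1 (fun i j => dx j (dy i (G.W d : VV n → ℝ)) z ^ 2)]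
  have s2 : (∑ j, ∑ i, dx j (dy i (G.W d : VV n → ℝ)) z *
      (b.fn z * dy i (G.W d : VV n → ℝ) z - dy i b.fn z) *
      (a.fn z * dx j (G.W d : VV n → ℝ) z - dx j a.fn z)) =
      ∑ j, ∑ i, dx j (dy i (G.W d : VV n → ℝ)) z *
      (a.fn z * dx j (G.W d : VV n → ℝ) z - dx j a.fn z) *
      (b.fn z * dy i (G.W d : VV n → ℝ) z - dy i b.fn z) :=
    Finset.sum_congr rfl fun i _ => Finset.sum_congr rfl fun j _ => by ring
  rw [s2]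
  ring

end yx

end Gm

end Vale.Agent.P088.R2.H820.W
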